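import Vale.Agent.P029.Core

/-! Basic facts on evaluation, bracket monomials and derivations. -/

noncomputable section

namespace Vale.Agent.P029

variable {k : Type} [CommRing k] {A B : Type} [Ring A] [Algebra k A] [Ring B] [Algebra k B]
  {ι : Type}

@[simp] theorem ev_X (a b : A) : ev a b (X k) = a := by
  simp [ev, X]

@[simp] theorem ev_Y (a b : A) : ev a b (Y k) = b := by
  simp [ev, Y]

theorem T_ext {f g : T k →ₐ[k] A} (h1 : f (X k) = g (X k)) (h2 : f (Y k) = g (Y k)) : f = g := by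
  refine FreeAlgebra.hom_ext ?_
  funext i
  fin_cases i
  · exact h1
  · exact h2

theorem map_ev (f : A →ₐ[k] B) (a b : A) (m : T k) : f (ev a b m) = ev (f a) (f b) m := by
  have : f.comp (ev a b) = ev (f a) (f b) := T_ext (by simp) (by simp)
  exact DFunLike.congr_fun this m

@[simp] theorem ev_self (m : T k) : ev (X k) (Y k) m = m := by
  have : (ev (X k) (Y k) : T k →ₐ[k] T k) = AlgHom.id k _ := T_ext (by simp) (by simp)
  exact DFunLike.congr_fun this m

theorem map_lift (f : A →ₐ[k] B) (g : ι → A) (m : FreeAlgebra k ι) :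
    f (FreeAlgebra.lift k g m) = FreeAlgebra.lift k (fun i => f (g i)) m := by
  have : f.comp (FreeAlgebra.lift k g) = FreeAlgebra.lift k (fun i => f (g i)) := by
    refine FreeAlgebra.hom_ext ?_
    funext i
    simp
  exact DFunLike.congr_fun this m

theorem map_br {R S Φ : Type} [Ring R] [Ring S] [FunLike Φ R S] [RingHomClass Φ R S] (f : Φ)
    (a b : R) : f ⁅a, b⁆ = ⁅f a, f b⁆ := by
  simp only [Ring.lie_def, map_sub, map_mul]

theorem commute_lift {g : ι → A} {c : A} (h : ∀ i, Commute c (g i)) (m : FreeAlgebra k ι) :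
    Commute c (FreeAlgebra.lift k g m) := by
  induction m using FreeAlgebra.induction with
  | grade0 r => rw [AlgHom.commutes]; exact (Algebra.commutes r c).symm
  | grade1 i => simpa using h i
  | mul a b ha hb => rw [map_mul]; exact ha.mul_right hb
  | add a b ha hb => rw [map_add]; exact ha.add_right hb

theorem commute_ev {a b c : A} (ha : Commute c a) (hb : Commute c b) (m : T k) :
    Commute c (ev a b m) := by
  refine commute_lift (fun i => ?_) m
  fin_cases i
  · exact ha
  · exact hb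

@[simp] theorem Lm_apply (a m : A) : (Lm a : Module.End k A) m = a * m := by
  rfl

theorem Lm_injective : Function.Injective (Lm : A →ₐ[k] Module.End k A) := by
  intro a b h
  simpa using congrArg (fun f : Module.End k A => f 1) h

/-! monomials -/

section mon
variable {G G' : Type} {g : ι → G} {wt : ι → ℕ}

theorem Mon.pos [Bracket G G] (hw : ∀ i, 1 ≤ wt i) {n : ℕ} {a : G} (h : Mon g wt n a) :
    1 ≤ n := by
  induction h with
  | of i => exact hw i
  | br _ _ h1 h2 => omega

theorem Mon.map [Bracket G G] [Bracket G' G'] (f : G → G') (hf : ∀ a b, f ⁅a, b⁆ = ⁅f a, f b⁆)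
    {n : ℕ} {a : G} (h : Mon g wt n a) : Mon (fun i => f (g i)) wt n (f a) := by
  induction h with
  | of i => exact Mon.of (g := fun i => f (g i)) i
  | br _ _ h1 h2 => rw [hf]; exact Mon.br h1 h2

theorem Mon.finite [Bracket G G] [Finite ι] (hw : ∀ i, 1 ≤ wt i) (n : ℕ) :
    {a | Mon g wt n a}.Finite := by
  induction n using Nat.strong_induction_on with
  | _ n ih =>
    have h1 : (Set.range g).Finite := Set.finite_range g
    have h2 : (⋃ p ∈ {p : ℕ × ℕ | p.1 < n ∧ p.2 < n},
        Set.image2 (fun a b : G => ⁅a, b⁆) {a | Mon g wt p.1 a} {a | Mon g wt p.2 a}).Finite := by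
      refine Set.Finite.biUnion ?_ fun p hp => (ih _ hp.1).image2 _ (ih _ hp.2)
      exact ((Set.finite_lt_nat n).prod (Set.finite_lt_nat n)).subset fun p hp => hp
    refine (h1.union h2).subset fun a ha => ?_
    have ha' : Mon g wt n a := ha
    cases ha' with
    | of i => exact Or.inl ⟨i, rfl⟩
    | @br m n' a b h3 h4 =>
      have p3 := h3.pos hw
      have p4 := h4.pos hw
      refine Or.inr (Set.mem_biUnion (x := (m, n')) ⟨?_, ?_⟩ ⟨a, h3, b, h4, rfl⟩)
      · show m < m + n'
        omega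
      · show n' < m + n'
        omega

theorem H_of [AddCommGroup G] [Module k G] [Bracket G G] (i : ι) : g i ∈ H k g wt (wt i) := by
  exact Submodule.subset_span (Mon.of i)

theorem H_zero [AddCommGroup G] [Module k G] [Bracket G G] (hw : ∀ i, 1 ≤ wt i) :
    H k g wt 0 = ⊥ := by
  unfold H
  rw [Submodule.span_eq_bot]
  intro a ha
  have := Mon.pos hw ha
  omega

end mon

section ring
variable {g : ι → A} {wt : ι → ℕ}

theorem H_br {m n : ℕ} {a b : A} (ha : a ∈ H k g wt m) (hb : b ∈ H k g wt n) :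
    ⁅a, b⁆ ∈ H k g wt (m + n) := by
  induction ha using Submodule.span_induction with
  | mem a ha =>
    induction hb using Submodule.span_induction with
    | mem b hb => exact Submodule.subset_span (Mon.br ha hb)
    | zero => simp [Ring.lie_def]
    | add b c _ _ h1 h2 =>
      have : ⁅a, b + c⁆ = ⁅a, b⁆ + ⁅a, c⁆ := by simp only [Ring.lie_def]; noncomm_ring
      rw [this]; exact add_mem h1 h2
    | smul r b _ h1 =>
      have : ⁅a, r • b⁆ = r • ⁅a, b⁆ := by simp [Ring.lie_def, smul_sub]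
      rw [this]; exact Submodule.smul_mem _ r h1
  | zero => simp [Ring.lie_def]
  | add a c _ _ h1 h2 =>
    have : ⁅a + c, b⁆ = ⁅a, b⁆ + ⁅c, b⁆ := by simp only [Ring.lie_def]; noncomm_ring
    rw [this]; exact add_mem h1 h2
  | smul r a _ h1 =>
    have : ⁅r • a, b⁆ = r • ⁅a, b⁆ := by simp [Ring.lie_def, smul_sub]
    rw [this]; exact Submodule.smul_mem _ r h1

/-- a family of graded submodules that contains the generators and is closed under brackets
contains all monomials -/
theorem H_le (P : ℕ → Submodule k A) (h1 : ∀ i, g i ∈ P (wt i))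
    (h2 : ∀ m n a b, a ∈ H k g wt m → b ∈ H k g wt n → a ∈ P m → b ∈ P n → ⁅a, b⁆ ∈ P (m + n))
    (n : ℕ) : H k g wt n ≤ P n := by
  refine Submodule.span_le.2 fun a ha => ?_
  have ha' : Mon g wt n a := ha
  clear ha
  induction ha' with
  | of i => exact h1 i
  | br h3 h4 h5 h6 =>
    exact h2 _ _ _ _ (Submodule.subset_span h3) (Submodule.subset_span h4) h5 h6

/-- substitution of homogeneous Lie elements -/
theorem H_map {κ : Type} {g' : κ → B} {wt' : κ → ℕ} (f : A →ₐ[k] B)
    (h : ∀ i, f (g i) ∈ H k g' wt' (wt i)) {n : ℕ} {a : A} (ha : a ∈ H k g wt n) :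
    f a ∈ H k g' wt' n := by
  refine H_le (fun n => (H k g' wt' n).comap f.toLinearMap) h (fun m n a b _ _ h1 h2 => ?_) n ha
  show f ⁅a, b⁆ ∈ H k g' wt' (m + n)
  rw [map_br]
  exact H_br h1 h2

/-- a derivation that raises the weight of the generators by `r` -/
theorem H_der {d : Module.End k A} (hd : Der d) {r : ℕ} (h : ∀ i, d (g i) ∈ H k g wt (r + wt i))
    {n : ℕ} {a : A} (ha : a ∈ H k g wt n) : d a ∈ H k g wt (r + n) := by
  refine H_le (fun n => (H k g wt (r + n)).comap d) h (fun m n a b h3 h4 h1 h2 => ?_) n ha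
  show d ⁅a, b⁆ ∈ H k g wt (r + (m + n))
  have e : d ⁅a, b⁆ = ⁅d a, b⁆ + ⁅a, d b⁆ := by
    simp only [Ring.lie_def, map_sub, hd a b, hd b a]
    noncomm_ring
  rw [e]
  refine add_mem ?_ ?_
  · have := H_br h1 h4
    rwa [add_assoc] at this
  · have := H_br h3 h2
    rwa [add_left_comm] at this

/-- additivity of Lie polynomials on commuting families -/
theorem lift_add_of_H {wt : ι → ℕ} {f f' : ι → A} (h : ∀ i j, Commute (f i) (f' j)) {n : ℕ}
    {φ : FreeAlgebra k ι} (hφ : φ ∈ H k (FreeAlgebra.ι k) wt n) :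
    FreeAlgebra.lift k (fun i => f i + f' i) φ =
      FreeAlgebra.lift k f φ + FreeAlgebra.lift k f' φ := by
  let D : FreeAlgebra k ι →ₗ[k] A := (FreeAlgebra.lift k (fun i => f i + f' i)).toLinearMap -
    (FreeAlgebra.lift k f).toLinearMap - (FreeAlgebra.lift k f').toLinearMap
  have hD : ∀ a, a ∈ LinearMap.ker D ↔ FreeAlgebra.lift k (fun i => f i + f' i) a =
      FreeAlgebra.lift k f a + FreeAlgebra.lift k f' a := by
    intro a
    simp only [D, LinearMap.mem_ker, LinearMap.sub_apply, AlgHom.toLinearMap_apply]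
    rw [sub_sub, sub_eq_zero]
  have hc : ∀ a b, Commute (FreeAlgebra.lift k f a) (FreeAlgebra.lift k f' b) := fun a b =>
    commute_lift (fun j => (commute_lift (fun i => (h i j).symm) a).symm) b
  refine (hD φ).1 (H_le (fun _ => LinearMap.ker D) (fun i => (hD _).2 (by simp))
    (fun m n a b _ _ h1 h2 => (hD _).2 ?_) n hφ)
  rw [map_br, map_br, map_br, (hD a).1 h1, (hD b).1 h2]
  have e1 := (hc a b).eq
  have e2 := (hc b a).eq
  simp only [Ring.lie_def, mul_add, add_mul, e1, e2]
  abel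

theorem lift_eq_zero_of_H {wt : ι → ℕ} {f : ι → A} (h : ∀ i j, Commute (f i) (f j)) {n : ℕ}
    (h0 : ∀ i, wt i = n → f i = 0) {φ : FreeAlgebra k ι} (hφ : φ ∈ H k (FreeAlgebra.ι k) wt n) :
    FreeAlgebra.lift k f φ = 0 := by
  have hc : ∀ a b, Commute (FreeAlgebra.lift k f a) (FreeAlgebra.lift k f b) := fun a b =>
    commute_lift (fun j => (commute_lift (fun i => h j i) a).symm) b
  have : H k (FreeAlgebra.ι k) wt n ≤ LinearMap.ker (FreeAlgebra.lift k f).toLinearMap := by
    refine Submodule.span_le.2 fun a ha => ?_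
    have ha' : Mon (FreeAlgebra.ι k) wt n a := ha
    show FreeAlgebra.lift k f a = 0
    cases ha' with
    | of i => simpa using h0 i rfl
    | br h3 h4 => rw [map_br, Ring.lie_def, (hc _ _).eq, sub_self]
  exact this hφ

end ring

theorem X_mem : X k ∈ HT k 1 := by
  exact H_of (k := k) (g := FreeAlgebra.ι k) (wt := fun _ : Fin 2 => 1) 0

theorem Y_mem : Y k ∈ HT k 1 := by
  exact H_of (k := k) (g := FreeAlgebra.ι k) (wt := fun _ : Fin 2 => 1) 1

theorem HT_br {m n : ℕ} {a b : T k} (ha : a ∈ HT k m) (hb : b ∈ HT k n) :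
    ⁅a, b⁆ ∈ HT k (m + n) := by
  exact H_br ha hb

theorem HT_one {ψ : T k} (h : ψ ∈ HT k 1) : ∃ p q : k, ψ = p • X k + q • Y k := by
  have key : ∀ n a, Mon (FreeAlgebra.ι k) (fun _ : Fin 2 => 1) n a → n = 1 → a ∈ VT k := by
    intro n a ha hn
    cases ha with
    | of i =>
      fin_cases i
      · exact Submodule.subset_span (Or.inl rfl)
      · exact Submodule.subset_span (Or.inr rfl)
    | br h3 h4 =>
      have p3 := h3.pos (fun _ => le_rfl)
      have p4 := h4.pos (fun _ => le_rfl)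
      omega
  have : HT k 1 ≤ VT k := Submodule.span_le.2 fun a ha => key 1 a ha rfl
  obtain ⟨p, q, e⟩ := Submodule.mem_span_pair.1 (this h)
  exact ⟨p, q, e.symm⟩

theorem HT_two {ψ : T k} (h : ψ ∈ HT k 2) : ∃ p : k, ψ = p • ⁅X k, Y k⁆ := by
  have key : ∀ n a, Mon (FreeAlgebra.ι k) (fun _ : Fin 2 => 1) n a → n = 2 →
      a ∈ Submodule.span k {⁅X k, Y k⁆} := by
    intro n a ha hn
    cases ha with
    | of i => omega
    | @br m n' a b h3 h4 =>
      have p3 := h3.pos (fun _ => le_rfl)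
      have p4 := h4.pos (fun _ => le_rfl)
      obtain rfl : m = 1 := by omega
      obtain rfl : n' = 1 := by omega
      obtain ⟨p, q, rfl⟩ := HT_one (Submodule.subset_span h3)
      obtain ⟨p', q', rfl⟩ := HT_one (Submodule.subset_span h4)
      refine Submodule.mem_span_singleton.2 ⟨p * q' - q * p', ?_⟩
      simp only [Ring.lie_def, mul_add, add_mul, smul_mul_smul_comm]
      module
  have : HT k 2 ≤ Submodule.span k {⁅X k, Y k⁆} :=
    Submodule.span_le.2 fun a ha => key 2 a ha rfl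
  obtain ⟨p, e⟩ := Submodule.mem_span_singleton.1 (this h)
  exact ⟨p, e.symm⟩

theorem HT_fg (n : ℕ) : (HT k n).FG := by
  exact Submodule.fg_span (Mon.finite (fun _ => le_rfl) n)

theorem HT_le_pow (n : ℕ) : HT k n ≤ VT k ^ n := by
  refine H_le (fun n => VT k ^ n) (fun i => ?_) (fun m n a b _ _ h1 h2 => ?_) n
  · rw [pow_one]
    fin_cases i
    · exact Submodule.subset_span (Or.inl rfl)
    · exact Submodule.subset_span (Or.inr rfl)
  · rw [Ring.lie_def]
    refine sub_mem ?_ ?_
    · rw [pow_add]; exact Submodule.mul_mem_mul h1 h2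
    · rw [add_comm, pow_add]; exact Submodule.mul_mem_mul h2 h1

theorem ev_mem_HT {a b ψ : T k} (ha : a ∈ HT k 1) (hb : b ∈ HT k 1) {n : ℕ} (h : ψ ∈ HT k n) :
    ev a b ψ ∈ HT k n := by
  refine H_map (ev a b) (fun i => ?_) h
  fin_cases i
  · show ev a b (X k) ∈ HT k 1
    rwa [ev_X]
  · show ev a b (Y k) ∈ HT k 1
    rwa [ev_Y]

theorem ev_mem_pow {V : Submodule k A} {a b : A} (ha : a ∈ V) (hb : b ∈ V) {n : ℕ} {m : T k}
    (h : m ∈ VT k ^ n) : ev a b m ∈ V ^ n := by
  have h1 : (VT k).map (ev a b).toLinearMap ≤ V := by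
    rw [VT, Submodule.map_span, Submodule.span_le]
    rintro _ ⟨c, hc | hc, rfl⟩
    · rw [hc]; simpa using ha
    · rw [hc]; simpa using hb
  have h2 : ev a b m ∈ (VT k ^ n).map (ev a b).toLinearMap := ⟨m, h, rfl⟩
  rw [Submodule.map_pow] at h2
  exact pow_le_pow_left' h1 n h2

theorem ev_add_of_HT {a1 b1 a2 b2 : A} (h1 : Commute a1 a2) (h2 : Commute a1 b2)
    (h3 : Commute b1 a2) (h4 : Commute b1 b2) {n : ℕ} {ψ : T k} (h : ψ ∈ HT k n) :
    ev (a1 + a2) (b1 + b2) ψ = ev a1 b1 ψ + ev a2 b2 ψ := by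
  have := lift_add_of_H (f := ![a1, b1]) (f' := ![a2, b2]) (fun i j => by
    fin_cases i <;> fin_cases j <;> assumption) h
  unfold ev
  rw [← this]
  congr 2
  funext i
  fin_cases i <;> rfl

theorem ev_eq_zero_of_commute {a b : A} (hab : Commute a b) {n : ℕ} (hn : 2 ≤ n) {ψ : T k}
    (h : ψ ∈ HT k n) : ev a b ψ = 0 := by
  refine lift_eq_zero_of_H (fun i j => ?_) (fun i hi => ?_) h
  · fin_cases i <;> fin_cases j
    · exact Commute.refl _
    · exact hab
    · exact hab.symm
    · exact Commute.refl _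
  · omega

/-- shift by central elements -/
theorem ev_shift {a b u v : A} (h1 : Commute a u) (h2 : Commute a v) (h3 : Commute b u)
    (h4 : Commute b v) (h5 : Commute u v) {n : ℕ} (hn : 2 ≤ n) {ψ : T k} (h : ψ ∈ HT k n) :
    ev (a + u) (b + v) ψ = ev a b ψ := by
  rw [ev_add_of_HT h1 h2 h3 h4 h, ev_eq_zero_of_commute h5 hn h, add_zero]

theorem ev_central {a b h : A} (ha : Commute h a) (hb : Commute h b) {n : ℕ} {m : T k}
    (hm : m ∈ VT k ^ n) : ev (h * a) (h * b) m = h ^ n * ev a b m := by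
  induction hm using Submodule.pow_induction_on_left' with
  | algebraMap r => simp
  | add x y i _ _ h1 h2 => rw [map_add, map_add, h1, h2, mul_add]
  | mem_mul v hv i x _ h1 =>
    obtain ⟨p, q, rfl⟩ := Submodule.mem_span_pair.1 hv
    have c : Commute (h ^ i) (p • a + q • b) :=
      ((ha.smul_right p).add_right (hb.smul_right q)).pow_left i
    simp only [map_mul, map_add, map_smul, ev_X, ev_Y, h1]
    rw [pow_succ', mul_assoc h, ← mul_assoc (h ^ i), c.eq]
    simp only [mul_add, add_mul, mul_smul_comm, smul_mul_assoc, mul_assoc]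

theorem ev_smul (c : k) (a b : A) {n : ℕ} {m : T k} (hm : m ∈ VT k ^ n) :
    ev (c • a) (c • b) m = c ^ n • ev a b m := by
  rw [Algebra.smul_def, Algebra.smul_def, ev_central (Algebra.commutes c a) (Algebra.commutes c b) hm,
    Algebra.smul_def, map_pow]

/-! derivations -/

@[simp] theorem fst_du (a a' : A) : (du a a').fst = a := by
  simp [du]

@[simp] theorem snd_du (a a' : A) : (du a a').snd = a' := by
  simp [du]

theorem du_mul (a a' b b' : A) : du a a' * du b b' = du (a * b) (a' * b + a * b') := by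
  ext
  · simp
  · simp [add_comm]

theorem du_add (a a' b b' : A) : du a a' + du b b' = du (a + b) (a' + b') := by
  ext <;> simp

theorem du_neg (a a' : A) : - du a a' = du (-a) (-a') := by
  ext <;> simp

theorem du_inj {a a' b b' : A} : du a a' = du b b' ↔ a = b ∧ a' = b' := by
  refine ⟨fun h => ⟨?_, ?_⟩, fun h => by rw [h.1, h.2]⟩
  · simpa using congrArg TrivSqZeroExt.fst h
  · simpa using congrArg TrivSqZeroExt.snd h

theorem du_zero : (du 0 0 : DualNumber A) = 0 := by
  ext <;> simp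

@[simp] theorem dvG_of (f f' : ι → A) (i : ι) :
    (dvG f f' : FreeAlgebra k ι →ₗ[k] A) (FreeAlgebra.ι k i) = f' i := by
  simp [dvG]

theorem lift_du (f f' : ι → A) (m : FreeAlgebra k ι) :
    FreeAlgebra.lift k (fun i => du (f i) (f' i)) m =
      du (FreeAlgebra.lift k f m) (dvG f f' m) := by
  ext
  · have := map_lift (TrivSqZeroExt.fstHom k A A) (fun i => du (f i) (f' i)) m
    simpa using this
  · simp [dvG]

theorem dvG_der (f f' : ι → A) : DerAl (FreeAlgebra.lift k f) (dvG f f') := by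
  intro m n
  have := lift_du (k := k) f f' (m * n)
  rw [map_mul, lift_du, lift_du, du_mul] at this
  exact (du_inj.1 this).2.symm

theorem dvG_self_der (f' : ι → FreeAlgebra k ι) :
    Der (k := k) (dvG (FreeAlgebra.ι k) f' : FreeAlgebra k ι →ₗ[k] FreeAlgebra k ι) := by
  intro m n
  have := dvG_der (k := k) (FreeAlgebra.ι k) f' m n
  have e : FreeAlgebra.lift k (FreeAlgebra.ι k : ι → FreeAlgebra k ι) = AlgHom.id k _ := by
    refine FreeAlgebra.hom_ext ?_
    funext i
    simp
  rw [e] at this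
  exact this

theorem DerAl.one {f : A →ₐ[k] B} {d : A →ₗ[k] B} (h : DerAl f d) : d 1 = 0 := by
  have := h 1 1
  simpa using this

theorem DerAl.br {f : A →ₐ[k] B} {d : A →ₗ[k] B} (h : DerAl f d) (a b : A) :
    d ⁅a, b⁆ = ⁅d a, f b⁆ + ⁅f a, d b⁆ := by
  simp only [Ring.lie_def, map_sub, h a b, h b a]
  noncomm_ring

theorem Der.one {d : Module.End k A} (h : Der d) : d 1 = 0 := by
  have := h 1 1
  simpa using this

theorem Der.br {d : Module.End k A} (h : Der d) (a b : A) :
    d ⁅a, b⁆ = ⁅d a, b⁆ + ⁅a, d b⁆ := by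
  simp only [Ring.lie_def, map_sub, h a b, h b a]
  noncomm_ring

theorem Der.lie_Lm {d : Module.End k A} (h : Der d) (a : A) :
    ⁅d, (Lm a : Module.End k A)⁆ = Lm (d a) := by
  ext m
  simp [Ring.lie_def, h a m]

theorem Der.lie {d d' : Module.End k A} (h : Der d) (h' : Der d') : Der ⁅d, d'⁆ := by
  intro m n
  simp only [Ring.lie_def, LinearMap.sub_apply, Module.End.mul_apply, h' m n, h m n, map_add,
    h (d' m) n, h m (d' n), h' (d m) n, h' m (d n)]
  noncomm_ring

theorem derAl_ext {f : FreeAlgebra k ι →ₐ[k] A} {d d' : FreeAlgebra k ι →ₗ[k] A} (h : DerAl f d)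
    (h' : DerAl f d') (hi : ∀ i, d (FreeAlgebra.ι k i) = d' (FreeAlgebra.ι k i)) : d = d' := by
  ext1 m
  induction m using FreeAlgebra.induction with
  | grade0 r => rw [Algebra.algebraMap_eq_smul_one, map_smul, map_smul, h.one, h'.one]
  | grade1 i => exact hi i
  | mul a b ha hb => rw [h, h', ha, hb]
  | add a b ha hb => rw [map_add, map_add, ha, hb]

theorem derAl_extT {f : T k →ₐ[k] A} {d d' : T k →ₗ[k] A} (h : DerAl f d) (h' : DerAl f d')
    (h1 : d (X k) = d' (X k)) (h2 : d (Y k) = d' (Y k)) : d = d' := by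
  refine derAl_ext h h' fun i => ?_
  fin_cases i
  · exact h1
  · exact h2

@[simp] theorem dv_X (a b a' b' : A) : (dv a b a' b' : T k →ₗ[k] A) (X k) = a' := by
  simp [dv, X]

@[simp] theorem dv_Y (a b a' b' : A) : (dv a b a' b' : T k →ₗ[k] A) (Y k) = b' := by
  simp [dv, Y]

theorem dv_der (a b a' b' : A) : DerAl (k := k) (ev a b) (dv a b a' b') := by
  exact dvG_der _ _

theorem ev_du (a b a' b' : A) (m : T k) :
    ev (du a a') (du b b') m = du (ev a b m) (dv a b a' b' m) := by
  have := lift_du (k := k) ![a, b] ![a', b'] m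
  unfold ev dv
  rw [← this]
  congr 2
  funext i
  fin_cases i <;> rfl

theorem dv_add (a b a' b' a'' b'' : A) (m : T k) :
    dv a b (a' + a'') (b' + b'') m = dv a b a' b' m + dv a b a'' b'' m := by
  have : (dv a b (a' + a'') (b' + b'') : T k →ₗ[k] A) = dv a b a' b' + dv a b a'' b'' := by
    refine derAl_extT (dv_der _ _ _ _) (fun m n => ?_) (by simp) (by simp)
    simp only [LinearMap.add_apply, dv_der a b a' b' m n, dv_der a b a'' b'' m n]
    noncomm_ring
  exact DFunLike.congr_fun this m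

theorem dv_neg (a b a' b' : A) (m : T k) : dv a b (-a') (-b') m = - dv a b a' b' m := by
  have : (dv a b (-a') (-b') : T k →ₗ[k] A) = - dv a b a' b' := by
    refine derAl_extT (dv_der _ _ _ _) (fun m n => ?_) (by simp) (by simp)
    simp only [LinearMap.neg_apply, dv_der a b a' b' m n]
    noncomm_ring
  exact DFunLike.congr_fun this m

theorem dv_inner (a b u : A) (m : T k) : dv a b ⁅a, u⁆ ⁅b, u⁆ m = ⁅ev a b m, u⁆ := by
  have : (dv a b ⁅a, u⁆ ⁅b, u⁆ : T k →ₗ[k] A) =
      (LinearMap.mulRight k u - LinearMap.mulLeft k u) ∘ₗ (ev a b).toLinearMap := by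
    refine derAl_extT (dv_der _ _ _ _) (fun m n => ?_) (by simp [Ring.lie_def])
      (by simp [Ring.lie_def])
    simp only [LinearMap.comp_apply, LinearMap.sub_apply, LinearMap.mulRight_apply,
      LinearMap.mulLeft_apply, AlgHom.toLinearMap_apply, map_mul]
    noncomm_ring
  exact DFunLike.congr_fun this m

theorem dv_euler (a b : A) {n : ℕ} {m : T k} (hm : m ∈ VT k ^ n) :
    dv a b a b m = (n : k) • ev a b m := by
  induction hm using Submodule.pow_induction_on_left' with
  | algebraMap r => rw [Algebra.algebraMap_eq_smul_one, map_smul, (dv_der a b a b).one]; simp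
  | add x y i _ _ h1 h2 => rw [map_add, map_add, h1, h2, smul_add]
  | mem_mul v hv i x _ h1 =>
    obtain ⟨p, q, rfl⟩ := Submodule.mem_span_pair.1 hv
    rw [dv_der a b a b, h1]
    simp only [map_mul, map_add, map_smul, ev_X, ev_Y, dv_X, dv_Y, Nat.succ_eq_add_one,
      Nat.cast_add, Nat.cast_one, add_smul, one_smul, mul_smul_comm]
    rw [add_comm]

theorem Der.ev {d : Module.End k A} (h : Der d) (a b : A) (m : T k) :
    d (ev a b m) = dv a b (d a) (d b) m := by
  have : d ∘ₗ (Vale.Agent.P029.ev a b).toLinearMap = dv a b (d a) (d b) := by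
    refine derAl_extT (fun m n => ?_) (dv_der _ _ _ _) (by simp) (by simp)
    simp only [LinearMap.comp_apply, AlgHom.toLinearMap_apply, map_mul, h _ _]
  exact DFunLike.congr_fun this m

@[simp] theorem DT_X (ψ : T k) : DT ψ (X k) = 0 := by
  simp [DT]

@[simp] theorem DT_Y (ψ : T k) : DT ψ (Y k) = ⁅Y k, ψ⁆ := by
  simp [DT]

theorem DT_der (ψ : T k) : Der (DT ψ) := by
  intro m n
  have := dv_der (k := k) (X k) (Y k) 0 ⁅Y k, ψ⁆ m n
  rwa [ev_self, ev_self] at this

theorem ev_DT (a b : A) (ψ m : T k) : ev a b (DT ψ m) = dv a b 0 ⁅b, ev a b ψ⁆ m := by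
  have : (ev a b).toLinearMap ∘ₗ DT ψ = dv a b 0 ⁅b, ev a b ψ⁆ := by
    refine derAl_extT (fun m n => ?_) (dv_der _ _ _ _) (by simp) (by simp [map_br])
    simp only [LinearMap.comp_apply, AlgHom.toLinearMap_apply, DT_der ψ m n, map_add, map_mul]
  exact DFunLike.congr_fun this m

/-- the deformation along an edge -/
theorem dv_edge {a b u u' : A} {ψ : T k} (h : u' - u = ev a b ψ) (m : T k) :
    dv a b ⁅a, u⁆ ⁅b, u'⁆ m = ev a b (DT ψ m) + ⁅ev a b m, u⁆ := by
  rw [ev_DT, ← dv_inner, ← dv_add, zero_add, ← h]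
  congr 2
  simp only [Ring.lie_def]
  noncomm_ring

theorem DT_mem {ψ φ : T k} {m n : ℕ} (h : ψ ∈ HT k m) (h' : φ ∈ HT k n) :
    DT ψ φ ∈ HT k (m + n) := by
  refine H_der (DT_der ψ) (fun i => ?_) h'
  fin_cases i
  · exact (DT_X ψ).symm ▸ zero_mem _
  · have := HT_br Y_mem h
    rw [add_comm] at this
    exact (DT_Y ψ).symm ▸ this

theorem ih_mem {ψ φ : T k} {m n : ℕ} (h : ψ ∈ HT k m) (h' : φ ∈ HT k n) :
    ih ψ φ ∈ HT k (m + n) := by
  refine add_mem (sub_mem (DT_mem h h') ?_) (HT_br h h')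
  rw [add_comm]
  exact DT_mem h' h

theorem DT_add (ψ φ : T k) : DT (ψ + φ) = DT ψ + DT φ := by
  refine LinearMap.ext fun m => ?_
  have e : ⁅Y k, ψ + φ⁆ = ⁅Y k, ψ⁆ + ⁅Y k, φ⁆ := by simp only [Ring.lie_def]; noncomm_ring
  have := dv_add (X k) (Y k) 0 ⁅Y k, ψ⁆ 0 ⁅Y k, φ⁆ m
  rw [add_zero, ← e] at this
  exact this

theorem DT_smul (c : k) (ψ : T k) : DT (c • ψ) = c • DT ψ := by
  refine derAl_extT (f := AlgHom.id k (T k)) (DT_der _) (fun m n => ?_) (by simp)
    (by simp [Ring.lie_def, smul_sub])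
  simp [DT_der ψ m n]

theorem act_apply (ψ m : T k) : act ψ m = DT ψ m + ψ * m := by
  rfl

theorem act_one (ψ : T k) : act ψ 1 = ψ := by
  rw [act_apply, (DT_der ψ).one, zero_add, mul_one]

theorem act_add (ψ φ : T k) : act (ψ + φ) = act ψ + act φ := by
  unfold act
  rw [DT_add, map_add]
  abel

theorem act_smul (c : k) (ψ : T k) : act (c • ψ) = c • act ψ := by
  unfold act
  rw [DT_smul, map_smul, smul_add]

theorem act_ih (ψ φ : T k) : act (ih ψ φ) = ⁅act ψ, act φ⁆ := by
  have e : DT (ih ψ φ) = ⁅DT ψ, DT φ⁆ := by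
    refine derAl_extT (f := AlgHom.id k (T k)) (DT_der _) ((DT_der ψ).lie (DT_der φ)) ?_ ?_
    · simp [Ring.lie_def]
    · rw [DT_Y, Ring.lie_def (DT ψ)]
      simp only [LinearMap.sub_apply, Module.End.mul_apply, DT_Y, (DT_der ψ).br, (DT_der φ).br, ih]
      simp only [Ring.lie_def]
      noncomm_ring
  have e1 := (DT_der ψ).lie_Lm φ
  have e2 := (DT_der φ).lie_Lm ψ
  unfold act
  rw [e]
  simp only [ih, map_add, map_sub, map_br, ← e1, ← e2]
  simp only [Ring.lie_def]
  noncomm_ring

end Vale.Agent.P029
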