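import Vale.Agent.P029.Defs

/-! Definitions on the associative side. Brackets in rings are commutators (`Ring.lie_def`). -/

noncomputable section

namespace Vale.Agent.P029

open TrivSqZeroExt

/-- noncommutative polynomials in two variables -/
abbrev T (k : Type) [CommRing k] : Type := FreeAlgebra k (Fin 2)

section
variable (k : Type) [CommRing k]

def X : T k := FreeAlgebra.ι k 0

def Y : T k := FreeAlgebra.ι k 1

/-- span of the bracket monomials of weight `n` -/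
def H {G ι : Type} [AddCommGroup G] [Module k G] [Bracket G G] (g : ι → G) (wt : ι → ℕ) (n : ℕ) :
    Submodule k G := Submodule.span k {a | Mon g wt n a}

/-- homogeneous Lie polynomials of degree `n` -/
def HT (n : ℕ) : Submodule k (T k) := H k (FreeAlgebra.ι k) (fun _ : Fin 2 => 1) n

/-- Lie polynomials of weight `n` when the variables have weights two and three -/
def H23 (n : ℕ) : Submodule k (T k) := H k (FreeAlgebra.ι k) ![2, 3] n

/-- linear forms; `VT k ^ n` is the space of homogeneous polynomials of degree `n` -/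
def VT : Submodule k (T k) := Submodule.span k {X k, Y k}

variable {k}

/-- `ev a b m` is `m(a, b)` -/
def ev {A : Type} [Ring A] [Algebra k A] (a b : A) : T k →ₐ[k] A := FreeAlgebra.lift k ![a, b]

/-- the element `a + ε a'` -/
def du {A : Type} [Ring A] (a a' : A) : DualNumber A := inl a + inr a'

/-- the derivation along `lift f` with values `f'` on the generators -/
def dvG {ι A : Type} [Ring A] [Algebra k A] (f f' : ι → A) : FreeAlgebra k ι →ₗ[k] A :=
  (sndHom A A).restrictScalars k ∘ₗ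
    (FreeAlgebra.lift k (fun i => du (f i) (f' i))).toLinearMap

/-- the derivative of `m(a, b)` in the direction `(a', b')` -/
def dv {A : Type} [Ring A] [Algebra k A] (a b a' b' : A) : T k →ₗ[k] A := dvG ![a, b] ![a', b']

/-- `d` is a derivation along `f` -/
def DerAl {A B : Type} [Ring A] [Algebra k A] [Ring B] [Algebra k B] (f : A →ₐ[k] B)
    (d : A →ₗ[k] B) : Prop := ∀ m n, d (m * n) = d m * f n + f m * d n

/-- `d` is a derivation -/
def Der {A : Type} [Ring A] [Algebra k A] (d : Module.End k A) : Prop :=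
  ∀ m n, d (m * n) = d m * n + m * d n

/-- left multiplication -/
def Lm {A : Type} [Ring A] [Algebra k A] : A →ₐ[k] Module.End k A := Algebra.lmul k A

/-- the derivation `D_ψ` -/
def DT (ψ : T k) : Module.End k (T k) := dv (X k) (Y k) 0 ⁅Y k, ψ⁆

/-- the Ihara bracket -/
def ih (ψ φ : T k) : T k := DT ψ φ - DT φ ψ + ⁅ψ, φ⁆

/-- the Ihara action -/
def act (ψ : T k) : Module.End k (T k) := DT ψ + Lm ψ

/-- filtration by powers -/
def Fl {A : Type} [Ring A] [Algebra k A] (V : Submodule k A) (m : ℕ) : Submodule k A := V ^ m * ⊤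

/-- all products of more than `N` elements of `S` vanish -/
def Nil (k : Type) [CommRing k] {A : Type} [Ring A] [Algebra k A] (N : ℕ) (S : Set A) : Prop :=
  Submodule.span k S ^ (N + 1) = ⊥

/-- the sum of the coefficients of the words `X ^ i * Y` -/
def dep (m : T k) : k := ev (!![1, 0; 0, 0] : Matrix (Fin 2) (Fin 2) k) !![0, 1; 0, 0] m 0 1

/-- the coefficient of the word `X ^ (n - 1) * Y` -/
def lam (n : ℕ) (m : T k) : k :=
  (ev (!![Polynomial.X, 0; 0, 0] : Matrix (Fin 2) (Fin 2) (Polynomial k))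
    !![0, Polynomial.X; 0, 0] m 0 1).coeff n

end

/-- evaluation of integer polynomials in a ring -/
def liftZ {ι A : Type} [Ring A] (f : ι → A) : FreeAlgebra ℤ ι →+* A :=
  (FreeAlgebra.lift ℤ f).toRingHom

/-- base change from the integers -/
def bc (k : Type) [CommRing k] {ι : Type} : FreeAlgebra ℤ ι →+* FreeAlgebra k ι :=
  liftZ (FreeAlgebra.ι k)

/-- infinitesimal braids on the plane with four strands -/
structure Fam4 {A : Type} [Ring A] (t : Fin 4 → Fin 4 → A) : Prop where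
  symm : ∀ i j, t i j = t j i
  diag : ∀ i, t i i = 0
  comm : ∀ i j k l, i ≠ k → i ≠ l → j ≠ k → j ≠ l → Commute (t i j) (t k l)
  tri : ∀ i j k, i ≠ j → i ≠ k → j ≠ k → Commute (t i j) (t i k + t j k)

/-- infinitesimal braids on the sphere with five strands -/
structure Fam5 {A : Type} [Ring A] (t : Fin 5 → Fin 5 → A) : Prop where
  symm : ∀ i j, t i j = t j i
  diag : ∀ i, t i i = 0
  sum : ∀ i, ∑ j, t i j = 0
  comm : ∀ i j k l, i ≠ k → i ≠ l → j ≠ k → j ≠ l → Commute (t i j) (t k l)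

/-- five pairwise different indices -/
def D5 (i j k l m : Fin 5) : Prop :=
  i ≠ j ∧ i ≠ k ∧ i ≠ l ∧ i ≠ m ∧ j ≠ k ∧ j ≠ l ∧ j ≠ m ∧ k ≠ l ∧ k ≠ m ∧ l ≠ m

section
variable {k : Type} [CommRing k]

/-- the pentagon equation with four strands -/
def Pent4 (ψ : T k) : Prop :=
  ∀ (A : Type) [Ring A] [Algebra k A] (t : Fin 4 → Fin 4 → A), Fam4 t →
    ev (t 0 1) (t 1 2 + t 1 3) ψ + ev (t 0 2 + t 1 2) (t 2 3) ψ =
      ev (t 1 2) (t 2 3) ψ + ev (t 0 1 + t 0 2) (t 1 3 + t 2 3) ψ + ev (t 0 1) (t 1 2) ψ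

/-- the five-cycle equation -/
def Pent (ψ : T k) : Prop :=
  ∀ (A : Type) [Ring A] [Algebra k A] (t : Fin 5 → Fin 5 → A), Fam5 t →
    ev (t 0 1) (t 1 2) ψ + ev (t 3 4) (t 4 0) ψ + ev (t 1 2) (t 2 3) ψ + ev (t 4 0) (t 0 1) ψ +
      ev (t 2 3) (t 3 4) ψ = 0

/-- the two-cycle equation -/
def Anti (ψ : T k) : Prop :=
  ∀ (A : Type) [Ring A] [Algebra k A] (a b : A), ev b a ψ = - ev a b ψ

/-- the three-cycle equation -/
def Cyc (ψ : T k) : Prop :=
  ∀ (A : Type) [Ring A] [Algebra k A] (a b : A),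
    ev a b ψ + ev b (-a - b) ψ + ev (-a - b) a ψ = 0

/-- the special relation -/
def Spec (ψ : T k) : Prop :=
  ∀ (A : Type) [Ring A] [Algebra k A] (a b : A),
    ⁅b, ev a b ψ⁆ + ⁅-a - b, ev a (-a - b) ψ⁆ = 0

/-- three elements and two derivations that model the fibre of the forgetful map -/
structure Fibre {R : Type} [Ring R] [Algebra k R] (α β γ : R) (d12 d23 : Module.End k R) :
    Prop where
  der12 : Der d12
  der23 : Der d23
  a12 : d12 α = ⁅α, β⁆
  b12 : d12 β = ⁅β, α⁆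
  c12 : d12 γ = 0
  a23 : d23 α = 0
  b23 : d23 β = ⁅β, γ⁆
  c23 : d23 γ = ⁅γ, β⁆

/-- the pentagon equation applied to the unit of a fibre model -/
def FibEq (ψ : T k) : Prop :=
  ∀ (R : Type) [Ring R] [Algebra k R] (α β γ : R) (d12 d23 : Module.End k R),
    Fibre α β γ d12 d23 →
      ev α (-α - β) ψ + (ev d23 (Lm β + d12) ψ : Module.End k R) 1 + ev (-(α + β + γ)) α ψ +
        ev (α + β) (-(α + β + γ)) ψ = 0

/-- `φ` describes `ψ` modulo the square of the second variable -/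
def Rep (ψ φ : T k) : Prop :=
  ∀ (A : Type) [Ring A] [Algebra k A] (a b : A), b * b = 0 → ev a b ψ = ev ⁅a, b⁆ ⁅b, a * a⁆ φ

/-- the data at the five vertices of the pentagon for the deformation along `ψ` -/
structure Vert (ψ : T k) {A : Type} [Ring A] [Algebra k A] (t τ : Fin 5 → Fin 5 → A)
    (u0 u1 u2 u3 u4 : A) : Prop where
  fam : Fam5 (fun i j => du (t i j) (τ i j))
  e1 : u1 - u0 = ev (t 0 1) (t 1 2) ψ
  e2 : u2 - u1 = ev (t 3 4) (t 4 0) ψ
  e3 : u3 - u2 = ev (t 1 2) (t 2 3) ψ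
  e4 : u4 - u3 = ev (t 4 0) (t 0 1) ψ
  e0 : u0 - u4 = ev (t 2 3) (t 3 4) ψ
  a1 : τ 0 1 = ⁅t 0 1, u0⁆
  b1 : τ 1 2 = ⁅t 1 2, u1⁆
  a2 : τ 3 4 = ⁅t 3 4, u1⁆
  b2 : τ 4 0 = ⁅t 4 0, u2⁆
  a3 : τ 1 2 = ⁅t 1 2, u2⁆
  b3 : τ 2 3 = ⁅t 2 3, u3⁆
  a4 : τ 4 0 = ⁅t 4 0, u3⁆
  b4 : τ 0 1 = ⁅t 0 1, u4⁆
  a0 : τ 2 3 = ⁅t 2 3, u4⁆
  b0 : τ 3 4 = ⁅t 3 4, u0⁆
  mem : ∀ J : Submodule k A, (∀ i j l, ev (t i j) (t j l) ψ ∈ J) →
    u0 ∈ J ∧ ∀ i j, ∃ w ∈ J, τ i j = ⁅t i j, w⁆

/-- multiplicativity on commuting pairs, up to degree `N` -/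
def Grp (N : ℕ) (Φ : T k) : Prop :=
  ∀ (A : Type) [Ring A] [Algebra k A] (a1 b1 a2 b2 : A), Commute a1 a2 → Commute a1 b2 →
    Commute b1 a2 → Commute b1 b2 → Nil k N {a1, b1, a2, b2} →
      ev (a1 + a2) (b1 + b2) Φ = ev a2 b2 Φ * ev a1 b1 Φ

/-- the multiplicative pentagon equation, up to degree `N` -/
def GPent (N : ℕ) (Φ : T k) : Prop :=
  ∀ (A : Type) [Ring A] [Algebra k A] (t : Fin 5 → Fin 5 → A), Fam5 t →
    Nil k N (Set.range fun p : Fin 5 × Fin 5 => t p.1 p.2) →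
      ev (t 2 3) (t 3 4) Φ * ev (t 4 0) (t 0 1) Φ * ev (t 1 2) (t 2 3) Φ * ev (t 3 4) (t 4 0) Φ *
        ev (t 0 1) (t 1 2) Φ = 1

/-- truncated solutions of the pentagon equation -/
def Good (N : ℕ) (Φ : T k) : Prop := Φ - 1 ∈ Fl (VT k) 2 ∧ Grp N Φ ∧ GPent N Φ

end

end Vale.Agent.P029
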