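import Mathlib

/-! The Grothendieck-Teichmueller Lie algebra: definitions used in the statement. -/

noncomputable section

namespace Vale.Agent.P029

/-- `Mon g wt n a`: `a` is an iterated bracket of the elements `g i`, of total weight `n`,
where `g i` has weight `wt i` -/
inductive Mon {G ι : Type} [Bracket G G] (g : ι → G) (wt : ι → ℕ) : ℕ → G → Prop
  | of (i : ι) : Mon g wt (wt i) (g i)
  | br {m n : ℕ} {a b : G} : Mon g wt m a → Mon g wt n b → Mon g wt (m + n) ⁅a, b⁆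

/-- the free Lie algebra over the rationals on two generators -/
abbrev L : Type := FreeLieAlgebra ℚ (Fin 2)

def x : L := FreeLieAlgebra.of ℚ 0

def y : L := FreeLieAlgebra.of ℚ 1

/-- `evL a b ψ` is `ψ(a, b)` -/
def evL {G : Type} [LieRing G] [LieAlgebra ℚ G] (a b : G) : L →ₗ⁅ℚ⁆ G :=
  FreeLieAlgebra.lift ℚ ![a, b]

/-- the part of weight `n` of `L` -/
def Lw (n : ℕ) : Submodule ℚ L :=
  Submodule.span ℚ {a | Mon (FreeLieAlgebra.of ℚ) (fun _ => 1) n a}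

/-- the free Lie algebra on symbols `t i j` -/
abbrev L4 : Type := FreeLieAlgebra ℚ (Fin 4 × Fin 4)

def s4 (i j : Fin 4) : L4 := FreeLieAlgebra.of ℚ (i, j)

/-- the defining relations of the Lie algebra `t₄` (the unused symbols `t i i` are killed) -/
def rel4 : Set L4 :=
  {r | (∃ i, r = s4 i i) ∨ (∃ i j, r = s4 i j - s4 j i) ∨
    (∃ i j k l, i ≠ j ∧ i ≠ k ∧ i ≠ l ∧ j ≠ k ∧ j ≠ l ∧ k ≠ l ∧ r = ⁅s4 i j, s4 k l⁆) ∨
    (∃ i j k, i ≠ j ∧ i ≠ k ∧ j ≠ k ∧ r = ⁅s4 i j, s4 i k + s4 j k⁆)}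

def ideal4 : LieIdeal ℚ L4 := LieSubmodule.lieSpan ℚ L4 rel4

/-- the Lie algebra `t₄` -/
abbrev T4 : Type := L4 ⧸ ideal4

/-- the generators of `t₄`; the indices `0, 1, 2, 3` stand for `1, 2, 3, 4` -/
def t (i j : Fin 4) : T4 := LieSubmodule.Quotient.mk (s4 i j)

/-- the solutions of the two-cycle, three-cycle and pentagon equations -/
def W : Set L :=
  {ψ | ψ + evL y x ψ = 0 ∧ ψ + evL y (-x - y) ψ + evL (-x - y) x ψ = 0 ∧
    evL (t 0 1) (t 1 2 + t 1 3) ψ + evL (t 0 2 + t 1 2) (t 2 3) ψ =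
      evL (t 1 2) (t 2 3) ψ + evL (t 0 1 + t 0 2) (t 1 3 + t 2 3) ψ + evL (t 0 1) (t 1 2) ψ}

/-- the free Lie algebra on generators `e 0, e 1, …`, where `e k` has weight `2 k + 3` -/
abbrev F : Type := FreeLieAlgebra ℚ ℕ

def e (k : ℕ) : F := FreeLieAlgebra.of ℚ k

/-- the part of weight `n` of `F` -/
def Fw (n : ℕ) : Submodule ℚ F := Submodule.span ℚ {a | Mon e (fun k => 2 * k + 3) n a}

end Vale.Agent.P029
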