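import Vale.Agent.P029.Basic

/-! The Dynkin trick: free Lie algebras embed in free algebras, primitive elements are Lie. -/

noncomputable section

namespace Vale.Agent.P029

attribute [local instance 100] LieRing.ofAssociativeRing

variable {ι : Type}

/-- the canonical map from the free Lie algebra to the free algebra -/
def jG (ι : Type) : FreeLieAlgebra ℚ ι →ₗ⁅ℚ⁆ FreeAlgebra ℚ ι :=
  FreeLieAlgebra.lift ℚ (FreeAlgebra.ι ℚ)

/-- the canonical map for two generators -/
def jL : L →ₗ⁅ℚ⁆ T ℚ := jG (Fin 2)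

/-- the operator `(v, c) ↦ (⁅g, v⁆ + n c g, 0)` -/
def dyn {G : Type} [LieRing G] [LieAlgebra ℚ G] (n : ℚ) : G →ₗ[ℚ] Module.End ℚ (G × ℚ) where
  toFun g := LinearMap.prod
    ((LieAlgebra.ad ℚ G g) ∘ₗ LinearMap.fst ℚ G ℚ + (LinearMap.snd ℚ G ℚ).smulRight (n • g)) 0
  map_add' a b := by
    ext <;> simp
  map_smul' c a := by
    ext <;> simp [smul_comm c n]

theorem dyn_apply {G : Type} [LieRing G] [LieAlgebra ℚ G] (n : ℚ) (g v : G) (c : ℚ) :
    dyn n g (v, c) = (⁅g, v⁆ + c • n • g, 0) := by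
  rfl

theorem dyn_br {G : Type} [LieRing G] [LieAlgebra ℚ G] (m n : ℚ) (g h : G) :
    ⁅dyn m g, dyn n h⁆ = dyn (m + n) ⁅g, h⁆ := by
  refine LinearMap.ext fun p => ?_
  obtain ⟨v, c⟩ := p
  rw [Ring.lie_def, LinearMap.sub_apply, Module.End.mul_apply, Module.End.mul_apply]
  simp only [dyn_apply, Prod.mk_sub_mk, sub_self, zero_smul, add_zero, lie_add, lie_smul, lie_lie]
  rw [← lie_skew h g]
  congr 1
  module

theorem dyn_injective {G : Type} [LieRing G] [LieAlgebra ℚ G] {n : ℚ} (hn : n ≠ 0) :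
    Function.Injective (dyn n : G →ₗ[ℚ] Module.End ℚ (G × ℚ)) := by
  intro g h e
  have := congrArg (fun f : Module.End ℚ (G × ℚ) => (f (0, 1)).1) e
  simp only [dyn_apply, lie_zero, zero_add, one_smul] at this
  exact smul_right_injective G hn this

/-- brackets of homogeneous elements in a Lie algebra -/
theorem H_lie {G : Type} [LieRing G] [LieAlgebra ℚ G] {g : ι → G} {wt : ι → ℕ} {m n : ℕ}
    {a b : G} (ha : a ∈ H ℚ g wt m) (hb : b ∈ H ℚ g wt n) : ⁅a, b⁆ ∈ H ℚ g wt (m + n) := by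
  induction ha using Submodule.span_induction with
  | mem a ha =>
    induction hb using Submodule.span_induction with
    | mem b hb => exact Submodule.subset_span (Mon.br ha hb)
    | zero => rw [lie_zero]; exact zero_mem _
    | add b c _ _ h1 h2 => rw [lie_add]; exact add_mem h1 h2
    | smul r b _ h1 => rw [lie_smul]; exact Submodule.smul_mem _ r h1
  | zero => rw [zero_lie]; exact zero_mem _
  | add a c _ _ h1 h2 => rw [add_lie]; exact add_mem h1 h2
  | smul r a _ h1 => rw [smul_lie]; exact Submodule.smul_mem _ r h1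

theorem iSup_H (wt : ι → ℕ) : ⨆ n, H ℚ (FreeLieAlgebra.of ℚ : ι → FreeLieAlgebra ℚ ι) wt n = ⊤ := by
  let P : Submodule ℚ (FreeLieAlgebra ℚ ι) := ⨆ n, H ℚ (FreeLieAlgebra.of ℚ) wt n
  have hP : ∀ n, H ℚ (FreeLieAlgebra.of ℚ) wt n ≤ P := fun n =>
    le_iSup (fun n => H ℚ (FreeLieAlgebra.of ℚ : ι → FreeLieAlgebra ℚ ι) wt n) n
  have hbr : ∀ a ∈ P, ∀ b ∈ P, ⁅a, b⁆ ∈ P := by
    intro a ha b hb
    induction ha using Submodule.iSup_induction' with
    | mem m a ha =>
      induction hb using Submodule.iSup_induction' with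
      | mem n b hb => exact hP _ (H_lie ha hb)
      | zero => rw [lie_zero]; exact zero_mem _
      | add b c _ _ h1 h2 => rw [lie_add]; exact add_mem h1 h2
    | zero => rw [zero_lie]; exact zero_mem _
    | add a c _ _ h1 h2 => rw [add_lie]; exact add_mem h1 h2
  let K : LieSubalgebra ℚ (FreeLieAlgebra ℚ ι) :=
    { P with lie_mem' := fun {a b} ha hb => hbr a ha b hb }
  let f : FreeLieAlgebra ℚ ι →ₗ⁅ℚ⁆ K :=
    FreeLieAlgebra.lift ℚ fun i => ⟨FreeLieAlgebra.of ℚ i, hP _ (H_of i)⟩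
  have e : K.incl.comp f = LieHom.id := by
    refine FreeLieAlgebra.hom_ext fun i => ?_
    simp [f]
  rw [eq_top_iff]
  intro a _
  have h1 : K.incl (f a) = a := DFunLike.congr_fun e a
  rw [← h1]
  exact (f a).2

theorem exists_sum_H (wt : ι → ℕ) (a : FreeLieAlgebra ℚ ι) :
    ∃ (N : ℕ) (c : ℕ → FreeLieAlgebra ℚ ι),
      (∀ n, c n ∈ H ℚ (FreeLieAlgebra.of ℚ) wt n) ∧ a = ∑ n ∈ Finset.range N, c n := by
  have ha : a ∈ ⨆ n, H ℚ (FreeLieAlgebra.of ℚ : ι → FreeLieAlgebra ℚ ι) wt n := by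
    rw [iSup_H]; trivial
  obtain ⟨f, h1, h2⟩ := (Submodule.mem_iSup_iff_exists_finsupp _ _).1 ha
  refine ⟨f.support.sup id + 1, f, h1, ?_⟩
  rw [← h2]
  refine Finsupp.sum_of_support_subset f (fun n hn => ?_) _ fun _ _ => rfl
  exact Finset.mem_range.2 (Nat.lt_succ_of_le (Finset.le_sup (f := id) hn))

theorem vandermonde {M : Type} [AddCommGroup M] [Module ℚ M] (P : Submodule ℚ M) (N : ℕ)
    (c : ℕ → M) (h : ∀ r : ℚ, ∑ n ∈ Finset.range N, r ^ n • c n ∈ P) :
    ∀ n, n < N → c n ∈ P := by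
  intro n hn
  rw [← Submodule.Quotient.mk_eq_zero, ← Module.forall_dual_apply_eq_zero_iff ℚ]
  intro φ
  have h1 : ∑ j ∈ Finset.range N,
      Polynomial.monomial j (φ (Submodule.Quotient.mk (c j))) = 0 := by
    refine Polynomial.funext fun r => ?_
    have h2 := congrArg φ ((Submodule.Quotient.mk_eq_zero P).2 (h r))
    rw [← Submodule.mkQ_apply, map_sum, map_sum, map_zero] at h2
    rw [Polynomial.eval_finset_sum, Polynomial.eval_zero, ← h2]
    refine Finset.sum_congr rfl fun j _ => ?_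
    rw [Polynomial.eval_monomial, map_smul, map_smul, smul_eq_mul, mul_comm, Submodule.mkQ_apply]
  have h2 := congrArg (fun p => Polynomial.coeff p n) h1
  simpa [Polynomial.coeff_monomial, hn] using h2

theorem lift_smul_of_H {G : Type} [LieRing G] [LieAlgebra ℚ G] (g : ι → G) (wt : ι → ℕ) (r : ℚ)
    {n : ℕ} {a : FreeLieAlgebra ℚ ι} (ha : a ∈ H ℚ (FreeLieAlgebra.of ℚ) wt n) :
    FreeLieAlgebra.lift ℚ (fun i => r ^ wt i • g i) a = r ^ n • FreeLieAlgebra.lift ℚ g a := by
  induction ha using Submodule.span_induction with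
  | mem a ha =>
    have ha' : Mon (FreeLieAlgebra.of ℚ) wt n a := ha
    clear ha
    induction ha' with
    | of i => rw [FreeLieAlgebra.lift_of_apply, FreeLieAlgebra.lift_of_apply]
    | br _ _ h1 h2 =>
      rw [LieHom.map_lie, LieHom.map_lie, h1, h2, smul_lie, lie_smul, smul_smul, pow_add]
  | zero => rw [map_zero, map_zero, smul_zero]
  | add a b _ _ h1 h2 => rw [map_add, map_add, h1, h2, smul_add]
  | smul s a _ h1 => rw [map_smul, map_smul, h1, smul_comm]

theorem lift_jG {A : Type} [Ring A] [Algebra ℚ A] (f : ι → A) (a : FreeLieAlgebra ℚ ι) :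
    FreeAlgebra.lift ℚ f (jG ι a) = FreeLieAlgebra.lift ℚ f a := by
  have e : (FreeAlgebra.lift ℚ f).toLieHom.comp (jG ι) = FreeLieAlgebra.lift ℚ f := by
    refine FreeLieAlgebra.hom_ext fun i => ?_
    simp [jG]
  exact DFunLike.congr_fun e a

theorem lift_dyn {G : Type} [LieRing G] [LieAlgebra ℚ G] (g : ι → G) {n : ℕ}
    {a : FreeLieAlgebra ℚ ι} (ha : a ∈ H ℚ (FreeLieAlgebra.of ℚ) (fun _ => 1) n) :
    FreeAlgebra.lift ℚ (fun i => dyn 1 (g i)) (jG ι a) = dyn n (FreeLieAlgebra.lift ℚ g a) := by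
  rw [lift_jG]
  induction ha using Submodule.span_induction with
  | mem a ha =>
    have ha' : Mon (FreeLieAlgebra.of ℚ) (fun _ => 1) n a := ha
    clear ha
    induction ha' with
    | of i => rw [FreeLieAlgebra.lift_of_apply, FreeLieAlgebra.lift_of_apply, Nat.cast_one]
    | br _ _ h1 h2 => rw [LieHom.map_lie, LieHom.map_lie, h1, h2, dyn_br, Nat.cast_add]
  | zero => rw [map_zero, map_zero, map_zero]
  | add a b _ _ h1 h2 => rw [map_add, map_add, map_add, h1, h2]
  | smul s a _ h1 => rw [map_smul, map_smul, map_smul, h1]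

theorem jG_injective : Function.Injective (jG ι) := by
  rw [injective_iff_map_eq_zero]
  intro a ha
  obtain ⟨N, c, hc, rfl⟩ := exists_sum_H (fun _ => 1) a
  have h1 := vandermonde ⊥ N (fun n => jG ι (c n)) fun r => by
    have h2 := lift_jG (fun i : ι => r ^ 1 • FreeAlgebra.ι ℚ i) (∑ n ∈ Finset.range N, c n)
    rw [ha, map_zero, map_sum] at h2
    rw [Submodule.mem_bot, h2]
    exact Finset.sum_congr rfl fun n _ => (lift_smul_of_H _ (fun _ => 1) r (hc n)).symm
  refine Finset.sum_eq_zero fun n hn => ?_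
  rcases Nat.eq_zero_or_pos n with rfl | h0
  · have := hc 0
    rwa [H_zero fun _ => le_rfl, Submodule.mem_bot] at this
  · have h2 := lift_dyn (FreeLieAlgebra.of ℚ) (hc n)
    have e : FreeLieAlgebra.lift ℚ (FreeLieAlgebra.of ℚ : ι → FreeLieAlgebra ℚ ι) = LieHom.id := by
      refine FreeLieAlgebra.hom_ext fun i => ?_
      simp
    rw [(Submodule.mem_bot ℚ).1 (h1 n (Finset.mem_range.1 hn)), map_zero, e] at h2
    exact dyn_injective (Nat.cast_ne_zero.2 h0.ne') (h2.symm.trans (map_zero _).symm)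

theorem jG_mem {wt : ι → ℕ} {n : ℕ} {a : FreeLieAlgebra ℚ ι}
    (ha : a ∈ H ℚ (FreeLieAlgebra.of ℚ) wt n) : jG ι a ∈ H ℚ (FreeAlgebra.ι ℚ) wt n := by
  induction ha using Submodule.span_induction with
  | mem a ha =>
    have := Mon.map (jG ι) (fun a b => LieHom.map_lie _ a b) ha
    simp only [jG, FreeLieAlgebra.lift_of_apply] at this
    exact Submodule.subset_span this
  | zero => rw [map_zero]; exact zero_mem _
  | add a b _ _ h1 h2 => rw [map_add]; exact add_mem h1 h2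
  | smul s a _ h1 => rw [map_smul]; exact Submodule.smul_mem _ s h1

theorem jG_surj {wt : ι → ℕ} {n : ℕ} {p : FreeAlgebra ℚ ι} (hp : p ∈ H ℚ (FreeAlgebra.ι ℚ) wt n) :
    ∃ a ∈ H ℚ (FreeLieAlgebra.of ℚ) wt n, jG ι a = p := by
  induction hp using Submodule.span_induction with
  | mem p hp =>
    have hp' : Mon (FreeAlgebra.ι ℚ) wt n p := hp
    clear hp
    induction hp' with
    | of i => exact ⟨_, H_of i, FreeLieAlgebra.lift_of_apply _ _⟩
    | br _ _ h1 h2 =>
      obtain ⟨a, ha, rfl⟩ := h1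
      obtain ⟨b, hb, rfl⟩ := h2
      exact ⟨_, H_lie ha hb, LieHom.map_lie _ a b⟩
  | zero => exact ⟨0, zero_mem _, map_zero _⟩
  | add p q _ _ h1 h2 =>
    obtain ⟨a, ha, rfl⟩ := h1
    obtain ⟨b, hb, rfl⟩ := h2
    exact ⟨_, add_mem ha hb, map_add _ a b⟩
  | smul s p _ h1 =>
    obtain ⟨a, ha, rfl⟩ := h1
    exact ⟨_, Submodule.smul_mem _ s ha, map_smul _ s a⟩

namespace DynAux
variable {K : Type} [Field K]

/-- the adjoint operator -/
def adT (a : T K) : Module.End K (T K) := Lm a + -LinearMap.mulRight K a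

theorem adT_apply (a b : T K) : adT a b = ⁅a, b⁆ := by
  rw [Ring.lie_def, sub_eq_add_neg]; rfl

theorem dyn_mem {n : ℕ} {p : T K} (hp : p ∈ VT K ^ n) :
    (∃ r : K, (ev (adT (X K)) (adT (Y K)) p : Module.End K (T K)) 1 = r • 1 ∧ (n ≠ 0 → r = 0)) ∧
      (dv (adT (X K)) (adT (Y K)) (Lm (X K)) (Lm (Y K)) p : Module.End K (T K)) 1 ∈ HT K n := by
  induction hp using Submodule.pow_induction_on_left' with
  | algebraMap r =>
    refine ⟨⟨r, by rw [AlgHom.commutes]; rfl, fun h => absurd rfl h⟩, ?_⟩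
    rw [Algebra.algebraMap_eq_smul_one, map_smul, (dv_der _ _ _ _).one, smul_zero]
    exact zero_mem _
  | add x y i _ _ h1 h2 =>
    obtain ⟨⟨r, a1, a2⟩, a3⟩ := h1
    obtain ⟨⟨s, b1, b2⟩, b3⟩ := h2
    refine ⟨⟨r + s, ?_, fun h => by rw [a2 h, b2 h, add_zero]⟩, ?_⟩
    · rw [map_add, LinearMap.add_apply, a1, b1, add_smul]
    · rw [map_add, LinearMap.add_apply]; exact add_mem a3 b3
  | mem_mul v hv i x _ h1 =>
    obtain ⟨⟨r, a1, a2⟩, a3⟩ := h1
    obtain ⟨p, q, rfl⟩ := Submodule.mem_span_pair.1 hv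
    have hv1 : p • X K + q • Y K ∈ HT K 1 :=
      add_mem (Submodule.smul_mem _ p X_mem) (Submodule.smul_mem _ q Y_mem)
    have e1 : ∀ y, (ev (adT (X K)) (adT (Y K)) (p • X K + q • Y K) : Module.End K (T K)) y =
        ⁅p • X K + q • Y K, y⁆ := fun y => by
      simp only [map_add, map_smul, ev_X, ev_Y, LinearMap.add_apply, LinearMap.smul_apply,
        adT_apply, add_lie, smul_lie]
    have e2 : ∀ y, (dv (adT (X K)) (adT (Y K)) (Lm (X K)) (Lm (Y K)) (p • X K + q • Y K) :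
        Module.End K (T K)) y = (p • X K + q • Y K) * y := fun y => by
      simp only [map_add, map_smul, dv_X, dv_Y, LinearMap.add_apply, LinearMap.smul_apply,
        Lm_apply, add_mul, smul_mul_assoc]
    refine ⟨⟨0, ?_, fun _ => rfl⟩, ?_⟩
    · rw [map_mul, Module.End.mul_apply, a1, e1, Ring.lie_def, mul_smul_comm, smul_mul_assoc, mul_one,
        one_mul, sub_self, zero_smul]
    · rw [dv_der, LinearMap.add_apply, Module.End.mul_apply, Module.End.mul_apply, a1, e1, e2,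
        mul_smul_comm, mul_one]
      refine add_mem ?_ ?_
      · by_cases hi : i = 0
        · subst hi; exact Submodule.smul_mem _ r hv1
        · rw [a2 hi, zero_smul]; exact zero_mem _
      · have := HT_br hv1 a3
        rwa [add_comm] at this

theorem comm (a b : T K) : Commute (du (Lm a) (Lm a) : DualNumber (Module.End K (T K)))
    (du (-LinearMap.mulRight K b) 0) := by
  have e : (Lm a : Module.End K (T K)) * -LinearMap.mulRight K b =
      -LinearMap.mulRight K b * Lm a := by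
    ext1 y
    simp [mul_assoc]
  show _ = _
  rw [du_mul, du_mul, e, mul_zero, zero_mul, add_zero, zero_add]

end DynAux

/-- homogeneous primitive elements are Lie polynomials -/
theorem mem_HT_of_prim {K : Type} [Field K] [CharZero K] {m : ℕ} (hm : 1 ≤ m) {ψ : T K}
    (hψ : ψ ∈ VT K ^ m)
    (h : ∀ (A : Type) [Ring A] [Algebra K A] (a1 b1 a2 b2 : A), Commute a1 a2 → Commute a1 b2 →
      Commute b1 a2 → Commute b1 b2 → ev (a1 + a2) (b1 + b2) ψ = ev a1 b1 ψ + ev a2 b2 ψ) :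
    ψ ∈ HT K m := by
  have h1 := h (DualNumber (Module.End K (T K))) _ _ _ _ (DynAux.comm (X K) (X K))
    (DynAux.comm (X K) (Y K)) (DynAux.comm (Y K) (X K)) (DynAux.comm (Y K) (Y K))
  rw [du_add, du_add, ev_du, ev_du, ev_du, du_add, add_zero, add_zero] at h1
  have h2 := (du_inj.1 h1).2
  have h3 := dv_add (k := K) (-LinearMap.mulRight K (X K) : Module.End K (T K))
    (-LinearMap.mulRight K (Y K)) 0 0 0 0 ψ
  rw [add_zero] at h3
  rw [left_eq_add.1 h3, add_zero, dv_euler _ _ hψ,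
    ← map_ev (Lm : T K →ₐ[K] Module.End K (T K)) (X K) (Y K) ψ, ev_self] at h2
  have h4 := (DynAux.dyn_mem hψ).2
  rw [DynAux.adT, DynAux.adT, h2, LinearMap.smul_apply, Lm_apply, mul_one] at h4
  exact (Submodule.smul_mem_iff _ (Nat.cast_ne_zero.2 (by omega))).1 h4

end Vale.Agent.P029
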