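import Vale.Agent.P029.Basic

/-! Families of infinitesimal braids, two forms of the pentagon, and the fibre model. -/

noncomputable section

namespace Vale.Agent.P029

section fam
variable {A B : Type} [Ring A] [Ring B] {t : Fin 5 → Fin 5 → A}

theorem Fam5.perm (h : Fam5 t) {σ : Fin 5 → Fin 5} (hσ : Function.Injective σ) :
    Fam5 (fun i j => t (σ i) (σ j)) := by
  refine ⟨fun i j => h.symm _ _, fun i => h.diag _, fun i => ?_,
    fun i j k l h1 h2 h3 h4 => h.comm _ _ _ _ (hσ.ne h1) (hσ.ne h2) (hσ.ne h3) (hσ.ne h4)⟩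
  rw [(Finite.injective_iff_bijective.1 hσ).sum_comp (t (σ i))]
  exact h.sum _

theorem D5.injective {i j k l m : Fin 5} (h : D5 i j k l m) :
    Function.Injective ![i, j, k, l, m] := by
  obtain ⟨h1, h2, h3, h4, h5, h6, h7, h8, h9, h10⟩ := h
  intro a b hab
  fin_cases a <;> fin_cases b <;>
    first | rfl | exact absurd hab (by assumption) | exact absurd hab.symm (by assumption)

theorem Fam5.map (h : Fam5 t) (f : A →+* B) : Fam5 (fun i j => f (t i j)) := by
  refine ⟨fun i j => by rw [h.symm], fun i => by rw [h.diag, map_zero], fun i => ?_,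
    fun i j k l h1 h2 h3 h4 => (h.comm _ _ _ _ h1 h2 h3 h4).map f⟩
  rw [← map_sum, h.sum, map_zero]

theorem Fam5.central (h : Fam5 t) {c : A} (hc : ∀ i j, Commute c (t i j)) :
    Fam5 (fun i j => c * t i j) := by
  refine ⟨fun i j => by rw [h.symm], fun i => by rw [h.diag, mul_zero], fun i => ?_,
    fun i j k l h1 h2 h3 h4 => ?_⟩
  · rw [← Finset.mul_sum, h.sum, mul_zero]
  · exact ((Commute.refl c).mul_right (hc k l)).mul_left
      ((hc i j).symm.mul_right (h.comm _ _ _ _ h1 h2 h3 h4))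

theorem Fam5.neg (h : Fam5 t) : Fam5 (fun i j => - t i j) := by
  have := h.central (c := -1) fun i j => Commute.neg_one_left _
  simpa only [neg_one_mul] using this

theorem Fam5.row (h : Fam5 t) {i j k l m : Fin 5} (hd : D5 i j k l m) :
    t i j + t i k + t i l + t i m = 0 := by
  have := (h.perm hd.injective).sum 0
  rw [Fin.sum_univ_five] at this
  have e : t i i + t i j + t i k + t i l + t i m = 0 := this
  rwa [h.diag, zero_add] at e

end fam

variable {k : Type} [CommRing k] {A : Type} [Ring A] [Algebra k A]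

namespace FamAux

theorem mk5 {A : Type} [Ring A] (a01 a02 a03 a04 a12 a13 a14 a23 a24 a34 : A)
    (r0 : a01 + a02 + a03 + a04 = 0) (r1 : a01 + a12 + a13 + a14 = 0)
    (r2 : a02 + a12 + a23 + a24 = 0) (r3 : a03 + a13 + a23 + a34 = 0)
    (r4 : a04 + a14 + a24 + a34 = 0) (c1 : Commute a01 a23) (c2 : Commute a01 a24)
    (c3 : Commute a01 a34) (c4 : Commute a02 a13) (c5 : Commute a02 a14) (c6 : Commute a02 a34)
    (c7 : Commute a03 a12) (c8 : Commute a03 a14) (c9 : Commute a03 a24) (c10 : Commute a04 a12)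
    (c11 : Commute a04 a13) (c12 : Commute a04 a23) (c13 : Commute a12 a34)
    (c14 : Commute a13 a24) (c15 : Commute a14 a23) :
    Fam5 ![![0, a01, a02, a03, a04], ![a01, 0, a12, a13, a14], ![a02, a12, 0, a23, a24],
      ![a03, a13, a23, 0, a34], ![a04, a14, a24, a34, 0]] := by
  refine ⟨fun i j => ?_, fun i => ?_, fun i => ?_, fun i j k l => ?_⟩
  · fin_cases i <;> fin_cases j <;> rfl
  · fin_cases i <;> rfl
  · rw [Fin.sum_univ_five]
    fin_cases i
    · exact (congrArg (· + a02 + a03 + a04) (zero_add a01)).trans r0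
    · exact (congrArg (· + a12 + a13 + a14) (add_zero a01)).trans r1
    · exact (congrArg (· + a23 + a24) (add_zero (a02 + a12))).trans r2
    · exact (congrArg (· + a34) (add_zero (a03 + a13 + a23))).trans r3
    · exact (add_zero _).trans r4
  · fin_cases i <;> fin_cases j <;>
      first
        | exact fun _ _ _ _ => Commute.zero_left _
        | (fin_cases k <;> fin_cases l <;> intro h1 h2 h3 h4 <;>
            first
              | exact absurd rfl h1
              | exact absurd rfl h2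
              | exact absurd rfl h3
              | exact absurd rfl h4
              | exact Commute.zero_right _
              | assumption
              | (apply Commute.symm; assumption))

theorem ctri {A : Type} [Ring A] {t : Fin 5 → Fin 5 → A} (h : Fam5 t) {i j k : Fin 5} (h1 : i ≠ j)
    (h2 : i ≠ k) (h3 : j ≠ k) : Commute (t i j) (t i k + t j k) := by
  obtain ⟨l, m, hd⟩ : ∃ l m, D5 k i j l m := by
    revert i j k
    unfold D5
    decide
  have e := h.row hd
  obtain ⟨-, -, -, -, -, a1, a2, a3, a4, -⟩ := hd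
  have e2 : t i k + t j k = -(t k l + t k m) := by
    rw [h.symm i k, h.symm j k, eq_neg_iff_add_eq_zero, ← add_assoc, e]
  rw [e2]
  exact ((h.comm _ _ _ _ h2 a1 h3 a3).add_right (h.comm _ _ _ _ h2 a2 h3 a4)).neg_right

theorem tri0 {K A : Type} [Field K] [CharZero K] [Ring A] [Algebra K A]
    {t : Fin 5 → Fin 5 → A} (h : Fam5 t) : t 0 1 + t 1 2 + t 0 2 = t 3 4 := by
  have r0 := h.sum 0
  have r1 := h.sum 1
  have r2 := h.sum 2
  have r3 := h.sum 3
  have r4 := h.sum 4
  rw [Fin.sum_univ_five, h.diag] at r0 r1 r2 r3 r4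
  rw [h.symm 1 0] at r1
  rw [h.symm 2 0, h.symm 2 1] at r2
  rw [h.symm 3 0, h.symm 3 1, h.symm 3 2] at r3
  rw [h.symm 4 0, h.symm 4 1, h.symm 4 2, h.symm 4 3] at r4
  refine smul_right_injective A (two_ne_zero' K) ?_
  linear_combination (norm := module) r0 + r1 + r2 - r3 - r4

end FamAux

/-- the sum over a triangle is the opposite generator -/
theorem Fam5.tri {K A : Type} [Field K] [CharZero K] [Ring A] [Algebra K A]
    {t : Fin 5 → Fin 5 → A} (h : Fam5 t) {i j k l m : Fin 5} (hd : D5 i j k l m) :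
    t i j + t j k + t i k = t l m := by
  exact FamAux.tri0 (K := K) (h.perm hd.injective)

theorem Pent.perm {ψ : T k} (h : Pent ψ) {t : Fin 5 → Fin 5 → A} (ht : Fam5 t)
    {i j k' l m : Fin 5} (hd : D5 i j k' l m) :
    ev (t i j) (t j k') ψ + ev (t l m) (t m i) ψ + ev (t j k') (t k' l) ψ + ev (t m i) (t i j) ψ +
      ev (t k' l) (t l m) ψ = 0 := by
  exact h A _ (ht.perm hd.injective)

theorem Pent.anti {ψ : T k} {n : ℕ} (hn : 2 ≤ n) (hψ : ψ ∈ HT k n) (h : Pent ψ) : Anti ψ := by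
  intro A _ _ a b
  have hf := FamAux.mk5 a (-a - b) b 0 b (-a - b) 0 a 0 0 (by abel) (by abel) (by abel) (by abel)
    (by abel) (Commute.refl _) (Commute.zero_right _) (Commute.zero_right _) (Commute.refl _)
    (Commute.zero_right _) (Commute.zero_right _) (Commute.refl _) (Commute.zero_right _)
    (Commute.zero_right _) (Commute.zero_left _) (Commute.zero_left _) (Commute.zero_left _)
    (Commute.zero_right _) (Commute.zero_right _) (Commute.zero_left _)
  have e : ev a b ψ + ev 0 0 ψ + ev b a ψ + ev 0 a ψ + ev a 0 ψ = 0 := h A _ hf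
  rw [ev_eq_zero_of_commute (Commute.refl 0) hn hψ, ev_eq_zero_of_commute (Commute.zero_left a) hn hψ,
    ev_eq_zero_of_commute (Commute.zero_right a) hn hψ, add_zero, add_zero, add_zero] at e
  exact eq_neg_of_add_eq_zero_right e

theorem Pent4.anti {ψ : T k} {n : ℕ} (hn : 2 ≤ n) (hψ : ψ ∈ HT k n) (h : Pent4 ψ) : Anti ψ := by
  intro A _ _ a b
  have hf : Fam4 ![![0, a, -a - b, b], ![a, 0, b, -a - b], ![-a - b, b, 0, a],
      ![b, -a - b, a, 0]] := by
    have e1 : Commute a (-a - b + b) := by rw [sub_add_cancel]; exact (Commute.refl a).neg_right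
    have e2 : Commute a (b + (-a - b)) := by rwa [add_comm]
    have e3 : Commute b (-a - b + a) := by
      rw [show -a - b + a = -b by abel]; exact (Commute.refl b).neg_right
    have e4 : Commute b (a + (-a - b)) := by rwa [add_comm]
    have e5 : Commute (-a - b) (a + b) := by
      rw [show -a - b = -(a + b) by abel]; exact (Commute.refl _).neg_left
    have e6 : Commute (-a - b) (b + a) := by rwa [add_comm]
    refine ⟨fun i j => ?_, fun i => ?_, fun i j k l => ?_, fun i j k => ?_⟩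
    · fin_cases i <;> fin_cases j <;> rfl
    · fin_cases i <;> rfl
    · fin_cases i <;> fin_cases j <;>
        first
          | exact fun _ _ _ _ => Commute.zero_left _
          | (fin_cases k <;> fin_cases l <;> intro h1 h2 h3 h4 <;>
              first
                | exact absurd rfl h1
                | exact absurd rfl h2
                | exact absurd rfl h3
                | exact absurd rfl h4
                | exact Commute.zero_right _
                | exact Commute.refl _)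
    · fin_cases i <;> fin_cases j <;> fin_cases k <;> intro h1 h2 h3 <;>
        first
          | exact absurd rfl h1
          | exact absurd rfl h2
          | exact absurd rfl h3
          | exact e1
          | exact e2
          | exact e3
          | exact e4
          | exact e5
          | exact e6
  have e : ev a (b + (-a - b)) ψ + ev (-a - b + b) a ψ =
    ev b a ψ + ev (a + (-a - b)) (-a - b + a) ψ + ev a b ψ := h A _ hf
  rw [show b + (-a - b) = -a by abel, show -a - b + b = -a by abel, show a + (-a - b) = -b by abel,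
    show -a - b + a = -b by abel, ev_eq_zero_of_commute (Commute.refl a).neg_right hn hψ,
    ev_eq_zero_of_commute (Commute.refl a).neg_left hn hψ,
    ev_eq_zero_of_commute (Commute.refl _) hn hψ, add_zero, add_zero] at e
  exact eq_neg_of_add_eq_zero_left e.symm

namespace FamAux

theorem sh {a b a' b' u v : A} (e1 : a' = a + u) (e2 : b' = b + v) (h1 : Commute a u)
    (h2 : Commute a v) (h3 : Commute b u) (h4 : Commute b v) (h5 : Commute u v) {n : ℕ}
    (hn : 2 ≤ n) {ψ : T k} (h : ψ ∈ HT k n) : ev a' b' ψ = ev a b ψ := by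
  rw [e1, e2, ev_shift h1 h2 h3 h4 h5 hn h]

theorem key {K A : Type} [Field K] [CharZero K] [Ring A] [Algebra K A] {ψ : T K} {n : ℕ}
    (hn : 2 ≤ n) (hψ : ψ ∈ HT K n) (ha : Anti ψ) {t : Fin 5 → Fin 5 → A} (h : Fam5 t) :
    (ev (t 0 1) (t 1 2 + t 1 3) ψ + ev (t 0 2 + t 1 2) (t 2 3) ψ =
      ev (t 1 2) (t 2 3) ψ + ev (t 0 1 + t 0 2) (t 1 3 + t 2 3) ψ + ev (t 0 1) (t 1 2) ψ) ↔
    ev (t 0 1) (t 1 2) ψ + ev (t 3 4) (t 4 0) ψ + ev (t 1 2) (t 2 3) ψ + ev (t 4 0) (t 0 1) ψ +
      ev (t 2 3) (t 3 4) ψ = 0 := by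
  have t1 : t 0 1 + t 1 2 + t 0 2 = t 3 4 := h.tri (K := K) (by unfold D5; decide)
  have t2 : t 1 2 + t 2 3 + t 1 3 = t 4 0 := h.tri (K := K) (by unfold D5; decide)
  have c : ∀ i j k l, (i ≠ k ∧ i ≠ l ∧ j ≠ k ∧ j ≠ l) → Commute (t i j) (-t k l) :=
    fun i j k l p => (h.comm i j k l p.1 p.2.1 p.2.2.1 p.2.2.2).neg_right
  have e1 : ev (t 0 1) (t 1 2 + t 1 3) ψ = ev (t 0 1) (t 4 0) ψ :=
    sh (u := 0) (v := -t 2 3) (add_zero _).symm (by rw [← t2]; abel) (Commute.zero_right _)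
      (c _ _ _ _ (by decide)) (Commute.zero_right _) (c _ _ _ _ (by decide))
      (Commute.zero_left _) hn hψ
  have e2 : ev (t 0 2 + t 1 2) (t 2 3) ψ = ev (t 3 4) (t 2 3) ψ :=
    sh (u := -t 0 1) (v := 0) (by rw [← t1]; abel) (add_zero _).symm (c _ _ _ _ (by decide))
      (Commute.zero_right _) (c _ _ _ _ (by decide)) (Commute.zero_right _)
      (Commute.zero_right _) hn hψ
  have e3 : ev (t 0 1 + t 0 2) (t 1 3 + t 2 3) ψ = ev (t 3 4) (t 4 0) ψ :=
    sh (u := -t 1 2) (v := -t 1 2) (by rw [← t1]; abel) (by rw [← t2]; abel)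
      (c _ _ _ _ (by decide)) (c _ _ _ _ (by decide)) (c _ _ _ _ (by decide))
      (c _ _ _ _ (by decide)) (Commute.refl _) hn hψ
  rw [e1, e2, e3, ha A (t 4 0) (t 0 1), ha A (t 2 3) (t 3 4)]
  constructor
  · intro e
    linear_combination (norm := abel) -e
  · intro e
    linear_combination (norm := abel) -e

variable {s : Fin 4 → Fin 4 → A}

omit [CommRing k] [Algebra k A] in
theorem crow (h : Fam4 s) (i j l : Fin 4) (p : i ≠ l ∧ j ≠ l) :
    Commute (s i j) (-∑ m, s l m) := by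
  refine Commute.neg_right ?_
  by_cases hij : i = j
  · rw [hij, h.diag]; exact Commute.zero_left _
  rw [← Finset.add_sum_erase _ _ (Finset.mem_univ i),
    ← Finset.add_sum_erase _ _ (Finset.mem_erase.2 ⟨Ne.symm hij, Finset.mem_univ j⟩), ← add_assoc,
    h.symm l i, h.symm l j]
  refine (h.tri i j l hij p.1 p.2).add_right (Commute.sum_right _ _ _ fun m hm => ?_)
  simp only [Finset.mem_erase] at hm
  exact h.comm i j l m p.1 hm.2.1.symm p.2 hm.1.symm

omit [CommRing k] [Algebra k A] in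
theorem cen (h : Fam4 s) (i j : Fin 4) : Commute (s i j) (∑ l, ∑ m, s l m) := by
  by_cases hij : i = j
  · rw [hij, h.diag]; exact Commute.zero_left _
  obtain ⟨l, m, a1, a2, a3, a4, hb⟩ : ∃ l m, i ≠ l ∧ i ≠ m ∧ j ≠ l ∧ j ≠ m ∧
      Function.Injective ![i, j, l, m] := by
    revert i j
    decide
  have hb' := Finite.injective_iff_bijective.1 hb
  rw [← hb'.sum_comp]
  simp only [← hb'.sum_comp (s _)]
  have e : ∑ p, ∑ q, s (![i, j, l, m] p) (![i, j, l, m] q) = s i j + s i j + (s i l + s j l) +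
      (s i l + s j l) + (s i m + s j m) + (s i m + s j m) + s l m + s l m := by
    simp only [Fin.sum_univ_four, Matrix.cons_val_zero, Matrix.cons_val_one, Matrix.cons_val,
      h.diag]
    rw [h.symm j i, h.symm l i, h.symm m i, h.symm l j, h.symm m j, h.symm m l]
    abel
  rw [e]
  have b1 := h.tri i j l hij a1 a3
  have b2 := h.tri i j m hij a2 a4
  have b3 := h.comm i j l m a1 a2 a3 a4
  exact (((((((Commute.refl _).add_right (Commute.refl _)).add_right b1).add_right b1).add_right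
    b2).add_right b2).add_right b3).add_right b3

omit [CommRing k] [Algebra k A] in
theorem shift4 (h : Fam4 s) {c : A} (hc : ∀ i j, Commute (s i j) c) :
    Fam4 fun i j => if i = j then 0 else s i j - c := by
  have cc : ∀ i j k l, Commute (s i j) (s k l) → Commute (s i j - c) (s k l - c) :=
    fun i j k l p => (p.sub_right (hc i j)).sub_left ((hc k l).symm.sub_right (Commute.refl c))
  refine ⟨fun i j => ?_, fun i => if_pos rfl, fun i j k l h1 h2 h3 h4 => ?_,
    fun i j k h1 h2 h3 => ?_⟩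
  · by_cases hij : i = j
    · rw [hij]
    · rw [if_neg hij, if_neg (Ne.symm hij), h.symm]
  · split_ifs
    · exact Commute.zero_left _
    · exact Commute.zero_left _
    · exact Commute.zero_right _
    · exact cc _ _ _ _ (h.comm _ _ _ _ h1 h2 h3 h4)
  · rw [if_neg h1, if_neg h2, if_neg h3, show s i k - c + (s j k - c) = s i k + s j k - c - c by abel]
    exact ((((h.tri i j k h1 h2 h3).sub_right (hc i j)).sub_right (hc i j)).sub_left
      (((((hc i k).symm.add_right (hc j k).symm).sub_right (Commute.refl c))).sub_right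
        (Commute.refl c)))

omit [CommRing k] [Algebra k A] in
theorem ext5 (h : Fam4 s) (h0 : ∑ l, ∑ m, s l m = 0) : ∃ t : Fin 5 → Fin 5 → A, Fam5 t ∧
    t 0 1 = s 0 1 ∧ t 0 2 = s 0 2 ∧ t 1 2 = s 1 2 ∧ t 1 3 = s 1 3 ∧ t 2 3 = s 2 3 := by
  have c : ∀ i j k l, (i ≠ k ∧ i ≠ l ∧ j ≠ k ∧ j ≠ l) → Commute (s i j) (s k l) :=
    fun i j k l p => h.comm i j k l p.1 p.2.1 p.2.2.1 p.2.2.2
  refine ⟨_, mk5 (s 0 1) (s 0 2) (s 0 3) (-∑ m, s 0 m) (s 1 2) (s 1 3) (-∑ m, s 1 m) (s 2 3)
    (-∑ m, s 2 m) (-∑ m, s 3 m) ?_ ?_ ?_ ?_ ?_ (c _ _ _ _ (by decide))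
    (crow h _ _ _ (by decide)) (crow h _ _ _ (by decide)) (c _ _ _ _ (by decide))
    (crow h _ _ _ (by decide)) (crow h _ _ _ (by decide)) (c _ _ _ _ (by decide))
    (crow h _ _ _ (by decide)) (crow h _ _ _ (by decide)) (crow h _ _ _ (by decide)).symm
    (crow h _ _ _ (by decide)).symm (crow h _ _ _ (by decide)).symm (crow h _ _ _ (by decide))
    (crow h _ _ _ (by decide)) (crow h _ _ _ (by decide)).symm, rfl, rfl, rfl, rfl, rfl⟩
  · rw [Fin.sum_univ_four, h.diag]; abel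
  · rw [Fin.sum_univ_four, h.diag, h.symm 1 0]; abel
  · rw [Fin.sum_univ_four, h.diag, h.symm 2 0, h.symm 2 1]; abel
  · rw [Fin.sum_univ_four, h.diag, h.symm 3 0, h.symm 3 1, h.symm 3 2]; abel
  · rw [Fin.sum_univ_four] at h0
    rw [← neg_eq_zero, ← h0]; abel

end FamAux

theorem pent4_iff {K : Type} [Field K] [CharZero K] {ψ : T K} {n : ℕ} (hn : 2 ≤ n)
    (hψ : ψ ∈ HT K n) : Pent4 ψ ↔ Pent ψ := by
  constructor
  · intro h A _ _ t ht
    refine (FamAux.key hn hψ (h.anti hn hψ) ht).1 (h A (fun i j => t i.castSucc j.castSucc) ?_)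
    have ne : ∀ {i j : Fin 4}, i ≠ j → i.castSucc ≠ j.castSucc := fun h =>
      (Fin.castSucc_injective 4).ne h
    exact ⟨fun i j => ht.symm _ _, fun i => ht.diag _,
      fun i j k l h1 h2 h3 h4 => ht.comm _ _ _ _ (ne h1) (ne h2) (ne h3) (ne h4),
      fun i j k h1 h2 h3 => FamAux.ctri ht (ne h1) (ne h2) (ne h3)⟩
  · intro h A _ _ s hs
    obtain ⟨c, hc0⟩ : ∃ c : A, c = (1 / 12 : K) • ∑ l, ∑ m, s l m := ⟨_, rfl⟩
    have hc : ∀ i j, Commute (s i j) c := fun i j => hc0 ▸ (FamAux.cen hs i j).smul_right _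
    obtain ⟨t, ht, a1, a2, a3, a4, a5⟩ := FamAux.ext5 (FamAux.shift4 hs hc) (by
      simp only [Fin.sum_univ_four, hs.diag] at hc0
      simp only [Fin.sum_univ_four, if_true, Fin.reduceEq, if_false, hc0]
      module)
    have e := (FamAux.key hn hψ (h.anti hn hψ) ht).2 (h A t ht)
    simp only [Fin.reduceEq, if_false] at a1 a2 a3 a4 a5
    rw [a1, a2, a3, a4, a5] at e
    have n1 : ∀ i j, Commute (s i j) (-c) := fun i j => (hc i j).neg_right
    have n2 : ∀ i j, Commute (s i j) (-c + -c) := fun i j => (n1 i j).add_right (n1 i j)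
    have m1 : Commute (-c) (-c + -c) := (Commute.refl _).add_right (Commute.refl _)
    rw [FamAux.sh (a := s 0 1) (b := s 1 2 + s 1 3) (u := -c) (v := -c + -c) (by abel) (by abel)
        (n1 _ _) (n2 _ _) ((n1 _ _).add_left (n1 _ _)) ((n2 _ _).add_left (n2 _ _)) m1 hn hψ,
      FamAux.sh (a' := s 0 2 - c + (s 1 2 - c)) (a := s 0 2 + s 1 2) (b := s 2 3) (u := -c + -c)
        (v := -c) (by abel) (by abel) ((n2 _ _).add_left (n2 _ _)) ((n1 _ _).add_left (n1 _ _))
        (n2 _ _) (n1 _ _) m1.symm hn hψ,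
      FamAux.sh (a' := s 1 2 - c) (b' := s 2 3 - c) (sub_eq_add_neg _ _) (sub_eq_add_neg _ _)
        (n1 _ _) (n1 _ _) (n1 _ _) (n1 _ _) (Commute.refl _) hn hψ,
      FamAux.sh (a' := s 0 1 - c) (b' := s 1 2 - c) (sub_eq_add_neg _ _) (sub_eq_add_neg _ _)
        (n1 _ _) (n1 _ _) (n1 _ _) (n1 _ _) (Commute.refl _) hn hψ,
      FamAux.sh (a' := s 0 1 - c + (s 0 2 - c)) (a := s 0 1 + s 0 2) (b := s 1 3 + s 2 3)
        (u := -c + -c) (v := -c + -c) (by abel) (by abel) ((n2 _ _).add_left (n2 _ _))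
        ((n2 _ _).add_left (n2 _ _)) ((n2 _ _).add_left (n2 _ _)) ((n2 _ _).add_left (n2 _ _))
        (Commute.refl _) hn hψ] at e
    exact e

theorem Pent.add {ψ φ : T k} (h : Pent ψ) (h' : Pent φ) : Pent (ψ + φ) := by
  intro A _ _ t ht
  simp only [map_add]
  linear_combination (norm := abel) h A t ht + h' A t ht

theorem Pent.smul {ψ : T k} (c : k) (h : Pent ψ) : Pent (c • ψ) := by
  intro A _ _ t ht
  simp only [map_smul, ← smul_add]
  rw [h A t ht, smul_zero]

theorem Pent.zero : Pent (0 : T k) := by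
  intro A _ _ t ht
  simp only [map_zero, add_zero]

namespace FamAux

theorem fib5 {E : Type} [Ring E] {a b c d e : E} (h1 : ⁅d, a⁆ = ⁅a, b⁆) (h2 : ⁅d, b⁆ = ⁅b, a⁆)
    (h3 : ⁅d, c⁆ = 0) (h4 : ⁅e, a⁆ = 0) (h5 : ⁅e, b⁆ = ⁅b, c⁆) (h6 : ⁅e, c⁆ = ⁅c, b⁆) :
    ∃ t : Fin 5 → Fin 5 → E, Fam5 t ∧ t 0 1 = a ∧ t 0 2 = b ∧ t 0 3 = c ∧
      t 0 4 = -(a + b + c) ∧ t 1 2 = d ∧ t 2 3 = e ∧ t 3 4 = a + b + d := by
  simp only [Ring.lie_def, sub_eq_iff_eq_add] at h1 h2 h3 h4 h5 h6
  refine ⟨_, mk5 a b c (-(a + b + c)) d (-(a + b + c) - d - e) (b + c + e) e (-b - d - e)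
    (a + b + d) (by abel) (by abel) (by abel) (by abel) (by abel) ?_ ?_ ?_ ?_ ?_ ?_ ?_ ?_ ?_ ?_ ?_
    ?_ ?_ ?_ ?_, rfl, rfl, rfl, rfl, rfl, rfl, rfl⟩ <;>
  · show _ * _ = _ * _
    simp only [mul_add, add_mul, mul_sub, sub_mul, mul_neg, neg_mul, h1, h2, h3, h4, h5, h6]
    abel

end FamAux

/-- the family that acts on a fibre model -/
theorem Fibre.fam {α β γ : A} {d12 d23 : Module.End k A} (h : Fibre α β γ d12 d23) :
    ∃ t : Fin 5 → Fin 5 → Module.End k A, Fam5 t ∧ t 0 1 = Lm α ∧ t 0 2 = Lm β ∧ t 0 3 = Lm γ ∧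
      t 0 4 = Lm (-(α + β + γ)) ∧ t 1 2 = d12 ∧ t 2 3 = d23 ∧ t 3 4 = Lm α + Lm β + d12 := by
  have := FamAux.fib5 (a := Lm α) (b := Lm β) (c := Lm γ) (d := d12) (e := d23)
    (by rw [h.der12.lie_Lm, h.a12, map_br]) (by rw [h.der12.lie_Lm, h.b12, map_br])
    (by rw [h.der12.lie_Lm, h.c12, map_zero]) (by rw [h.der23.lie_Lm, h.a23, map_zero])
    (by rw [h.der23.lie_Lm, h.b23, map_br]) (by rw [h.der23.lie_Lm, h.c23, map_br])
  rw [map_neg, map_add, map_add]
  exact this

theorem exists_fibre : ∃ d12 d23 : Module.End k (FreeAlgebra k (Fin 3)),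
    Fibre (FreeAlgebra.ι k 0) (FreeAlgebra.ι k 1) (FreeAlgebra.ι k 2) d12 d23 := by
  refine ⟨dvG (FreeAlgebra.ι k) ![⁅FreeAlgebra.ι k 0, FreeAlgebra.ι k 1⁆,
      ⁅FreeAlgebra.ι k 1, FreeAlgebra.ι k 0⁆, 0],
    dvG (FreeAlgebra.ι k) ![0, ⁅FreeAlgebra.ι k 1, FreeAlgebra.ι k 2⁆,
      ⁅FreeAlgebra.ι k 2, FreeAlgebra.ι k 1⁆], dvG_self_der _, dvG_self_der _,
    dvG_of _ _ 0, dvG_of _ _ 1, dvG_of _ _ 2, dvG_of _ _ 0, dvG_of _ _ 1, dvG_of _ _ 2⟩

/-- the fibre is free -/
theorem free_fibre (p : FreeAlgebra k (Fin 3))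
    (h : ∀ (A : Type) [Ring A] [Algebra k A] (t : Fin 5 → Fin 5 → A), Fam5 t →
      FreeAlgebra.lift k ![t 0 1, t 0 2, t 0 3] p = 0) : p = 0 := by
  obtain ⟨d12, d23, hf⟩ := exists_fibre (k := k)
  obtain ⟨t, ht, a1, a2, a3, -⟩ := hf.fam
  have e := h _ t ht
  rw [a1, a2, a3] at e
  have e1 := map_lift (Lm : FreeAlgebra k (Fin 3) →ₐ[k] Module.End k (FreeAlgebra k (Fin 3)))
    (FreeAlgebra.ι k) p
  have e2 : (fun i => (Lm (FreeAlgebra.ι k i) : Module.End k (FreeAlgebra k (Fin 3)))) =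
      ![Lm (FreeAlgebra.ι k 0), Lm (FreeAlgebra.ι k 1), Lm (FreeAlgebra.ι k 2)] := by
    funext i; fin_cases i <;> rfl
  have e3 : FreeAlgebra.lift k (FreeAlgebra.ι k : Fin 3 → FreeAlgebra k (Fin 3)) =
      AlgHom.id k _ := by
    refine FreeAlgebra.hom_ext ?_
    funext i
    simp
  rw [e2, e, e3] at e1
  exact Lm_injective (e1.trans (map_zero _).symm)

theorem Pent.fibEq {ψ : T k} {n : ℕ} (hn : 2 ≤ n) (hψ : ψ ∈ HT k n) (h : Pent ψ) :
    FibEq ψ := by
  intro R _ _ α β γ d12 d23 hf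
  obtain ⟨t, ht, a1, a2, a3, a4, a5, a6, a7⟩ := hf.fam
  have e := h _ t ht
  have c : ∀ i j k l, (i ≠ k ∧ i ≠ l ∧ j ≠ k ∧ j ≠ l) → Commute (t i j) (t k l) :=
    fun i j k l p => ht.comm i j k l p.1 p.2.1 p.2.2.1 p.2.2.2
  have c1 := c 0 1 3 4 (by decide)
  have c2 := c 0 2 3 4 (by decide)
  have c3 := c 3 4 1 2 (by decide)
  have c4 := c 0 4 1 2 (by decide)
  have c5 := c 2 3 0 1 (by decide)
  have b1 : t 3 4 = t 0 1 + t 0 2 + t 1 2 := by rw [a1, a2, a5, a7]
  have e1 : ev (t 0 1) (t 1 2) ψ = ev (t 0 1) (-t 0 1 - t 0 2) ψ :=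
    FamAux.sh (u := 0) (v := t 3 4) (add_zero _).symm (by rw [b1]; abel) (Commute.zero_right _) c1
      (Commute.zero_right _) (c1.neg_left.sub_left c2) (Commute.zero_left _) hn hψ
  have e2 : ev (t 3 4) (t 0 4) ψ = ev (t 0 1 + t 0 2) (t 0 4) ψ :=
    FamAux.sh (u := t 1 2) (v := 0) b1 (add_zero _).symm (by
      rw [eq_sub_of_add_eq b1.symm]; exact c3.sub_left (Commute.refl _)) (Commute.zero_right _) c4
      (Commute.zero_right _) (Commute.zero_right _) hn hψ
  have e3 : ev (t 2 3) (t 3 4) ψ = ev (t 2 3) (t 0 2 + t 1 2) ψ :=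
    FamAux.sh (u := 0) (v := t 0 1) (add_zero _).symm (by rw [b1]; abel) (Commute.zero_right _) c5
      (Commute.zero_right _) (by
        rw [show t 0 2 + t 1 2 = t 3 4 - t 0 1 by rw [b1]; abel]
        exact c1.symm.sub_left (Commute.refl _)) (Commute.zero_left _) hn hψ
  have e4 : (ev d12 d23 ψ : Module.End k R) 1 = 0 := by
    obtain ⟨m, rfl⟩ : ∃ m, n = m + 1 := ⟨n - 1, by omega⟩
    have h1 := HT_le_pow _ hψ
    rw [pow_succ] at h1
    refine Submodule.mul_induction_on h1 (fun p _ v hv => ?_) fun p q hp hq => ?_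
    · obtain ⟨r, s, rfl⟩ := Submodule.mem_span_pair.1 hv
      simp [hf.der12.one, hf.der23.one]
    · rw [map_add, LinearMap.add_apply, hp, hq, add_zero]
  rw [ht.symm 4 0, e1, e2, e3, a1, a2, a4, a5, a6, ← map_neg, ← map_sub, ← map_add,
    ← map_ev (Lm : R →ₐ[k] Module.End k R), ← map_ev (Lm : R →ₐ[k] Module.End k R),
    ← map_ev (Lm : R →ₐ[k] Module.End k R)] at e
  have e5 := congrArg (fun f : Module.End k R => f 1) e
  simp only [LinearMap.add_apply, Lm_apply, mul_one, e4, LinearMap.zero_apply] at e5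
  rw [← e5]
  abel

end Vale.Agent.P029
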