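import Vale.Agent.P029.Basic

/-! Filtrations by powers, and the coefficient of depth one. -/

noncomputable section

namespace Vale.Agent.P029

variable {k : Type} [CommRing k] {A B : Type} [Ring A] [Algebra k A] [Ring B] [Algebra k B]

theorem VT_gen : Algebra.adjoin k (VT k : Set (T k)) = ⊤ := by
  rw [eq_top_iff, ← FreeAlgebra.adjoin_range_ι]
  refine Algebra.adjoin_mono ?_
  rintro _ ⟨i, rfl⟩
  fin_cases i
  · exact Submodule.subset_span (Or.inl rfl)
  · exact Submodule.subset_span (Or.inr rfl)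

theorem Fl_zero (V : Submodule k A) : Fl V 0 = ⊤ := by
  rw [Fl, pow_zero, one_mul]

theorem pow_le_Fl (V : Submodule k A) (m : ℕ) : V ^ m ≤ Fl V m := by
  intro a ha
  have := Submodule.mul_mem_mul ha (Submodule.mem_top (x := (1 : A)))
  rwa [mul_one] at this

theorem Fl_anti (V : Submodule k A) {m n : ℕ} (h : m ≤ n) : Fl V n ≤ Fl V m := by
  obtain ⟨j, rfl⟩ := Nat.exists_eq_add_of_le h
  rw [Fl, Fl, pow_add, mul_assoc]
  exact mul_le_mul_right le_top _

theorem Fl_mul_right (V : Submodule k A) {m : ℕ} {a : A} (ha : a ∈ Fl V m) (b : A) :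
    a * b ∈ Fl V m := by
  have := Submodule.mul_mem_mul ha (Submodule.mem_top (x := b))
  rw [Fl, mul_assoc] at this
  exact mul_le_mul_right (le_top (a := (⊤ * ⊤ : Submodule k A))) (V ^ m) this

theorem Fl_eq_bot {S : Set A} {N : ℕ} (h : Nil k N S) : Fl (Submodule.span k S) (N + 1) = ⊥ := by
  rw [Fl, h, Submodule.bot_mul]

namespace FilAux

/-- the subalgebra generated by `V`, as a submodule -/
def adj (V : Submodule k A) : Submodule k A := Subalgebra.toSubmodule (Algebra.adjoin k (V : Set A))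

theorem le_adj (V : Submodule k A) : V ≤ adj V := fun _ ha => Algebra.subset_adjoin ha

theorem adj_mul (V : Submodule k A) : adj V * adj V ≤ adj V :=
  Submodule.mul_le.2 fun _ ha _ hb => Subalgebra.mul_mem _ ha hb

theorem one_mem_adj (V : Submodule k A) : (1 : A) ∈ adj V := Subalgebra.one_mem _

theorem adj_le (V : Submodule k A) : adj V ≤ 1 ⊔ V * adj V := by
  intro a ha
  induction ha using Algebra.adjoin_induction with
  | mem v hv =>
    have := Submodule.mul_mem_mul hv (one_mem_adj V)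
    rw [mul_one] at this
    exact Submodule.mem_sup_right this
  | algebraMap r => exact Submodule.mem_sup_left (Submodule.algebraMap_mem r)
  | add a b _ _ ha hb => exact add_mem ha hb
  | mul a b _ hb' ha hb =>
    obtain ⟨p, hp, q, hq, rfl⟩ := Submodule.mem_sup.1 ha
    obtain ⟨r, rfl⟩ := Submodule.mem_one.1 hp
    rw [add_mul, ← Algebra.smul_def]
    refine add_mem (Submodule.smul_mem _ r hb) (Submodule.mem_sup_right ?_)
    have := Submodule.mul_mem_mul hq (show b ∈ adj V from hb')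
    rw [mul_assoc] at this
    exact mul_le_mul_right (adj_mul V) _ this

theorem adj_mul_le (V : Submodule k A) : adj V * V ≤ V * adj V := by
  refine (mul_le_mul_left (adj_le V) V).trans ?_
  rw [Submodule.sup_mul, one_mul, mul_assoc]
  refine sup_le (fun v hv => ?_)
    (mul_le_mul_right ((mul_le_mul_right (le_adj V) _).trans (adj_mul V)) _)
  have := Submodule.mul_mem_mul hv (one_mem_adj V)
  rwa [mul_one] at this

theorem adj_mul_pow (V : Submodule k A) (n : ℕ) : adj V * V ^ n ≤ V ^ n * adj V := by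
  induction n with
  | zero => rw [pow_zero, one_mul, mul_one]
  | succ n ih =>
    rw [pow_succ, ← mul_assoc, mul_assoc (V ^ n)]
    refine (mul_le_mul_left ih V).trans ?_
    rw [mul_assoc]
    exact mul_le_mul_right (adj_mul_le V) _

theorem adj_mul_Fl (V : Submodule k A) (m n : ℕ) : V ^ m * adj V * Fl V n ≤ Fl V (m + n) := by
  calc V ^ m * adj V * (V ^ n * ⊤) = V ^ m * (adj V * V ^ n * ⊤) := by simp only [mul_assoc]
    _ ≤ V ^ m * (V ^ n * adj V * ⊤) := mul_le_mul_right (mul_le_mul_left (adj_mul_pow V n) ⊤) _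
    _ = V ^ (m + n) * (adj V * ⊤) := by simp only [mul_assoc, pow_add]
    _ ≤ V ^ (m + n) * ⊤ := mul_le_mul_right le_top _

theorem adj_top {V : Submodule k A} (hV : Algebra.adjoin k (V : Set A) = ⊤) : adj V = ⊤ := by
  rw [adj, hV]; rfl

end FilAux

section gen
variable {V : Submodule k A} (hV : Algebra.adjoin k (V : Set A) = ⊤)
include hV

theorem Fl_mul {m n : ℕ} {a b : A} (ha : a ∈ Fl V m) (hb : b ∈ Fl V n) :
    a * b ∈ Fl V (m + n) := by
  refine FilAux.adj_mul_Fl V m n (Submodule.mul_mem_mul ?_ hb)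
  rwa [FilAux.adj_top hV]

theorem Fl_mul_left {m : ℕ} (a : A) {b : A} (hb : b ∈ Fl V m) : a * b ∈ Fl V m := by
  have := Fl_mul hV (m := 0) (a := a) (by rw [Fl_zero]; trivial) hb
  rwa [zero_add] at this

theorem Fl_split {m : ℕ} {a : A} (ha : a ∈ Fl V m) : ∃ p ∈ V ^ m, a - p ∈ Fl V (m + 1) := by
  have h1 := FilAux.adj_le V
  rw [FilAux.adj_top hV] at h1
  have h2 := mul_le_mul_right h1 (V ^ m) ha
  rw [Submodule.mul_sup, mul_one, ← mul_assoc, ← pow_succ] at h2
  obtain ⟨p, hp, q, hq, rfl⟩ := Submodule.mem_sup.1 h2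
  exact ⟨p, hp, by rwa [add_sub_cancel_left]⟩

theorem Fl_der {d : Module.End k A} (hd : Der d) {r : ℕ} (h : ∀ v ∈ V, d v ∈ Fl V (1 + r))
    {m : ℕ} {a : A} (ha : a ∈ Fl V m) : d a ∈ Fl V (m + r) := by
  induction m generalizing a with
  | zero =>
    rw [zero_add]
    have ha' : a ∈ Algebra.adjoin k (V : Set A) := by rw [hV]; trivial
    clear ha
    induction ha' using Algebra.adjoin_induction with
    | mem v hv => exact Fl_anti V (by omega) (h v hv)
    | algebraMap c =>
      rw [Algebra.algebraMap_eq_smul_one, map_smul, hd.one, smul_zero]; exact zero_mem _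
    | add a b _ _ ha hb => rw [map_add]; exact add_mem ha hb
    | mul a b _ _ ha hb => rw [hd]; exact add_mem (Fl_mul_right V ha b) (Fl_mul_left hV a hb)
  | succ m ih =>
    rw [Fl, pow_succ', mul_assoc] at ha
    refine Submodule.mul_induction_on ha (fun v hv b hb => ?_) fun a b ha hb => ?_
    · rw [hd]
      refine add_mem ?_ ?_
      · exact Fl_anti V (by omega) (Fl_mul hV (h v hv) (show b ∈ Fl V m from hb))
      · have h1 : v ∈ Fl V 1 := pow_le_Fl V 1 (by rwa [pow_one])
        exact Fl_anti V (by omega) (Fl_mul hV h1 (ih hb))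
    · rw [map_add]; exact add_mem ha hb

end gen

/-- an endomorphism that raises a finite filtration is nilpotent -/
theorem pow_eq_zero_of_raise {V : Submodule k A} {N : ℕ} (hN : Fl V (N + 1) = ⊥)
    {E : Module.End k A} (hE : ∀ m, ∀ a ∈ Fl V m, E a ∈ Fl V (m + 1)) : E ^ (N + 1) = 0 := by
  have : ∀ (j : ℕ) (a : A), (E ^ j) a ∈ Fl V j := by
    intro j
    induction j with
    | zero => intro a; rw [Fl_zero]; trivial
    | succ j ih => intro a; rw [pow_succ', Module.End.mul_apply]; exact hE j _ (ih a)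
  ext a
  have h := this (N + 1) a
  rwa [hN, Submodule.mem_bot] at h

theorem ev_mem_Fl {V : Submodule k A} {a b : A} (ha : a ∈ V) (hb : b ∈ V) {n : ℕ} {m : T k}
    (h : m ∈ Fl (VT k) n) : ev a b m ∈ Fl V n := by
  refine Submodule.mul_induction_on h (fun p hp q _ => ?_) fun p q hp hq => ?_
  · rw [map_mul]; exact Submodule.mul_mem_mul (ev_mem_pow ha hb hp) trivial
  · rw [map_add]; exact add_mem hp hq

theorem Nil.mono {S S' : Set A} {N N' : ℕ} (h : Nil k N S) (hN : N ≤ N')
    (hS : S' ⊆ Submodule.span k S) : Nil k N' S' := by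
  obtain ⟨j, rfl⟩ := Nat.exists_eq_add_of_le hN
  have h1 : Submodule.span k S' ≤ Submodule.span k S := Submodule.span_le.2 hS
  refine le_bot_iff.1 ((pow_le_pow_left' h1 _).trans ?_)
  rw [add_right_comm, pow_add, h, Submodule.bot_mul]

theorem Nil.map {S : Set A} {N : ℕ} (h : Nil k N S) (f : A →ₐ[k] B) : Nil k N (f '' S) := by
  have e : Submodule.span k (f '' S) = (Submodule.span k S).map f.toLinearMap := by
    rw [Submodule.map_span]; rfl
  rw [Nil, e, ← Submodule.map_pow, h, Submodule.map_bot]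

theorem Nil.of_injective {S : Set A} {N : ℕ} (f : A →ₐ[k] B) (hf : Function.Injective f)
    (h : Nil k N (f '' S)) : Nil k N S := by
  have e : Submodule.span k (f '' S) = (Submodule.span k S).map f.toLinearMap := by
    rw [Submodule.map_span]; rfl
  rw [Nil, e, ← Submodule.map_pow] at h
  rw [Nil, eq_bot_iff]
  intro a ha
  have h1 : f a ∈ (Submodule.span k S ^ (N + 1)).map f.toLinearMap := ⟨a, ha, rfl⟩
  rw [h, Submodule.mem_bot] at h1
  exact hf (h1.trans (map_zero f).symm)

theorem nil_iff_list {S : Set A} {N : ℕ} :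
    Nil k N S ↔ ∀ l : List A, (∀ a ∈ l, a ∈ S) → l.length = N + 1 → l.prod = 0 := by
  constructor
  · intro h l hl hn
    have : ∀ l : List A, (∀ a ∈ l, a ∈ S) → l.prod ∈ Submodule.span k S ^ l.length := by
      intro l
      induction l with
      | nil => intro _; simp [Submodule.one_eq_span]
      | cons a l ih =>
        intro hl
        rw [List.prod_cons, List.length_cons, pow_succ']
        exact Submodule.mul_mem_mul (Submodule.subset_span (hl a (by simp)))
          (ih fun b hb => hl b (by simp [hb]))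
    have h1 := this l hl
    rwa [hn, h, Submodule.mem_bot] at h1
  · intro h
    rw [Nil, Submodule.span_pow, Submodule.span_eq_bot]
    intro a ha
    obtain ⟨f, rfl⟩ := Set.mem_pow.1 ha
    refine h _ (fun b hb => ?_) List.length_ofFn
    obtain ⟨i, rfl⟩ := (List.mem_ofFn' _ _).1 hb
    exact (f i).2

theorem ev_eq_zero_of_nil {S : Set A} {N : ℕ} (h : Nil k N S) {a b : A}
    (ha : a ∈ Submodule.span k S) (hb : b ∈ Submodule.span k S) {m : T k}
    (hm : m ∈ Fl (VT k) (N + 1)) : ev a b m = 0 := by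
  have := ev_mem_Fl ha hb hm
  rwa [Fl_eq_bot h, Submodule.mem_bot] at this

/-- products of perturbed unipotent elements -/
theorem ev_mul_eq_zero_of_nil {S : Set A} {N : ℕ} (h : Nil k N S) {a b a' b' : A}
    (ha : a ∈ Submodule.span k S) (hb : b ∈ Submodule.span k S) (ha' : a' ∈ Submodule.span k S)
    (hb' : b' ∈ Submodule.span k S) {i j : ℕ} (hij : N + 1 ≤ i + j) {m m' : T k}
    (hm : m ∈ Fl (VT k) i) (hm' : m' ∈ Fl (VT k) j) : ev a b m * ev a' b' m' = 0 := by
  have h0 : ∀ q : T k, ev a b q ∈ FilAux.adj (Submodule.span k S) := fun q => by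
    induction q using FreeAlgebra.induction with
    | grade0 r => rw [AlgHom.commutes]; exact Subalgebra.algebraMap_mem _ r
    | grade1 i =>
      fin_cases i
      · exact (ev_X (k := k) a b).symm ▸ FilAux.le_adj _ ha
      · exact (ev_Y (k := k) a b).symm ▸ FilAux.le_adj _ hb
    | mul p q hp hq => rw [map_mul]; exact Subalgebra.mul_mem _ hp hq
    | add p q hp hq => rw [map_add]; exact add_mem hp hq
  have h1 : ev a b m ∈ Submodule.span k S ^ i * FilAux.adj (Submodule.span k S) := by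
    refine Submodule.mul_induction_on hm (fun p hp q _ => ?_) fun p q hp hq => ?_
    · rw [map_mul]; exact Submodule.mul_mem_mul (ev_mem_pow ha hb hp) (h0 q)
    · rw [map_add]; exact add_mem hp hq
  have h2 := Fl_anti _ hij
    (FilAux.adj_mul_Fl _ i j (Submodule.mul_mem_mul h1 (ev_mem_Fl ha' hb' hm')))
  rwa [Fl_eq_bot h, Submodule.mem_bot] at h2

theorem DT_mem_Fl {ψ : T k} {r : ℕ} (h : ψ ∈ Fl (VT k) r) {n : ℕ} {m : T k}
    (hm : m ∈ Fl (VT k) n) : DT ψ m ∈ Fl (VT k) (n + r) := by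
  refine Fl_der VT_gen (DT_der ψ) (fun v hv => ?_) hm
  obtain ⟨p, q, rfl⟩ := Submodule.mem_span_pair.1 hv
  have h1 : Y k ∈ Fl (VT k) 1 := pow_le_Fl _ 1 (HT_le_pow 1 Y_mem)
  rw [map_add, map_smul, map_smul, DT_X, DT_Y, smul_zero, zero_add, Ring.lie_def]
  refine Submodule.smul_mem _ _ (sub_mem (Fl_mul VT_gen h1 h) ?_)
  rw [add_comm]
  exact Fl_mul VT_gen h h1

theorem act_mem_Fl {ψ : T k} {r : ℕ} (h : ψ ∈ Fl (VT k) r) {n : ℕ} {m : T k}
    (hm : m ∈ Fl (VT k) n) : act ψ m ∈ Fl (VT k) (n + r) := by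
  rw [act_apply]
  refine add_mem (DT_mem_Fl h hm) ?_
  rw [add_comm]
  exact Fl_mul VT_gen h hm

/-! the coefficient of depth one -/

theorem dep_add (a b : T k) : dep (a + b) = dep a + dep b := by
  simp only [dep, map_add, Matrix.add_apply]

theorem dep_smul (c : k) (a : T k) : dep (c • a) = c * dep a := by
  simp only [dep, map_smul, Matrix.smul_apply, smul_eq_mul]

theorem lam_add (n : ℕ) (a b : T k) : lam n (a + b) = lam n a + lam n b := by
  simp only [lam, map_add, Matrix.add_apply, Polynomial.coeff_add]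

theorem lam_sub (n : ℕ) (a b : T k) : lam n (a - b) = lam n a - lam n b := by
  simp only [lam, map_sub, Matrix.sub_apply, Polynomial.coeff_sub]

theorem lam_smul (n : ℕ) (c : k) (a : T k) : lam n (c • a) = c * lam n a := by
  simp only [lam, map_smul, Matrix.smul_apply, Polynomial.coeff_smul, smul_eq_mul]

namespace FilAux

section tri
variable {R : Type} [CommRing R] [Algebra k R] (p q : R)

theorem tri (m : T k) :
    ev (!![p, 0; 0, 0] : Matrix (Fin 2) (Fin 2) R) !![0, q; 0, 0] m 1 0 = 0 ∧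
      ∃ c : k, ev (!![p, 0; 0, 0] : Matrix (Fin 2) (Fin 2) R) !![0, q; 0, 0] m 1 1 =
        algebraMap k R c := by
  induction m using FreeAlgebra.induction with
  | grade0 r =>
    rw [AlgHom.commutes]
    exact ⟨by simp [Matrix.algebraMap_matrix_apply], r, by simp [Matrix.algebraMap_matrix_apply]⟩
  | grade1 i =>
    fin_cases i
    · exact ⟨by simp [ev], 0, by simp [ev]⟩
    · exact ⟨by simp [ev], 0, by simp [ev]⟩
  | mul a b ha hb =>
    obtain ⟨a1, c, a2⟩ := ha
    obtain ⟨b1, d, b2⟩ := hb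
    rw [map_mul]
    exact ⟨by simp [Matrix.mul_apply, a1, b1], c * d, by simp [Matrix.mul_apply, a1, a2, b2]⟩
  | add a b ha hb =>
    obtain ⟨a1, c, a2⟩ := ha
    obtain ⟨b1, d, b2⟩ := hb
    rw [map_add]
    exact ⟨by simp [a1, b1], c + d, by simp [a2, b2]⟩

theorem strict {ψ : T k} {r : ℕ} (h : ψ ∈ HT k r) (hr : 2 ≤ r) :
    ∃ s : R, ev (!![p, 0; 0, 0] : Matrix (Fin 2) (Fin 2) R) !![0, q; 0, 0] ψ = !![0, s; 0, 0] := by
  induction h using Submodule.span_induction with
  | mem a ha =>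
    have ha' : Mon (FreeAlgebra.ι k) (fun _ : Fin 2 => 1) r a := ha
    cases ha' with
    | of i => omega
    | @br _ _ a b _ _ =>
      have a1 := (tri (k := k) p q a).1
      have b1 := (tri (k := k) p q b).1
      rw [map_br, Ring.lie_def]
      generalize ev (!![p, 0; 0, 0] : Matrix (Fin 2) (Fin 2) R) !![0, q; 0, 0] a = M at a1
      generalize ev (!![p, 0; 0, 0] : Matrix (Fin 2) (Fin 2) R) !![0, q; 0, 0] b = N at b1
      refine ⟨(M * N - N * M) 0 1, Matrix.ext fun i j => ?_⟩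
      fin_cases i <;> fin_cases j
      · simp [Matrix.mul_apply, a1, b1, mul_comm]
      · rfl
      · simp [Matrix.mul_apply, a1, b1, mul_comm]
      · simp [Matrix.mul_apply, a1, b1, mul_comm]
  | zero => exact ⟨0, by rw [map_zero]; ext i j; fin_cases i <;> fin_cases j <;> rfl⟩
  | add a b _ _ ha hb =>
    obtain ⟨s, hs⟩ := ha
    obtain ⟨s', hs'⟩ := hb
    exact ⟨s + s', by rw [map_add, hs, hs']; simp⟩
  | smul c a _ ha =>
    obtain ⟨s, hs⟩ := ha
    exact ⟨c • s, by rw [map_smul, hs]; simp⟩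

theorem ev_DT_zero {ψ : T k} {r : ℕ} (h : ψ ∈ HT k r) (hr : 2 ≤ r) (m : T k) :
    ev (!![p, 0; 0, 0] : Matrix (Fin 2) (Fin 2) R) !![0, q; 0, 0] (DT ψ m) = 0 := by
  obtain ⟨s, hs⟩ := strict p q h hr
  have e : ⁅(!![0, q; 0, 0] : Matrix (Fin 2) (Fin 2) R), (!![0, s; 0, 0] : Matrix (Fin 2) (Fin 2) R)⁆
      = 0 := by simp [Ring.lie_def]
  rw [ev_DT, hs, e]
  have := dv_add (k := k) (!![p, 0; 0, 0] : Matrix (Fin 2) (Fin 2) R) !![0, q; 0, 0] 0 0 0 0 m
  rw [add_zero] at this
  exact left_eq_add.1 this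

end tri

open Polynomial in
theorem ev_pow {n : ℕ} {m : T k} (h : m ∈ VT k ^ n) :
    ev (!![Polynomial.X, 0; 0, 0] : Matrix (Fin 2) (Fin 2) k[X]) !![0, Polynomial.X; 0, 0] m =
      (Polynomial.X : k[X]) ^ n •
        (ev (!![1, 0; 0, 0] : Matrix (Fin 2) (Fin 2) k) !![0, 1; 0, 0] m).map C := by
  have h1 := map_ev (Polynomial.CAlgHom (R := k) (A := k)).mapMatrix
    (!![1, 0; 0, 0] : Matrix (Fin 2) (Fin 2) k) !![0, 1; 0, 0] m
  have h2 := ev_central (h := algebraMap k[X] (Matrix (Fin 2) (Fin 2) k[X]) Polynomial.X)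
    (Algebra.commutes _ (!![1, 0; 0, 0] : Matrix (Fin 2) (Fin 2) k[X]))
    (Algebra.commutes _ (!![0, 1; 0, 0] : Matrix (Fin 2) (Fin 2) k[X])) h
  rw [← map_pow, ← Algebra.smul_def, ← Algebra.smul_def, ← Algebra.smul_def] at h2
  have e1 : (Polynomial.CAlgHom (R := k) (A := k)).mapMatrix
      (!![1, 0; 0, 0] : Matrix (Fin 2) (Fin 2) k) = !![1, 0; 0, 0] := by
    refine Matrix.ext fun i j => ?_
    fin_cases i <;> fin_cases j <;> simp
  have e2 : (Polynomial.CAlgHom (R := k) (A := k)).mapMatrix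
      (!![0, 1; 0, 0] : Matrix (Fin 2) (Fin 2) k) = !![0, 1; 0, 0] := by
    refine Matrix.ext fun i j => ?_
    fin_cases i <;> fin_cases j <;> simp
  rw [e1, e2] at h1
  rw [← h1] at h2
  simpa [Polynomial.CAlgHom] using h2

end FilAux

theorem lam_of_pow {n : ℕ} {m : T k} (h : m ∈ VT k ^ n) : lam n m = dep m := by
  rw [lam, FilAux.ev_pow h, Matrix.smul_apply, Matrix.map_apply, smul_eq_mul, mul_comm,
    Polynomial.coeff_C_mul_X_pow, if_pos rfl, dep]

theorem lam_of_Fl {n : ℕ} {m : T k} (h : m ∈ Fl (VT k) (n + 1)) : lam n m = 0 := by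
  refine Submodule.mul_induction_on h (fun p hp q _ => ?_) fun p q hp hq => ?_
  · rw [lam, map_mul, FilAux.ev_pow hp, smul_mul_assoc, Matrix.smul_apply, smul_eq_mul,
      Polynomial.coeff_X_pow_mul', if_neg (by omega)]
  · rw [lam_add, hp, hq, add_zero]

theorem lam_neg (n : ℕ) (m : T k) : lam n (ev (-X k) (-Y k) m) = (-1) ^ n * lam n m := by
  have h1 := map_ev (Polynomial.aeval (R := k) (Polynomial.C (-1 : k) * Polynomial.X)).mapMatrix
    (!![Polynomial.X, 0; 0, 0] : Matrix (Fin 2) (Fin 2) (Polynomial k)) !![0, Polynomial.X; 0, 0] m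
  have e1 : (Polynomial.aeval (R := k) (Polynomial.C (-1 : k) * Polynomial.X)).mapMatrix
      (!![Polynomial.X, 0; 0, 0] : Matrix (Fin 2) (Fin 2) (Polynomial k)) =
      -!![Polynomial.X, 0; 0, 0] := by
    refine Matrix.ext fun i j => ?_
    fin_cases i <;> fin_cases j <;> simp
  have e2 : (Polynomial.aeval (R := k) (Polynomial.C (-1 : k) * Polynomial.X)).mapMatrix
      (!![0, Polynomial.X; 0, 0] : Matrix (Fin 2) (Fin 2) (Polynomial k)) =
      -!![0, Polynomial.X; 0, 0] := by
    refine Matrix.ext fun i j => ?_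
    fin_cases i <;> fin_cases j <;> simp
  rw [e1, e2] at h1
  rw [lam, map_ev, map_neg, map_neg, ev_X, ev_Y, ← h1, lam, AlgHom.mapMatrix_apply,
    Matrix.map_apply, ← Polynomial.comp_eq_aeval, Polynomial.comp_C_mul_X_coeff, mul_comm]

theorem lam_act {ψ : T k} {r n : ℕ} (h : ψ ∈ HT k r) (hr : 2 ≤ r) (hn : r ≠ n) (m : T k) :
    lam n (act ψ m) = 0 := by
  obtain ⟨s, hs⟩ := FilAux.strict (Polynomial.X : Polynomial k) Polynomial.X h hr
  obtain ⟨c, hc⟩ := (FilAux.tri (Polynomial.X : Polynomial k) Polynomial.X m).2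
  have h1 := congrFun (congrFun (FilAux.ev_pow (HT_le_pow r h)) 0) 1
  rw [hs, Matrix.smul_apply, Matrix.map_apply, smul_eq_mul] at h1
  have h2 : s = _ := h1
  rw [lam, act_apply, map_add, FilAux.ev_DT_zero _ _ h hr, zero_add, map_mul, hs, Matrix.mul_apply,
    Fin.sum_univ_two, hc, h2]
  simp [Polynomial.coeff_X_pow, hn.symm, mul_assoc]

theorem dep_ih {ψ φ : T k} {m n : ℕ} (h : ψ ∈ HT k m) (h' : φ ∈ HT k n) (hm : 2 ≤ m)
    (hn : 2 ≤ n) : dep (ih ψ φ) = 0 := by
  obtain ⟨s, hs⟩ := FilAux.strict (1 : k) 1 h hm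
  obtain ⟨s', hs'⟩ := FilAux.strict (1 : k) 1 h' hn
  rw [dep, ih, map_add, map_sub, FilAux.ev_DT_zero _ _ h hm, FilAux.ev_DT_zero _ _ h' hn, map_br,
    hs, hs']
  simp [Ring.lie_def]

end Vale.Agent.P029
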