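import Vale.Agent.P029.Key

/-! The special relation, deformation of families, closure under the Ihara bracket. -/

noncomputable section

namespace Vale.Agent.P029

variable {K : Type} [Field K] [CharZero K] {A : Type} [Ring A] [Algebra K A]

namespace KeyBAux

theorem vert_sum {ψ φ : T K} {t τ : Fin 5 → Fin 5 → A} {u0 u1 u2 u3 u4 : A}
    (v : Vert ψ t τ u0 u1 u2 u3 u4) (h : Pent φ) :
    (ev (t 0 1) (t 1 2) (DT ψ φ) + ⁅ev (t 0 1) (t 1 2) φ, u0⁆) +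
      (ev (t 3 4) (t 4 0) (DT ψ φ) + ⁅ev (t 3 4) (t 4 0) φ, u1⁆) +
      (ev (t 1 2) (t 2 3) (DT ψ φ) + ⁅ev (t 1 2) (t 2 3) φ, u2⁆) +
      (ev (t 4 0) (t 0 1) (DT ψ φ) + ⁅ev (t 4 0) (t 0 1) φ, u3⁆) +
      (ev (t 2 3) (t 3 4) (DT ψ φ) + ⁅ev (t 2 3) (t 3 4) φ, u4⁆) = 0 := by
  have := congrArg TrivSqZeroExt.snd (h _ _ v.fam)
  simp only [TrivSqZeroExt.snd_add, FuncAux.snd_ev, TrivSqZeroExt.snd_zero] at this
  rw [← dv_edge v.e1, ← dv_edge v.e2, ← dv_edge v.e3, ← dv_edge v.e4, ← dv_edge v.e0, ← v.a1, ← v.b1,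
    ← v.a2, ← v.b2, ← v.a3, ← v.b3, ← v.a4, ← v.b4, ← v.a0, ← v.b0]
  exact this

theorem sum5 {M : Type} [AddCommMonoid M] {i j k l m : Fin 5} (hd : D5 i j k l m) (f : Fin 5 → M) :
    ∑ r, f r = f i + f j + f k + f l + f m := by
  rw [← (Equiv.ofBijective _ (Finite.injective_iff_bijective.1 hd.injective)).sum_comp,
    Fin.sum_univ_five]
  rfl

end KeyBAux

open KeyAux KeyBAux

theorem Pent.spec {ψ : T K} {n : ℕ} (hn : 3 ≤ n) (hψ : ψ ∈ HT K n) (h : Pent ψ) : Spec ψ := by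
  have an := h.anti (by omega) hψ
  set η := ⁅Y K, ψ⁆ + ⁅-X K - Y K, ev (X K) (-X K - Y K) ψ⁆ with hη
  have e : ∀ (A : Type) [Ring A] [Algebra K A] (a b : A),
      ev a b η = ⁅b, ev a b ψ⁆ + ⁅-a - b, ev a (-a - b) ψ⁆ := fun A _ _ a b => by
    simp [hη, map_ev, map_br]
  have sy : ∀ (A : Type) [Ring A] [Algebra K A] (a b : A), ev b a η = ev a b η := fun A _ _ a b => by
    rw [e, e, an A a b, an A (-a - b) a, show -b - a = -a - b by abel,
      eq_neg_of_add_eq_zero_right (h.cyc hn hψ A a b)]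
    simp only [Ring.lie_def]
    noncomm_ring
  have : η = 0 := func_symm (n := 1 + n) (by omega)
    (add_mem (HT_br Y_mem hψ) (HT_br neg_mem1 (ev_mem_HT X_mem neg_mem1 hψ))) sy
    fun A _ _ a b c d e' => by
      have := of_fam η ![1, -1, -1, 0] (fun A _ _ t ht => by
        obtain ⟨V, τ, -, -, hs, hV⟩ := exists_tau hn hψ h ht
        have h1 := (hV 1 0 2 3 4 (by unfold D5; decide)).2.2.2.2.2
        have h2 := (hV 3 0 4 1 2 (by unfold D5; decide)).2.2.2.2.2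
        have h3 := (hV 4 0 1 2 3 (by unfold D5; decide)).2.2.2.2.2
        have h4 := (hV 2 0 3 1 4 (by unfold D5; decide)).2.2.2.2.2
        rw [← e] at h1 h2 h3 h4
        rw [ht.symm 1 0, hs 1 0] at h1
        rw [ht.symm 3 0, hs 3 0] at h2
        rw [ht.symm 4 0, hs 4 0, hs 4 1] at h3
        rw [ht.symm 2 0, hs 2 0] at h4
        simp only [Matrix.cons_val_zero, Matrix.cons_val_one, Matrix.cons_val, one_smul, neg_smul]
        linear_combination (norm := abel) -h1 - h2 + h3 + h4) a b c d e'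
      simp only [Matrix.cons_val_zero, Matrix.cons_val_one, Matrix.cons_val, one_smul,
        neg_smul] at this
      rw [sy A d a, sy A b c]
      linear_combination (norm := abel) this
  intro A _ _ a b
  rw [← e, this, map_zero]

theorem exists_vert {ψ : T K} {n : ℕ} (hn : 3 ≤ n) (hψ : ψ ∈ HT K n) (h : Pent ψ)
    {t : Fin 5 → Fin 5 → A} (ht : Fam5 t) :
    ∃ (τ : Fin 5 → Fin 5 → A) (u0 u1 u2 u3 u4 : A), Vert ψ t τ u0 u1 u2 u3 u4 := by
  obtain ⟨V, τ, hJ, h0, hs, hV⟩ := exists_tau hn hψ h ht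
  have sw := fun i j k l m hd => (hV i j k l m hd).2.2.1
  have ed := fun i j k l m hd => (hV i j k l m hd).2.2.2.1
  have ta := fun i j k l m hd => (hV i j k l m hd).2.2.2.2.1
  have tr := fun i j k l m hd => (hV i j k l m hd).2.2.2.2.2.trans (h.spec hn hψ A _ _)
  have d1 : D5 0 1 3 4 2 := by unfold D5; decide
  have d2 : D5 1 2 3 4 0 := by unfold D5; decide
  have d3 : D5 4 0 1 2 3 := by unfold D5; decide
  have d4 : D5 2 3 4 0 1 := by unfold D5; decide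
  have d5 : D5 0 1 2 3 4 := by unfold D5; decide
  have sp : ∀ {i j k l m}, D5 i j k l m → D5 k l i j m := fun hd => d5_rot3 (d5_rot (d5_rot hd))
  have ex : ∀ i j : Fin 5, i ≠ j → ∃ k l m, D5 i j k l m := by unfold D5; decide
  refine ⟨τ, V 0 1 3 4 2, V 1 2 3 4 0, V 4 0 1 2 3, V 2 3 4 0 1, V 0 1 2 3 4,
    ⟨fun i j => by rw [ht.symm i j, hs i j], fun i => by rw [ht.diag, h0, du_zero], fun i => ?_,
      fun i j k l h1 h2 h3 h4 => ?_⟩, ed _ _ _ _ _ d1, sw _ _ _ _ _ d2 ▸ ed _ _ _ _ _ (sp d2),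
    sw _ _ _ _ _ d3 ▸ ed _ _ _ _ _ (sp d3), sw _ _ _ _ _ d4 ▸ ed _ _ _ _ _ (sp d4),
    sw _ _ _ _ _ d1 ▸ sw _ _ _ _ _ d5 ▸ ed _ _ _ _ _ (sp d5), ta _ _ _ _ _ d1, ta _ _ _ _ _ d2,
    sw _ _ _ _ _ d2 ▸ ta _ _ _ _ _ (sp d2), ta _ _ _ _ _ d3, sw _ _ _ _ _ d3 ▸ ta _ _ _ _ _ (sp d3),
    ta _ _ _ _ _ d4, sw _ _ _ _ _ d4 ▸ ta _ _ _ _ _ (sp d4), ta _ _ _ _ _ d5,
    sw _ _ _ _ _ d5 ▸ ta _ _ _ _ _ (sp d5), sw _ _ _ _ _ d1 ▸ ta _ _ _ _ _ (sp d1),
    fun J h => ⟨hJ J h _ _ _ _ _, fun i j => ?_⟩⟩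
  · obtain ⟨j, hj⟩ := exists_ne i
    obtain ⟨k, l, m, hd⟩ := ex i j hj.symm
    have h1 := tr _ _ _ _ _ (d5_swap hd)
    have h2 := tr l i m j k (by
      obtain ⟨h1, h2, h3, h4, h5, h6, h7, h8, h9, h10⟩ := hd
      exact ⟨h3.symm, h10, h6.symm, h8.symm, h4, h1, h2, h7.symm, h9.symm, h5⟩)
    rw [sum5 hd]
    simp only [du_add]
    rw [ht.diag, h0, zero_add, zero_add, ht.row hd, ← du_zero, du_inj]
    rw [hs j i] at h1
    rw [hs l i] at h2
    exact ⟨rfl, by linear_combination (norm := abel) h1 + h2⟩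
  · rcases eq_or_ne i j with rfl | h5
    · rw [ht.diag, h0, du_zero]; exact Commute.zero_left _
    rcases eq_or_ne k l with rfl | h6
    · rw [ht.diag, h0, du_zero]; exact Commute.zero_right _
    obtain ⟨m, hd⟩ : ∃ m, D5 i j k l m := by
      revert i j k l; unfold D5; decide
    have c := (ht.comm i j k l h1 h2 h3 h4).eq
    rw [Commute, SemiconjBy, du_mul, du_mul, du_inj, ta _ _ _ _ _ hd, ta _ _ _ _ _ (sp hd),
      sw _ _ _ _ _ hd]
    refine ⟨c, ?_⟩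
    simp only [Ring.lie_def]
    linear_combination (norm := noncomm_ring) c * V i j k l m - V i j k l m * c
  · rcases eq_or_ne i j with rfl | h5
    · exact ⟨0, zero_mem _, by simp [h0, Ring.lie_def]⟩
    · obtain ⟨k, l, m, hd⟩ := ex i j h5
      exact ⟨_, hJ J h _ _ _ _ _, ta _ _ _ _ _ hd⟩

/-- closure under the Ihara bracket -/
theorem Pent.ih {ψ φ : T K} {m n : ℕ} (hm : 3 ≤ m) (hn : 3 ≤ n) (hψ : ψ ∈ HT K m)
    (hφ : φ ∈ HT K n) (h : Pent ψ) (h' : Pent φ) : Pent (ih ψ φ) := by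
  intro A _ _ t ht
  obtain ⟨τ, u0, u1, u2, u3, u4, u⟩ := exists_vert hm hψ h ht
  obtain ⟨τ', v0, v1, v2, v3, v4, v⟩ := exists_vert hn hφ h' ht
  have h1 := vert_sum u h'
  have h2 := vert_sum v h
  simp only [P029.ih, map_add, map_sub, map_br]
  rw [← u.e1, ← u.e2, ← u.e3, ← u.e4, ← u.e0] at h2 ⊢
  rw [← v.e1, ← v.e2, ← v.e3, ← v.e4, ← v.e0] at h1 ⊢
  simp only [Ring.lie_def] at h1 h2 ⊢
  linear_combination (norm := noncomm_ring) h1 - h2

end Vale.Agent.P029
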