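import Vale.Agent.P029.Univ
import Vale.Agent.P029.KeyB

/-! The flow of a solution of the linear equations preserves truncated associators. -/

noncomputable section

namespace Vale.Agent.P029

variable {K : Type} [Field K] [CharZero K] {N m : ℕ} {Φ ψ : T K}

namespace FlowAux

theorem br_mem {A : Type} [Ring A] [Algebra K A] {V : Submodule K A}
    (hV : Algebra.adjoin K (V : Set A) = ⊤) {a w : A} (ha : a ∈ V) (hw : w ∈ Fl V 1) :
    ⁅a, w⁆ ∈ Fl V 2 := by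
  have h : a ∈ Fl V 1 := pow_le_Fl V 1 (by rwa [pow_one])
  rw [Ring.lie_def]
  have h1 : a * w ∈ Fl V (1 + 1) := Fl_mul hV h hw
  have h2 : w * a ∈ Fl V (1 + 1) := Fl_mul hV hw h
  rw [one_add_one_eq_two] at h1 h2
  exact sub_mem h1 h2

theorem ev_mem {A : Type} [Ring A] [Algebra K A] {V : Submodule K A} (hm : 1 ≤ m)
    (hψ : ψ ∈ HT K m) {a b : A} (ha : a ∈ V) (hb : b ∈ V) : ev a b ψ ∈ Fl V 1 :=
  Fl_anti V hm (pow_le_Fl V m (ev_mem_pow ha hb (HT_le_pow m hψ)))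

/-- the relations for two commuting pairs -/
def r4 (p : FreeAlgebra K (Fin 4)) : Prop :=
  ∃ i j : Fin 4, (i = 0 ∨ i = 1) ∧ (j = 2 ∨ j = 3) ∧ p = ⁅FreeAlgebra.ι K i, FreeAlgebra.ι K j⁆

theorem r4_iff {A : Type} [Ring A] [Algebra K A] {f : Fin 4 → A} :
    (∀ p, r4 p → FreeAlgebra.lift K f p = 0) ↔
      ∀ i j, (i = 0 ∨ i = 1) → (j = 2 ∨ j = 3) → Commute (f i) (f j) := by
  have e : ∀ i j, FreeAlgebra.lift K f ⁅FreeAlgebra.ι K i, FreeAlgebra.ι K j⁆ = 0 ↔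
      Commute (f i) (f j) := fun i j => by
    rw [map_br, FreeAlgebra.lift_ι_apply, FreeAlgebra.lift_ι_apply, Ring.lie_def, sub_eq_zero]
    rfl
  refine ⟨fun h i j hi hj => (e i j).1 (h _ ⟨i, j, hi, hj, rfl⟩), ?_⟩
  rintro h _ ⟨i, j, hi, hj, rfl⟩
  exact (e i j).2 (h i j hi hj)

/-- the relations of the infinitesimal braids on the sphere -/
def r5 (p : FreeAlgebra K (Fin 5 × Fin 5)) : Prop :=
  (∃ i j, p = FreeAlgebra.ι K (i, j) - FreeAlgebra.ι K (j, i)) ∨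
    (∃ i, p = FreeAlgebra.ι K (i, i)) ∨ (∃ i, p = ∑ j, FreeAlgebra.ι K (i, j)) ∨
    ∃ i j k l, i ≠ k ∧ i ≠ l ∧ j ≠ k ∧ j ≠ l ∧
      p = ⁅FreeAlgebra.ι K (i, j), FreeAlgebra.ι K (k, l)⁆

theorem r5_iff {A : Type} [Ring A] [Algebra K A] {f : Fin 5 × Fin 5 → A} :
    (∀ p, r5 p → FreeAlgebra.lift K f p = 0) ↔ Fam5 fun i j => f (i, j) := by
  have e : ∀ i j, FreeAlgebra.lift K f ⁅FreeAlgebra.ι K i, FreeAlgebra.ι K j⁆ = 0 ↔
      Commute (f i) (f j) := fun i j => by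
    rw [map_br, FreeAlgebra.lift_ι_apply, FreeAlgebra.lift_ι_apply, Ring.lie_def, sub_eq_zero]
    rfl
  constructor
  · intro h
    refine ⟨fun i j => ?_, fun i => ?_, fun i => ?_, fun i j k l h1 h2 h3 h4 => ?_⟩
    · simpa [sub_eq_zero] using h _ (Or.inl ⟨i, j, rfl⟩)
    · simpa using h _ (Or.inr (Or.inl ⟨i, rfl⟩))
    · simpa using h _ (Or.inr (Or.inr (Or.inl ⟨i, rfl⟩)))
    · exact (e _ _).1 (h _ (Or.inr (Or.inr (Or.inr ⟨i, j, k, l, h1, h2, h3, h4, rfl⟩))))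
  · rintro h _ (⟨i, j, rfl⟩ | ⟨i, rfl⟩ | ⟨i, rfl⟩ | ⟨i, j, k, l, h1, h2, h3, h4, rfl⟩)
    · simpa [sub_eq_zero] using h.symm i j
    · simpa using h.diag i
    · simpa using h.sum i
    · exact (e _ _).2 (h.comm i j k l h1 h2 h3 h4)

theorem commute_du {A : Type} [Ring A] {a a' b b' : A} (h : Commute a b) (h1 : Commute a' b)
    (h2 : Commute a b') : Commute (du a a') (du b b') := by
  show _ * _ = _ * _
  rw [du_mul, du_mul, h.eq, h1.eq, h2.eq, add_comm]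

theorem commute_br {A : Type} [Ring A] {a b c : A} (h : Commute c a) (h' : Commute c b) :
    Commute c ⁅a, b⁆ := (h.mul_right h').sub_right (h'.mul_right h)

theorem br_add {A : Type} [Ring A] {a b c : A} (h : Commute a b) : ⁅a, b + c⁆ = ⁅a, c⁆ := by
  simp only [Ring.lie_def, mul_add, add_mul, h.eq]
  abel

end FlowAux

open FlowAux

theorem Grp.flow (hm : 1 ≤ m) (hψ : ψ ∈ HT K m) (h : Grp N Φ) : Grp N (ex N (act ψ) Φ) := by
  intro A _ _ a1 b1 a2 b2 c1 c2 c3 c4 hA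
  obtain ⟨F, hF⟩ := UN_lift (r := r4) (N := N) ![a1, b1, a2, b2] (r4_iff.2 (by
    rintro _ _ (rfl | rfl) (rfl | rfl) <;> assumption)) (hA.mono le_rfl (by
    rintro _ ⟨i, rfl⟩
    refine Submodule.subset_span ?_
    fin_cases i <;> simp))
  have hc := r4_iff.1 fun p => UN_rel (K := K) (r := r4) (N := N) (p := p)
  have hV := UN_gen (K := K) (r := r4) (N := N)
  have hN := UN_nil (K := K) (r := r4) (N := N)
  have hder := UN_der (K := K) (r := r4) (N := N)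
  set g := gen (K := K) r4 N
  have hg : ∀ i, g i ∈ Submodule.span K (Set.range g) := fun i => Submodule.subset_span ⟨i, rfl⟩
  have c02 := hc 0 2 (by simp) (by simp)
  have c03 := hc 0 3 (by simp) (by simp)
  have c12 := hc 1 2 (by simp) (by simp)
  have c13 := hc 1 3 (by simp) (by simp)
  have m1 := ev_mem hm hψ (hg 0) (hg 1)
  have m2 := ev_mem hm hψ (hg 2) (hg 3)
  have e12 := ev_add_of_HT c02 c03 c12 c13 hψ
  have p2 := commute_ev c02.symm c12.symm ψ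
  have p3 := commute_ev c03.symm c13.symm ψ
  have p0 := commute_ev c02 c03 ψ
  have p1 := commute_ev c12 c13 ψ
  set ψ1 := ev (g 0) (g 1) ψ
  set ψ2 := ev (g 2) (g 3) ψ
  obtain ⟨d, hd, hi, hr⟩ := hder ![0, ⁅g 1, ψ1⁆, 0, ⁅g 3, ψ2⁆] (fun i => by
    fin_cases i
    exacts [zero_mem _, br_mem hV (hg 1) m1, zero_mem _, br_mem hV (hg 3) m2]) (r4_iff.2 (by
    rintro _ _ (rfl | rfl) (rfl | rfl)
    · exact commute_du c02 (Commute.zero_left _) (Commute.zero_right _)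
    · exact commute_du c03 (Commute.zero_left _) (commute_br c03 p0)
    · exact commute_du c12 (commute_br c12.symm p2).symm (Commute.zero_right _)
    · exact commute_du c13 (commute_br c13.symm p3).symm (commute_br c13 p1)))
  have d0 : d (g 0) = 0 := hi 0
  have d1 : d (g 1) = ⁅g 1, ψ1⁆ := hi 1
  have d2 : d (g 2) = 0 := hi 2
  have d3 : d (g 3) = ⁅g 3, ψ2⁆ := hi 3
  have hp := fun {u u'} => tw_pow_eq_zero hV (Fl_eq_bot hN) hr (u := u) (u' := u')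
  have key : ev (g 0 + g 2) (g 1 + g 3) (ex N (act ψ) Φ) =
      ev (g 2) (g 3) (ex N (act ψ) Φ) * ev (g 0) (g 1) (ex N (act ψ) Φ) := by
    rw [ev_ex hd (u := 0) (u' := ψ1 + ψ2) _ _ (by rw [sub_zero, e12]),
      ev_ex hd (u := ψ1) (u' := ψ1 + ψ2) _ _ (add_sub_cancel_left _ _),
      ev_ex hd (u := 0) (u' := ψ1) _ d1 (sub_zero _),
      h _ _ _ _ _ c02 c03 c12 c13 (hN.mono le_rfl (by rintro _ (rfl | rfl | rfl | rfl) <;> apply hg)),
      ex_mul hd (hp (zero_mem _) m1) (hp m1 (add_mem m1 m2)) (hp (zero_mem _) (add_mem m1 m2))]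
    · simp [d0, Ring.lie_def]
    · rw [d2, Ring.lie_def, p2.eq, sub_self]
    · rw [d3, br_add p3]
    · simp [d0, d2, Ring.lie_def]
    · simp only [map_add, d1, d3, Ring.lie_def, mul_add, add_mul, p1.eq, p3.eq]
      abel
  have := congrArg F key
  simpa only [map_mul, map_ev, map_add, hF, Matrix.cons_val] using this

theorem GPent.flow (hm : 3 ≤ m) (hψ : ψ ∈ HT K m) (hP : Pent ψ) (h : GPent N Φ) :
    GPent N (ex N (act ψ) Φ) := by
  intro A _ _ s hs hA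
  obtain ⟨F, hF⟩ := UN_lift (r := r5) (N := N) (fun p => s p.1 p.2) (r5_iff.2 hs) hA
  have ht := r5_iff.1 fun p => UN_rel (K := K) (r := r5) (N := N) (p := p)
  have hV := UN_gen (K := K) (r := r5) (N := N)
  have hN := UN_nil (K := K) (r := r5) (N := N)
  have hder := UN_der (K := K) (r := r5) (N := N)
  set g := gen (K := K) r5 N
  have hg : ∀ i, g i ∈ Submodule.span K (Set.range g) := fun i => Submodule.subset_span ⟨i, rfl⟩
  obtain ⟨τ, u0, u1, u2, u3, u4, hv⟩ := exists_vert hm hψ hP ht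
  have he : ∀ i j, ev (g i) (g j) ψ ∈ Fl (Submodule.span K (Set.range g)) 1 := fun i j =>
    ev_mem (by omega) hψ (hg i) (hg j)
  obtain ⟨m0, hτ⟩ := hv.mem _ fun i j l => he (i, j) (j, l)
  have m1 := add_mem (hv.e1 ▸ he (0, 1) (1, 2)) m0
  rw [sub_add_cancel] at m1
  have m2 := add_mem (hv.e2 ▸ he (3, 4) (4, 0)) m1
  rw [sub_add_cancel] at m2
  have m3 := add_mem (hv.e3 ▸ he (1, 2) (2, 3)) m2
  rw [sub_add_cancel] at m3
  have m4 := add_mem (hv.e4 ▸ he (4, 0) (0, 1)) m3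
  rw [sub_add_cancel] at m4
  obtain ⟨d, hd, hi, hr⟩ := hder (fun p => τ p.1 p.2) (fun p => by
    obtain ⟨w, hw, e⟩ := hτ p.1 p.2
    rw [e]
    exact br_mem hV (hg p) hw) (r5_iff.2 hv.fam)
  have hp := fun {u u'} => tw_pow_eq_zero hV (Fl_eq_bot hN) hr (u := u) (u' := u')
  have key : ev (g (2, 3)) (g (3, 4)) (ex N (act ψ) Φ) * ev (g (4, 0)) (g (0, 1)) (ex N (act ψ) Φ) *
      ev (g (1, 2)) (g (2, 3)) (ex N (act ψ) Φ) * ev (g (3, 4)) (g (4, 0)) (ex N (act ψ) Φ) *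
      ev (g (0, 1)) (g (1, 2)) (ex N (act ψ) Φ) = 1 := by
    rw [ev_ex hd ((hi _).trans hv.a0) ((hi _).trans hv.b0) hv.e0,
      ev_ex hd ((hi _).trans hv.a4) ((hi _).trans hv.b4) hv.e4,
      ev_ex hd ((hi _).trans hv.a3) ((hi _).trans hv.b3) hv.e3,
      ev_ex hd ((hi _).trans hv.a2) ((hi _).trans hv.b2) hv.e2,
      ev_ex hd ((hi _).trans hv.a1) ((hi _).trans hv.b1) hv.e1,
      ← ex_mul hd (hp m3 m4) (hp m4 m0) (hp m3 m0), ← ex_mul hd (hp m2 m3) (hp m3 m0) (hp m2 m0),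
      ← ex_mul hd (hp m1 m2) (hp m2 m0) (hp m1 m0), ← ex_mul hd (hp m0 m1) (hp m1 m0) (hp m0 m0),
      h _ _ ht hN, ex_one hd]
  have := congrArg F key
  simpa only [map_mul, map_ev, map_one, hF] using this

theorem Good.flow (hm : 3 ≤ m) (hN : m < N) (hψ : ψ ∈ HT K m) (hP : Pent ψ) (h : Good N Φ) :
    ∃ Φ' : T K, Good N Φ' ∧ Φ' - Φ - ψ ∈ Fl (VT K) (m + 1) ∧ lam N Φ' = lam N Φ := by
  have hψ' : ψ ∈ Fl (VT K) m := pow_le_Fl _ m (HT_le_pow m hψ)
  have h0 : ∀ x : T K, act ψ x ∈ Fl (VT K) m := fun x => by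
    have := act_mem_Fl hψ' (n := 0) (m := x) (by rw [Fl_zero]; trivial)
    rwa [zero_add] at this
  obtain ⟨S, hS, e⟩ : ∃ S : T K, S - 1 ∈ Fl (VT K) 1 ∧ ex N (act ψ) Φ = act ψ S + Φ := by
    refine ⟨∑ i ∈ Finset.range N, (((i + 1).factorial : K)⁻¹) • (act ψ ^ i) Φ, ?_, ?_⟩
    · obtain ⟨N, rfl⟩ : ∃ N', N = N' + 1 := ⟨N - 1, by omega⟩
      rw [Finset.sum_range_succ', add_sub_assoc]
      refine add_mem (Submodule.sum_mem _ fun i _ => Submodule.smul_mem _ _ ?_) ?_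
      · rw [pow_succ']
        exact Fl_anti _ (by omega) (h0 _)
      · simpa using Fl_anti _ (by omega) h.1
    · rw [ex, Finset.sum_range_succ', map_sum]
      simp [pow_succ']
  have h1 : ex N (act ψ) Φ - Φ - ψ ∈ Fl (VT K) (m + 1) := by
    have := act_mem_Fl hψ' hS
    rw [map_sub, act_one, add_comm] at this
    rwa [e, add_sub_cancel_right]
  refine ⟨_, ⟨?_, h.2.1.flow (by omega) hψ, h.2.2.flow hm hψ hP⟩, h1, ?_⟩
  · have := add_mem (add_mem (Fl_anti _ (show 2 ≤ m + 1 by omega) h1)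
      (Fl_anti _ (show 2 ≤ m by omega) hψ')) h.1
    have e' : ex N (act ψ) Φ - Φ - ψ + ψ + (Φ - 1) = ex N (act ψ) Φ - 1 := by abel
    rwa [e'] at this
  · rw [e, lam_add, lam_act hψ (by omega) hN.ne, zero_add]

end Vale.Agent.P029
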