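import Vale.Agent.P029.Basic

/-! Two functional equations for Lie polynomials. -/

noncomputable section

namespace Vale.Agent.P029

variable {K : Type} [Field K] [CharZero K]

namespace FuncAux

variable {k : Type} [CommRing k] {A : Type} [Ring A] [Algebra k A]

/-- the adjoint operator -/
def ad (k : Type) [CommRing k] {A : Type} [Ring A] [Algebra k A] (d : A) : Module.End k A :=
  LinearMap.mulLeft k d - LinearMap.mulRight k d

theorem ad_pow (d a : A) (j : ℕ) : (fun z => ⁅d, z⁆)^[j] a = (ad k d ^ j) a := by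
  rw [Module.End.pow_apply]; rfl

theorem ad_succ (d a : A) (j : ℕ) : (ad k d ^ (j + 1)) a = d * (ad k d ^ j) a - (ad k d ^ j) a * d := by
  rw [pow_succ']; rfl

theorem ad_self (d : A) {j : ℕ} (hj : 1 ≤ j) : (ad k d ^ j) d = 0 := by
  obtain ⟨j, rfl⟩ := Nat.exists_eq_add_of_le' hj
  rw [pow_succ, Module.End.mul_apply, show ad k d d = 0 from sub_self _, map_zero]

theorem mon_lin {n : ℕ} {m : T k} (h : Mon (FreeAlgebra.ι k) (fun _ : Fin 2 => 1) n m) :
    ∃ c μ : k, (2 ≤ n → μ = 0) ∧ ∀ (A : Type) [Ring A] [Algebra k A] (d a : A),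
      ev 0 d m = μ • d ∧ dv 0 d a 0 m = c • (ad k d ^ (n - 1)) a := by
  induction h with
  | of i =>
    fin_cases i
    · exact ⟨1, 0, by simp, fun A _ _ d a => ⟨(ev_X _ _).trans (by simp), (dv_X ..).trans (by simp)⟩⟩
    · exact ⟨0, 1, by simp, fun A _ _ d a => ⟨(ev_Y _ _).trans (by simp), (dv_Y ..).trans (by simp)⟩⟩
  | @br i j p q hp hq ih1 ih2 =>
    obtain ⟨c, μ, h1, h2⟩ := ih1
    obtain ⟨c', μ', h1', h2'⟩ := ih2
    obtain ⟨i, rfl⟩ := Nat.exists_eq_add_of_le' (hp.pos fun _ => le_rfl)
    obtain ⟨j, rfl⟩ := Nat.exists_eq_add_of_le' (hq.pos fun _ => le_rfl)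
    refine ⟨μ * c' - c * μ', 0, fun _ => rfl, fun A _ _ d a => ⟨?_, ?_⟩⟩
    · rw [map_br, (h2 A d a).1, (h2' A d a).1, Ring.lie_def]
      simp [smul_smul, mul_comm]
    · have e1 : μ' • (ad k d ^ (i + 1)) a = μ' • (ad k d ^ (i + 1 + (j + 1) - 1)) a := by
        rcases j with _ | j
        · rfl
        · simp [h1' (by omega)]
      have e2 : μ • (ad k d ^ (j + 1)) a = μ • (ad k d ^ (i + 1 + (j + 1) - 1)) a := by
        rcases i with _ | i
        · rw [show 0 + 1 + (j + 1) - 1 = j + 1 by omega]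
        · simp [h1 (by omega)]
      rw [(dv_der 0 d a 0).br, (h2 A d a).1, (h2' A d a).1, (h2 A d a).2, (h2' A d a).2, sub_smul,
        mul_comm μ, mul_smul, mul_smul, ← e1, ← e2, ad_succ, ad_succ]
      simp only [Ring.lie_def, Nat.add_sub_cancel, smul_mul_assoc, mul_smul_comm]
      module

theorem dv_zero (a b : A) (m : T k) : dv a b 0 0 m = 0 := by
  simpa using dv_add a b 0 0 0 0 m

theorem dv_left {n : ℕ} (hn : 2 ≤ n) {η : T k} (hη : η ∈ HT k n) (d a : A) : dv 0 d 0 a η = 0 := by
  have := ev_du 0 d 0 a η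
  rw [du_zero, ev_eq_zero_of_commute (Commute.zero_left _) hn hη, ← du_zero, du_inj] at this
  exact this.2.symm

theorem dv_split (a b a' b' : A) (m : T k) : dv a b a' b' m = dv a b a' 0 m + dv a b 0 b' m := by
  rw [← dv_add, add_zero, zero_add]

theorem snd_ev (a b a' b' : A) (m : T k) :
    (ev (du a a') (du b b') m).snd = dv a b a' b' m := by rw [ev_du, snd_du]

end FuncAux

open FuncAux TrivSqZeroExt

theorem exists_lin {k : Type} [CommRing k] {n : ℕ} (hn : 2 ≤ n) {η : T k} (hη : η ∈ HT k n) :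
    ∃ c : k, ∀ (A : Type) [Ring A] [Algebra k A] (d a : A),
      dv 0 d a 0 η = c • (fun z => ⁅d, z⁆)^[n - 1] a := by
  simp only [ad_pow (k := k)]
  induction hη using Submodule.span_induction with
  | mem m hm =>
    obtain ⟨c, μ, -, h⟩ := mon_lin hm
    exact ⟨c, fun A _ _ d a => (h A d a).2⟩
  | zero => exact ⟨0, fun A _ _ d a => by simp⟩
  | add x y _ _ hx hy =>
    obtain ⟨c, h⟩ := hx
    obtain ⟨c', h'⟩ := hy
    exact ⟨c + c', fun A _ _ d a => by rw [map_add, h, h', add_smul]⟩
  | smul r x _ hx =>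
    obtain ⟨c, h⟩ := hx
    exact ⟨r * c, fun A _ _ d a => by rw [map_smul, h, mul_smul]⟩

theorem func_anti {n : ℕ} (hn : 3 ≤ n) {η : T K} (hη : η ∈ HT K n) (hA : Anti η)
    (h : ∀ (A : Type) [Ring A] [Algebra K A] (a b c d : A), a + b + c + d = 0 →
      ev a b η + ev c d η = ev d a η + ev b c η) : η = 0 := by
  obtain ⟨l, hl⟩ := exists_lin (by omega) hη
  simp only [ad_pow (k := K)] at hl
  have an : ∀ (A : Type) [Ring A] [Algebra K A] (a b a' b' : A),
      dv b a b' a' η = -dv a b a' b' η := fun A _ _ a b a' b' => by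
    simpa only [snd_ev, snd_neg] using congrArg snd (hA _ (du a a') (du b b'))
  have F1 : ∀ (A : Type) [Ring A] [Algebra K A] (a b c d : A), b + c + d = 0 →
      dv d b a 0 η = -(l • (ad K d ^ (n - 1)) a + l • (ad K c ^ (n - 1)) a) :=
    fun A _ _ a b c d e => by
      have := congrArg snd (h _ (du b 0) (du c 0) (du 0 a) (du d (-a)) (by
        simp only [du_add, add_zero, zero_add, add_neg_cancel, e, du_zero]))
      simp only [snd_add, snd_ev, dv_zero] at this
      rw [dv_split 0 d, dv_left (by omega) hη, an A 0 c a 0, hl, hl, ← neg_zero (G := A), dv_neg,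
        neg_zero] at this
      linear_combination (norm := abel) this
  have F3 : ∀ (A : Type) [Ring A] [Algebra K A] (b c d : A), b + c + d = 0 →
      (n : K) • ev d b η = (2 * l) • (ad K c ^ (n - 1)) b := fun A _ _ b c d e => by
    rw [← dv_euler d b (HT_le_pow n hη), dv_split, an A b d b 0, F1 A d b c d e,
      F1 A b d c b (by rw [← e]; abel), ad_self d (by omega), ad_self b (by omega),
      show d = -b - c by rw [← sub_eq_zero, ← e]; abel, map_sub, map_neg, ad_self c (by omega)]
    module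
  have l0 : l = 0 := by
    let a : Matrix (Fin 2) (Fin 2) K := !![0, 1; 0, 0]
    let b : Matrix (Fin 2) (Fin 2) K := !![1, 0; 0, 0]
    have e1 : b * a = a := by ext i j; fin_cases i <;> fin_cases j <;> simp [a, b]
    have e2 : a * b = 0 := by ext i j; fin_cases i <;> fin_cases j <;> simp [a, b]
    have k1 : ∀ j, (ad K b ^ j) a = a := fun j => by
      induction j with
      | zero => rfl
      | succ j ih => rw [ad_succ, ih, e1, e2, sub_zero]
    have k2 : ∀ j, (ad K (du (-b) (-a)) ^ (j + 1)) (du b 0) = du 0 ((-1 : K) ^ j • a) := fun j => by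
      induction j with
      | zero => simp [ad, du_mul, sub_eq_add_neg, du_neg, du_add, e1, e2]
      | succ j ih =>
        rw [ad_succ, ih]
        simp [du_mul, sub_eq_add_neg, du_neg, du_add, e1, e2, pow_succ]
    have := congrArg snd (F3 _ (du b 0) (du (-b) (-a)) (du 0 a) (by simp [du_add, du_zero]))
    obtain ⟨j, rfl⟩ := Nat.exists_eq_add_of_le' hn
    rw [show j + 3 - 1 = j + 1 + 1 from rfl, k2, snd_smul, snd_smul, snd_ev, snd_du, hl, k1] at this
    have := congrFun (congrFun this 0) 1
    simp only [a, Matrix.smul_apply, Matrix.of_apply, Matrix.cons_val', Matrix.cons_val_one,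
      Matrix.cons_val_zero, smul_eq_mul, mul_one] at this
    by_contra l0
    have e3 : ((j + 3 : ℕ) : K) = 2 * (-1) ^ (j + 1) :=
      mul_right_cancel₀ l0 (by linear_combination this)
    rcases neg_one_pow_eq_or K (j + 1) with e | e <;> rw [e] at e3
    · exact Nat.cast_add_one_ne_zero (R := K) j (by push_cast at e3; linear_combination e3)
    · exact Nat.cast_add_one_ne_zero (R := K) (j + 4) (by push_cast at e3 ⊢; linear_combination e3)
  have := F3 _ (Y K) (-Y K - X K) (X K) (by abel)
  rw [ev_self, l0, mul_zero, zero_smul] at this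
  exact (smul_eq_zero.1 this).resolve_left (by exact_mod_cast (by omega))

theorem func_symm {n : ℕ} (hn : 2 ≤ n) {η : T K} (hη : η ∈ HT K n)
    (hS : ∀ (A : Type) [Ring A] [Algebra K A] (a b : A), ev b a η = ev a b η)
    (h : ∀ (A : Type) [Ring A] [Algebra K A] (a b c d : A), a + b + c + d = 0 →
      ev c d η - ev a d η + ev a b η - ev c b η = 0) : η = 0 := by
  obtain ⟨l, hl⟩ := exists_lin hn hη
  simp only [ad_pow (k := K)] at hl
  have F1 : ∀ (A : Type) [Ring A] [Algebra K A] (a b c d : A), a + b + d = 0 →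
      dv a b 0 c η = l • (ad K d ^ (n - 1)) c - l • (ad K b ^ (n - 1)) c :=
    fun A _ _ a b c d e => by
      have := congrArg snd (h _ (du a 0) (du b (-c)) (du 0 c) (du d 0) (by
        simp only [du_add, add_zero, zero_add, neg_add_cancel, e, du_zero]))
      simp only [snd_add, snd_sub, snd_ev, dv_zero, snd_zero] at this
      rw [dv_split 0 b, dv_left hn hη, hl, hl, ← neg_zero (G := A), dv_neg, neg_zero] at this
      linear_combination (norm := abel) -this
  have e := congrArg snd (hS _ (du (Y K) 0) (du (X K) (X K)))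
  simp only [snd_ev] at e
  have := dv_euler (X K) (Y K) (HT_le_pow n hη)
  rw [dv_split, e, F1 _ _ _ _ (-X K - Y K) (by abel), F1 _ _ _ _ (-X K - Y K) (by abel),
    ad_self (X K) (by omega), ad_self (Y K) (by omega), ev_self, smul_zero, sub_zero, sub_zero,
    ← smul_add, ← map_add, show X K + Y K = -(-X K - Y K) by abel, map_neg, ad_self _ (by omega),
    neg_zero, smul_zero] at this
  exact (smul_eq_zero.1 this.symm).resolve_left (by exact_mod_cast (by omega))

end Vale.Agent.P029
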