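import Vale.Agent.P029.Dyn
import Vale.Agent.P029.KeyB

/-! From the Lie algebra side to the associative side. -/

noncomputable section

namespace Vale.Agent.P029

attribute [local instance 100] LieRing.ofAssociativeRing

theorem jL_x : jL x = X ℚ := by
  exact FreeLieAlgebra.lift_of_apply _ _

theorem jL_y : jL y = Y ℚ := by
  exact FreeLieAlgebra.lift_of_apply _ _

theorem jL_injective : Function.Injective jL := by
  exact jG_injective

theorem jL_mem {n : ℕ} {ψ : L} (h : ψ ∈ Lw n) : jL ψ ∈ HT ℚ n := by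
  exact jG_mem h

theorem jL_surj {n : ℕ} {p : T ℚ} (h : p ∈ HT ℚ n) : ∃ ψ ∈ Lw n, jL ψ = p := by
  exact jG_surj h

theorem ev_jL {A : Type} [Ring A] [Algebra ℚ A] (a b : A) (ψ : L) :
    ev a b (jL ψ) = evL a b ψ := by
  exact lift_jG _ ψ

theorem map_evL {G G' : Type} [LieRing G] [LieAlgebra ℚ G] [LieRing G'] [LieAlgebra ℚ G']
    (f : G →ₗ⁅ℚ⁆ G') (a b : G) (ψ : L) : f (evL a b ψ) = evL (f a) (f b) ψ := by
  have e : f.comp (evL a b) = evL (f a) (f b) := by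
    refine FreeLieAlgebra.hom_ext fun i => ?_
    fin_cases i <;> simp [evL]
  exact DFunLike.congr_fun e ψ

/-- universal property of `t₄` -/
theorem T4_lift {G : Type} [LieRing G] [LieAlgebra ℚ G] (u : Fin 4 → Fin 4 → G)
    (h : ∀ r ∈ rel4, FreeLieAlgebra.lift ℚ (fun p : Fin 4 × Fin 4 => u p.1 p.2) r = 0) :
    ∃ f : T4 →ₗ⁅ℚ⁆ G, ∀ i j, f (t i j) = u i j := by
  let g : L4 →ₗ⁅ℚ⁆ G := FreeLieAlgebra.lift ℚ (fun p : Fin 4 × Fin 4 => u p.1 p.2)
  have hk : ideal4 ≤ g.ker := LieSubmodule.lieSpan_le.2 fun r hr => LieHom.mem_ker.2 (h r hr)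
  let f0 : T4 →ₗ[ℚ] G := Submodule.liftQ ideal4.toSubmodule g.toLinearMap fun a ha => hk ha
  have h0 : ∀ a : L4, f0 (LieSubmodule.Quotient.mk a) = g a := fun a => rfl
  refine ⟨{ f0 with map_lie' := ?_ }, fun i j => ?_⟩
  · intro a b
    obtain ⟨a, rfl⟩ := LieSubmodule.Quotient.surjective_mk' ideal4 a
    obtain ⟨b, rfl⟩ := LieSubmodule.Quotient.surjective_mk' ideal4 b
    exact (h0 ⁅a, b⁆).trans (g.map_lie a b)
  · exact (h0 _).trans (FreeLieAlgebra.lift_of_apply _ _)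

namespace IfaceAux

variable {G : Type} [LieRing G] [LieAlgebra ℚ G]

theorem evL_x (a b : G) : evL a b x = a := FreeLieAlgebra.lift_of_apply _ _

theorem evL_y (a b : G) : evL a b y = b := FreeLieAlgebra.lift_of_apply _ _

theorem mk_rel {r : L4} (h : r ∈ rel4) : (LieSubmodule.Quotient.mk r : T4) = 0 :=
  LieSubmodule.Quotient.mk_eq_zero'.2 (LieSubmodule.subset_lieSpan h)

theorem t_diag (i : Fin 4) : t i i = 0 := mk_rel (Or.inl ⟨i, rfl⟩)

theorem t_symm (i j : Fin 4) : t i j = t j i :=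
  sub_eq_zero.1 (mk_rel (Or.inr (Or.inl ⟨i, j, rfl⟩)))

theorem t_comm (i j k l : Fin 4) (h1 : i ≠ k) (h2 : i ≠ l) (h3 : j ≠ k) (h4 : j ≠ l) :
    ⁅t i j, t k l⁆ = 0 := by
  by_cases h5 : i = j
  · rw [h5, t_diag, zero_lie]
  by_cases h6 : k = l
  · rw [h6, t_diag, lie_zero]
  exact mk_rel (Or.inr (Or.inr (Or.inl ⟨i, j, k, l, h5, h1, h2, h3, h4, h6, rfl⟩)))

theorem t_tri (i j k : Fin 4) (h1 : i ≠ j) (h2 : i ≠ k) (h3 : j ≠ k) :
    ⁅t i j, t i k + t j k⁆ = 0 :=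
  mk_rel (Or.inr (Or.inr (Or.inr ⟨i, j, k, h1, h2, h3, rfl⟩)))

theorem lift4 (u : Fin 4 → Fin 4 → G) (h1 : ∀ i, u i i = 0) (h2 : ∀ i j, u i j = u j i)
    (h3 : ∀ i j k l, i ≠ k → i ≠ l → j ≠ k → j ≠ l → ⁅u i j, u k l⁆ = 0)
    (h4 : ∀ i j k, i ≠ j → i ≠ k → j ≠ k → ⁅u i j, u i k + u j k⁆ = 0) :
    ∃ f : T4 →ₗ⁅ℚ⁆ G, ∀ i j, f (t i j) = u i j := by
  have e : ∀ i j, FreeLieAlgebra.lift ℚ (fun p : Fin 4 × Fin 4 => u p.1 p.2) (s4 i j) = u i j :=
    fun i j => FreeLieAlgebra.lift_of_apply _ _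
  refine T4_lift u ?_
  rintro r (⟨i, rfl⟩ | ⟨i, j, rfl⟩ | ⟨i, j, k, l, -, a, b, c, d, -, rfl⟩ | ⟨i, j, k, a, b, c, rfl⟩)
  · rw [e, h1]
  · rw [map_sub, e, e, h2, sub_self]
  · rw [LieHom.map_lie, e, e, h3 i j k l a b c d]
  · rw [LieHom.map_lie, map_add, e, e, e, h4 i j k a b c]

theorem evL_scale (r : ℚ) (a b : G) (ψ : L) :
    evL a b (evL (r • x) (r • y) ψ) = evL (r • a) (r • b) ψ := by
  rw [map_evL, map_smul, map_smul, evL_x, evL_y]

theorem scale_mem (r : ℚ) {ψ : L} (h : ψ ∈ W) : evL (r • x) (r • y) ψ ∈ W := by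
  obtain ⟨h1, h2, h3⟩ := h
  refine ⟨?_, ?_, ?_⟩
  · have := congrArg (evL (r • x) (r • y)) h1
    rw [map_add, map_evL, evL_x, evL_y, map_zero] at this
    rwa [evL_scale]
  · have := congrArg (evL (r • x) (r • y)) h2
    simp only [map_add, map_evL, map_sub, map_neg, evL_x, evL_y, map_zero] at this
    simp only [evL_scale, smul_sub, smul_neg]
    exact this
  · obtain ⟨f, hf⟩ := lift4 (fun i j => r • t i j) (fun i => by rw [t_diag, smul_zero])
      (fun i j => by rw [t_symm])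
      (fun i j k l a b c d => by rw [smul_lie, lie_smul, t_comm i j k l a b c d, smul_zero,
        smul_zero])
      (fun i j k a b c => by rw [← smul_add, smul_lie, lie_smul, t_tri i j k a b c, smul_zero,
        smul_zero])
    have := congrArg f h3
    simp only [map_add, map_evL, hf] at this
    simp only [evL_scale, smul_add]
    exact this

theorem scale_of_mem (r : ℚ) {n : ℕ} {ψ : L} (h : ψ ∈ Lw n) :
    evL (r • x) (r • y) ψ = r ^ n • ψ := by
  have h1 := lift_smul_of_H (FreeLieAlgebra.of ℚ : Fin 2 → L) (fun _ => 1) r h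
  have e : FreeLieAlgebra.lift ℚ (FreeLieAlgebra.of ℚ : Fin 2 → L) = LieHom.id := by
    refine FreeLieAlgebra.hom_ext fun i => ?_
    simp
  have e2 : (fun i : Fin 2 => r ^ 1 • (FreeLieAlgebra.of ℚ i : L)) = ![r • x, r • y] := by
    funext i
    fin_cases i <;> simp [x, y]
  rw [e, e2] at h1
  exact h1

theorem commute_dyn {a b : G} (h : ⁅a, b⁆ = 0) : Commute (dyn 1 a) (dyn 1 b) := by
  have := dyn_br 1 1 a b
  rw [h, map_zero] at this
  exact sub_eq_zero.1 this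

theorem fam_dyn : Fam4 (fun i j => dyn 1 (t i j)) where
  symm i j := by rw [t_symm]
  diag i := by rw [t_diag, map_zero]
  comm i j k l a b c d := commute_dyn (t_comm i j k l a b c d)
  tri i j k a b c := by
    rw [← map_add]
    exact commute_dyn (t_tri i j k a b c)

theorem ev_dyn {n : ℕ} {ψ : L} (h : ψ ∈ Lw n) (a b : G) :
    dyn n (evL a b ψ) = ev (dyn 1 a) (dyn 1 b) (jL ψ) := by
  have h1 := lift_dyn ![a, b] h
  have e : (fun i => dyn 1 (![a, b] i)) = ![dyn 1 a, dyn 1 b] := by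
    funext i
    fin_cases i <;> rfl
  rw [e] at h1
  exact h1.symm

theorem fam_rat (a b : ℚ) :
    Fam4 (![![0, a, 0, 0], ![a, 0, 0, 0], ![0, 0, 0, b], ![0, 0, b, 0]] : Fin 4 → Fin 4 → ℚ) where
  symm i j := by fin_cases i <;> fin_cases j <;> rfl
  diag i := by fin_cases i <;> rfl
  comm _ _ _ _ _ _ _ _ := Commute.all _ _
  tri _ _ _ _ _ _ := Commute.all _ _

/-- the derivation as a linear function of the parameter -/
def DTl : T ℚ →ₗ[ℚ] Module.End ℚ (T ℚ) where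
  toFun := DT
  map_add' := DT_add
  map_smul' := DT_smul

theorem DT_range (ψ φ : L) : ∃ χ, jL χ = DT (jL ψ) (jL φ) := by
  obtain ⟨N, c, hc, rfl⟩ := exists_sum_H (fun _ => 1) ψ
  obtain ⟨M, d, hd, rfl⟩ := exists_sum_H (fun _ => 1) φ
  change DTl (jL _) (jL _) ∈ LinearMap.range jL.toLinearMap
  simp only [map_sum, LinearMap.sum_apply]
  refine Submodule.sum_mem _ fun i _ => Submodule.sum_mem _ fun j _ => ?_
  obtain ⟨χ, -, h⟩ := jL_surj (DT_mem (jL_mem (hc j)) (jL_mem (hd i)))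
  exact ⟨χ, h⟩

end IfaceAux

open IfaceAux

theorem W_zero : (0 : L) ∈ W := by
  refine ⟨?_, ?_, ?_⟩ <;> simp

theorem W_add {ψ φ : L} (h : ψ ∈ W) (h' : φ ∈ W) : ψ + φ ∈ W := by
  obtain ⟨h1, h2, h3⟩ := h
  obtain ⟨g1, g2, g3⟩ := h'
  refine ⟨?_, ?_, ?_⟩
  · rw [map_add]
    linear_combination (norm := abel1) h1 + g1
  · rw [map_add, map_add]
    linear_combination (norm := abel1) h2 + g2
  · simp only [map_add]
    linear_combination (norm := abel1) h3 + g3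

theorem W_smul (c : ℚ) {ψ : L} (h : ψ ∈ W) : c • ψ ∈ W := by
  obtain ⟨h1, h2, h3⟩ := h
  refine ⟨?_, ?_, ?_⟩
  · rw [map_smul, ← smul_add, h1, smul_zero]
  · rw [map_smul, map_smul, ← smul_add, ← smul_add, h2, smul_zero]
  · simp only [map_smul, ← smul_add]
    rw [h3]

theorem pent4_of_W {ψ : L} (h : ψ ∈ W) : Pent4 (jL ψ) := by
  intro A _ _ u hu
  obtain ⟨f, hf⟩ := lift4 u hu.diag hu.symm
    (fun i j k l a b c d => sub_eq_zero.2 (hu.comm i j k l a b c d).eq)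
    (fun i j k a b c => sub_eq_zero.2 (hu.tri i j k a b c).eq)
  have := congrArg f h.2.2
  simp only [map_add, map_evL, hf] at this
  simp only [ev_jL]
  exact this

theorem W_iff {n : ℕ} (hn : 3 ≤ n) {ψ : L} (h : ψ ∈ Lw n) : ψ ∈ W ↔ Pent (jL ψ) := by
  have hm := jL_mem h
  refine ⟨fun hW => (pent4_iff (by omega) hm).1 (pent4_of_W hW), fun hP => ⟨?_, ?_, ?_⟩⟩
  · apply jL_injective
    rw [map_add, map_evL, jL_x, jL_y, ← ev_jL, map_zero, hP.anti (by omega) hm, ev_self,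
      add_neg_cancel]
  · apply jL_injective
    have := hP.cyc hn hm (T ℚ) (X ℚ) (Y ℚ)
    rw [ev_self] at this
    simp only [map_add, map_evL, map_sub, map_neg, jL_x, jL_y, ← ev_jL, map_zero]
    exact this
  · have h1 := (pent4_iff (by omega) hm).2 hP _ _ fam_dyn
    have hn0 : (n : ℚ) ≠ 0 := Nat.cast_ne_zero.2 (by omega)
    simp only [← map_add, ← ev_dyn h] at h1
    exact dyn_injective hn0 h1

theorem W_low {n : ℕ} (hn : n ≤ 2) {ψ : L} (h : ψ ∈ Lw n) (hW : ψ ∈ W) : ψ = 0 := by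
  have hm := jL_mem h
  obtain rfl | rfl | rfl : n = 0 ∨ n = 1 ∨ n = 2 := by omega
  · have h' : ψ ∈ H ℚ (FreeLieAlgebra.of ℚ : Fin 2 → L) (fun _ => 1) 0 := h
    rwa [H_zero fun _ => le_rfl, Submodule.mem_bot] at h'
  · obtain ⟨p, q, e⟩ := HT_one hm
    have h1 := pent4_of_W hW ℚ _ (fam_rat 1 0)
    have h2 := pent4_of_W hW ℚ _ (fam_rat 0 1)
    rw [e] at h1 h2
    simp only [map_add, map_smul, ev_X, ev_Y] at h1 h2
    have hp : p = 0 := by simpa using h1
    have hq : q = 0 := by simpa using h2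
    apply jL_injective
    rw [e, hp, hq, zero_smul, zero_smul, add_zero, map_zero]
  · obtain ⟨p, e⟩ := HT_two hm
    have h1 := congrArg jL hW.2.1
    simp only [map_add, map_evL, map_sub, map_neg, jL_x, jL_y, ← ev_jL, map_zero] at h1
    have h2 : jL ψ + ev (Y ℚ) (-X ℚ - Y ℚ) (jL ψ) + ev (-X ℚ - Y ℚ) (X ℚ) (jL ψ) =
        (3 : ℚ) • jL ψ := by
      rw [e, map_smul, map_smul, map_br, map_br, ev_X, ev_Y, ev_X, ev_Y, smul_comm, ← smul_add,
        ← smul_add]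
      congr 1
      rw [show (3 : ℚ) = 1 + 1 + 1 by norm_num, add_smul, add_smul, one_smul]
      simp only [Ring.lie_def]
      noncomm_ring
    apply jL_injective
    rw [map_zero]
    exact (smul_eq_zero.1 (h2.symm.trans h1)).resolve_left (by norm_num)

theorem W_graded {ψ : L} (hW : ψ ∈ W) : ∃ (N : ℕ) (c : ℕ → L),
    (∀ n, c n ∈ Lw n ∧ c n ∈ W) ∧ ψ = ∑ n ∈ Finset.range N, c n := by
  obtain ⟨N, c, hc, e⟩ := exists_sum_H (fun _ => 1) ψ
  let P : Submodule ℚ L :=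
    { carrier := W, add_mem' := W_add, zero_mem' := W_zero, smul_mem' := fun c _ h => W_smul c h }
  have h1 := vandermonde P N c fun r => by
    have h2 := scale_mem r hW
    rw [e, map_sum, Finset.sum_congr rfl fun n _ => scale_of_mem r (hc n)] at h2
    exact h2
  refine ⟨N, fun n => if n < N then c n else 0, fun n => ?_, ?_⟩
  · beta_reduce
    split_ifs with hn
    · exact ⟨hc n, h1 n hn⟩
    · exact ⟨zero_mem _, W_zero⟩
  · rw [e]
    exact Finset.sum_congr rfl fun n hn => (if_pos (Finset.mem_range.1 hn)).symm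

theorem exists_D : ∃ D : L → LieDerivation ℚ L L, ∀ ψ, D ψ x = 0 ∧ D ψ y = ⁅y, ψ⁆ ∧
    ∀ φ, jL (D ψ φ) = DT (jL ψ) (jL φ) := by
  choose D hD using DT_range
  refine ⟨fun ψ =>
    { toFun := D ψ
      map_add' := fun a b => jL_injective (by rw [map_add, hD, hD, hD, map_add, map_add])
      map_smul' := fun c a => jL_injective (by
        rw [RingHom.id_apply, map_smul, hD, hD, map_smul, map_smul])
      leibniz' := fun a b => jL_injective ?_ }, fun ψ => ⟨jL_injective ?_, jL_injective ?_, hD ψ⟩⟩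
  · change jL (D ψ ⁅a, b⁆) = jL (⁅a, D ψ b⁆ - ⁅b, D ψ a⁆)
    rw [hD, map_sub, LieHom.map_lie, LieHom.map_lie, LieHom.map_lie, hD, hD, (DT_der _).br,
      sub_eq_add_neg, lie_skew, add_comm]
  · change jL (D ψ x) = jL 0
    rw [hD, jL_x, DT_X, map_zero]
  · change jL (D ψ y) = jL ⁅y, ψ⁆
    rw [hD, jL_y, DT_Y, LieHom.map_lie, jL_y]

end Vale.Agent.P029
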