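import Vale.Agent.P029.Fam

/-! Base change from the integers. -/

noncomputable section

namespace Vale.Agent.P029

variable {k : Type} [CommRing k] {ι : Type}

@[simp] theorem liftZ_of {A : Type} [Ring A] (f : ι → A) (i : ι) :
    liftZ f (FreeAlgebra.ι ℤ i) = f i := by
  simp [liftZ]

theorem ringHom_extZ {A : Type} [Ring A] {f g : FreeAlgebra ℤ ι →+* A}
    (h : ∀ i, f (FreeAlgebra.ι ℤ i) = g (FreeAlgebra.ι ℤ i)) : f = g := by
  refine RingHom.ext fun m => ?_
  induction m using FreeAlgebra.induction with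
  | grade0 r => rw [eq_intCast (algebraMap ℤ (FreeAlgebra ℤ ι)) r, map_intCast, map_intCast]
  | grade1 i => exact h i
  | mul a b ha hb => rw [map_mul, map_mul, ha, hb]
  | add a b ha hb => rw [map_add, map_add, ha, hb]

@[simp] theorem bc_of (i : ι) : bc k (FreeAlgebra.ι ℤ i) = FreeAlgebra.ι k i := by
  simp [bc]

@[simp] theorem bc_X : bc k (X ℤ) = X k := by
  exact bc_of 0

@[simp] theorem bc_Y : bc k (Y ℤ) = Y k := by
  exact bc_of 1

theorem lift_bc {A : Type} [Ring A] [Algebra k A] (f : ι → A) (g : FreeAlgebra ℤ ι) :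
    FreeAlgebra.lift k f (bc k g) = liftZ f g := by
  have : (FreeAlgebra.lift k f).toRingHom.comp (bc k) = liftZ f := ringHom_extZ fun i => by simp
  exact DFunLike.congr_fun this g

/-- naturality of the action of integer polynomials in operators -/
theorem liftZ_intertwine {k' R R' : Type} [CommRing k'] [AddCommGroup R] [Module k R]
    [AddCommGroup R'] [Module k' R'] (f : R →+ R') (P : ι → Module.End k R)
    (P' : ι → Module.End k' R') (h : ∀ i m, f (P i m) = P' i (f m)) (g : FreeAlgebra ℤ ι) (m : R) :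
    f (liftZ P g m) = liftZ P' g (f m) := by
  induction g using FreeAlgebra.induction generalizing m with
  | grade0 r =>
    rw [eq_intCast (algebraMap ℤ (FreeAlgebra ℤ ι)) r, map_intCast, map_intCast,
      Module.End.intCast_apply, Module.End.intCast_apply, map_zsmul]
  | grade1 i => rw [liftZ_of, liftZ_of, h]
  | mul a b ha hb => rw [map_mul, map_mul, Module.End.mul_apply, Module.End.mul_apply, ha, hb]
  | add a b ha hb => rw [map_add, map_add, LinearMap.add_apply, LinearMap.add_apply, map_add, ha, hb]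

namespace IntAux

theorem map_liftZ {A B : Type} [Ring A] [Ring B] (φ : A →+* B) (f : ι → A) (g : FreeAlgebra ℤ ι) :
    φ (liftZ f g) = liftZ (fun i => φ (f i)) g := by
  have : φ.comp (liftZ f) = liftZ (fun i => φ (f i)) := ringHom_extZ fun i => by simp
  exact DFunLike.congr_fun this g

theorem bc_smul (c : ℤ) (g : FreeAlgebra ℤ ι) : bc k (c • g) = (c : k) • bc k g := by
  rw [map_zsmul, Int.cast_smul_eq_zsmul]

theorem basis_eq (w : FreeMonoid ι) :
    FreeAlgebra.basisFreeMonoid k ι w = FreeMonoid.lift (FreeAlgebra.ι k) w := by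
  simp [FreeAlgebra.basisFreeMonoid, FreeAlgebra.equivMonoidAlgebraFreeMonoid]

theorem bc_basis (w : FreeMonoid ι) :
    bc k (FreeAlgebra.basisFreeMonoid ℤ ι w) = FreeAlgebra.basisFreeMonoid k ι w := by
  rw [basis_eq, basis_eq]
  induction w using FreeMonoid.inductionOn' with
  | one => simp
  | of_mul i w ih => rw [map_mul, map_mul, map_mul, ih]; simp

theorem repr_bc (g : FreeAlgebra ℤ ι) (w : FreeMonoid ι) :
    (FreeAlgebra.basisFreeMonoid k ι).repr (bc k g) w =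
      (((FreeAlgebra.basisFreeMonoid ℤ ι).repr g w : ℤ) : k) := by
  classical
  have hg := (FreeAlgebra.basisFreeMonoid ℤ ι).mem_span g
  induction hg using Submodule.span_induction with
  | mem a ha =>
    obtain ⟨v, rfl⟩ := ha
    rw [bc_basis, Module.Basis.repr_self, Module.Basis.repr_self, Finsupp.single_apply,
      Finsupp.single_apply]
    split_ifs <;> simp
  | zero => simp
  | add a b _ _ ha hb =>
    rw [map_add, map_add, map_add, Finsupp.add_apply, Finsupp.add_apply, ha, hb, Int.cast_add]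
  | smul c a _ ha =>
    rw [map_smul (FreeAlgebra.basisFreeMonoid ℤ ι).repr, Finsupp.smul_apply, smul_eq_mul,
      Int.cast_mul, ← ha]
    refine (congrArg (fun z => (FreeAlgebra.basisFreeMonoid k ι).repr z w) (bc_smul c a)).trans ?_
    simp only [map_smul, Finsupp.smul_apply, smul_eq_mul]

theorem exists_int_span {S : Set (FreeAlgebra ℚ ι)} (P : Submodule ℤ (FreeAlgebra ℤ ι))
    (hS : ∀ s ∈ S, ∃ g ∈ P, bc ℚ g = s) {p : FreeAlgebra ℚ ι} (h : p ∈ Submodule.span ℚ S) :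
    ∃ c : ℤ, c ≠ 0 ∧ ∃ g ∈ P, bc ℚ g = (c : ℚ) • p := by
  induction h using Submodule.span_induction with
  | mem a ha =>
    obtain ⟨g, hg, e⟩ := hS a ha
    exact ⟨1, one_ne_zero, g, hg, by simp [e]⟩
  | zero => exact ⟨1, one_ne_zero, 0, zero_mem _, by simp⟩
  | add a b _ _ ha hb =>
    obtain ⟨c, hc, g, hg, e⟩ := ha
    obtain ⟨c', hc', g', hg', e'⟩ := hb
    refine ⟨c * c', mul_ne_zero hc hc', c' • g + c • g',
      add_mem (P.smul_mem _ hg) (P.smul_mem _ hg'), ?_⟩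
    rw [map_add, bc_smul, bc_smul, e, e', Int.cast_mul]
    module
  | smul r a _ ha =>
    obtain ⟨c, hc, g, hg, e⟩ := ha
    refine ⟨c * r.den, mul_ne_zero hc (by exact_mod_cast r.den_ne_zero), r.num • g,
      P.smul_mem _ hg, ?_⟩
    rw [bc_smul, e, smul_smul, smul_smul]
    congr 1
    have := Rat.mul_den_eq_num r
    push_cast
    rw [← this]
    ring

theorem mon_bc {wt : ι → ℕ} {n : ℕ} {a : FreeAlgebra k ι} (h : Mon (FreeAlgebra.ι k) wt n a) :
    ∃ g, Mon (FreeAlgebra.ι ℤ) wt n g ∧ bc k g = a := by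
  induction h with
  | of i => exact ⟨_, Mon.of i, bc_of i⟩
  | br _ _ h1 h2 =>
    obtain ⟨g, hg, rfl⟩ := h1
    obtain ⟨g', hg', rfl⟩ := h2
    exact ⟨_, Mon.br hg hg', map_br _ _ _⟩

theorem ev_bc {A : Type} [Ring A] [Algebra k A] (a b : A) (g : T ℤ) :
    ev a b (bc k g) = liftZ ![a, b] g := lift_bc _ _

theorem map_liftZ2 {A B : Type} [Ring A] [Ring B] (φ : A →+* B) (a b : A) (g : T ℤ) :
    φ (liftZ ![a, b] g) = liftZ ![φ a, φ b] g := by
  rw [map_liftZ]
  congr 2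
  funext i
  fin_cases i <;> rfl

theorem inter2 {k' R R' : Type} [CommRing k'] [AddCommGroup R] [Module k R]
    [AddCommGroup R'] [Module k' R'] (f : R →+ R') {P Q : Module.End k R}
    {P' Q' : Module.End k' R'} (h1 : ∀ m, f (P m) = P' (f m)) (h2 : ∀ m, f (Q m) = Q' (f m))
    (g : T ℤ) (m : R) : f (liftZ ![P, Q] g m) = liftZ ![P', Q'] g (f m) := by
  refine liftZ_intertwine f _ _ (fun i m => ?_) g m
  fin_cases i
  · exact h1 m
  · exact h2 m

/-- a ring morphism from a free algebra intertwines derivations that agree on generators -/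
theorem der_inter {R : Type} [Ring R] [Algebra k R] (φ : FreeAlgebra ℤ ι →+* R)
    {d : FreeAlgebra ℤ ι →+ FreeAlgebra ℤ ι} {d' : Module.End k R}
    (hd : ∀ m n, d (m * n) = d m * n + m * d n) (hd' : Der d')
    (h : ∀ i, φ (d (FreeAlgebra.ι ℤ i)) = d' (φ (FreeAlgebra.ι ℤ i))) (m : FreeAlgebra ℤ ι) :
    φ (d m) = d' (φ m) := by
  have h1 : d 1 = 0 := by
    have := hd 1 1
    rw [mul_one, mul_one, one_mul] at this
    exact left_eq_add.1 this
  induction m using FreeAlgebra.induction with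
  | grade0 r =>
    rw [eq_intCast (algebraMap ℤ (FreeAlgebra ℤ ι)) r, map_intCast φ, ← zsmul_one r,
      ← zsmul_one r, map_zsmul d, map_zsmul d', h1, hd'.one, smul_zero, smul_zero, map_zero]
  | grade1 i => exact h i
  | mul a b ha hb => rw [hd, map_add, map_mul, map_mul, ha, hb, map_mul, hd']
  | add a b ha hb => rw [map_add, map_add, map_add, map_add, ha, hb]

/-- the expression in the fibre equation -/
def fibE {R : Type} [Ring R] [Algebra k R] (α β γ : R) (d12 d23 : Module.End k R) (ψ : T ℤ) : R :=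
  liftZ ![α, -α - β] ψ + (liftZ ![d23, Lm β + d12] ψ : Module.End k R) 1 +
    liftZ ![-(α + β + γ), α] ψ + liftZ ![α + β, -(α + β + γ)] ψ

theorem map_fibE' {k' R R' : Type} [CommRing k'] [Ring R] [Algebra k R] [Ring R'] [Algebra k' R']
    (φ : R →+* R') (α β γ : R) {d12 d23 : Module.End k R} {e12 e23 : Module.End k' R'}
    (i12 : ∀ m, φ (d12 m) = e12 (φ m)) (i23 : ∀ m, φ (d23 m) = e23 (φ m)) (ψ : T ℤ) :
    φ (fibE α β γ d12 d23 ψ) = fibE (φ α) (φ β) (φ γ) e12 e23 ψ := by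
  have i3 := inter2 φ.toAddMonoidHom (P := d23) (Q := Lm β + d12) (P' := e23)
    (Q' := Lm (φ β) + e12) i23 (fun m => by
      show φ (β * m + d12 m) = φ β * φ m + e12 (φ m)
      rw [map_add, map_mul, i12]) ψ 1
  have i4 : φ ((liftZ ![d23, Lm β + d12] ψ : Module.End k R) 1) =
      (liftZ ![e23, Lm (φ β) + e12] ψ : Module.End k' R') 1 := by
    refine i3.trans ?_
    congr 1
    exact map_one φ
  unfold fibE
  rw [map_add, map_add, map_add, i4, map_liftZ2, map_liftZ2, map_liftZ2]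
  simp

theorem exists_univ (ψ : T ℤ) : ∃ g : FreeAlgebra ℤ (Fin 3), ∀ (k R : Type) [CommRing k] [Ring R]
    [Algebra k R] (α β γ : R) (d12 d23 : Module.End k R), Fibre α β γ d12 d23 →
      liftZ (ι := Fin 3) ![α, β, γ] g = fibE α β γ d12 d23 ψ := by
  obtain ⟨e12, e23, h'⟩ := exists_fibre (k := ℤ)
  refine ⟨fibE (FreeAlgebra.ι ℤ 0) (FreeAlgebra.ι ℤ 1) (FreeAlgebra.ι ℤ 2) e12 e23 ψ,
    fun k R _ _ _ α β γ d12 d23 h => ?_⟩
  have i12 := der_inter (liftZ (ι := Fin 3) ![α, β, γ]) (d := e12.toAddMonoidHom) h'.der12 h.der12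
    (fun i => by
      fin_cases i
      · exact (congrArg _ h'.a12).trans (by rw [map_br]; simpa using h.a12.symm)
      · exact (congrArg _ h'.b12).trans (by rw [map_br]; simpa using h.b12.symm)
      · exact (congrArg _ h'.c12).trans (by rw [map_zero]; simpa using h.c12.symm))
  have i23 := der_inter (liftZ (ι := Fin 3) ![α, β, γ]) (d := e23.toAddMonoidHom) h'.der23 h.der23
    (fun i => by
      fin_cases i
      · exact (congrArg _ h'.a23).trans (by rw [map_zero]; simpa using h.a23.symm)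
      · exact (congrArg _ h'.b23).trans (by rw [map_br]; simpa using h.b23.symm)
      · exact (congrArg _ h'.c23).trans (by rw [map_br]; simpa using h.c23.symm))
  rw [map_fibE' (liftZ (ι := Fin 3) ![α, β, γ]) _ _ _ i12 i23]
  simp

end IntAux

open IntAux

theorem bc_mem {wt : ι → ℕ} {n : ℕ} {g : FreeAlgebra ℤ ι} (h : g ∈ H ℤ (FreeAlgebra.ι ℤ) wt n) :
    bc k g ∈ H k (FreeAlgebra.ι k) wt n := by
  induction h using Submodule.span_induction with
  | mem a ha =>
    have := Mon.map (bc k) (map_br _) ha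
    simp only [bc_of] at this
    exact Submodule.subset_span this
  | zero => rw [map_zero]; exact zero_mem _
  | add a b _ _ ha hb => rw [map_add]; exact add_mem ha hb
  | smul c a _ ha => rw [bc_smul]; exact Submodule.smul_mem _ _ ha

theorem bc_injective : Function.Injective (bc ℚ : FreeAlgebra ℤ ι →+* FreeAlgebra ℚ ι) := by
  intro g g' h
  refine (FreeAlgebra.basisFreeMonoid ℤ ι).ext_elem fun w => ?_
  have e := repr_bc (k := ℚ) g w
  rw [h, repr_bc] at e
  exact_mod_cast e.symm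

theorem bc_two_ker {g : FreeAlgebra ℤ ι} (h : bc (ZMod 2) g = 0) : ∃ g', g = (2 : ℤ) • g' := by
  have h2 : ∀ w, (2 : ℤ) ∣ (FreeAlgebra.basisFreeMonoid ℤ ι).repr g w := fun w => by
    have e := repr_bc (k := ZMod 2) g w
    rw [h, map_zero, Finsupp.zero_apply] at e
    exact (ZMod.intCast_zmod_eq_zero_iff_dvd _ 2).1 e.symm
  refine ⟨(FreeAlgebra.basisFreeMonoid ℤ ι).repr.symm
    (((FreeAlgebra.basisFreeMonoid ℤ ι).repr g).mapRange (· / 2) (by simp)), ?_⟩
  refine (FreeAlgebra.basisFreeMonoid ℤ ι).ext_elem fun w => ?_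
  rw [map_smul, LinearEquiv.apply_symm_apply, Finsupp.smul_apply, Finsupp.mapRange_apply,
    smul_eq_mul, Int.mul_ediv_cancel' (h2 w)]

theorem exists_int_H {wt : ι → ℕ} {n : ℕ} {p : FreeAlgebra ℚ ι}
    (h : p ∈ H ℚ (FreeAlgebra.ι ℚ) wt n) :
    ∃ c : ℤ, c ≠ 0 ∧ ∃ g ∈ H ℤ (FreeAlgebra.ι ℤ) wt n, bc ℚ g = (c : ℚ) • p := by
  refine exists_int_span _ (fun s hs => ?_) h
  obtain ⟨g, hg, e⟩ := mon_bc hs
  exact ⟨g, Submodule.subset_span hg, e⟩

theorem exists_primitive {p : FreeAlgebra ℚ ι} (h : p ≠ 0) :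
    ∃ q : ℚ, q ≠ 0 ∧ ∃ g : FreeAlgebra ℤ ι, bc ℚ g = q • p ∧ bc (ZMod 2) g ≠ 0 := by
  have hp : p ∈ Submodule.span ℚ (Set.range (FreeAlgebra.basisFreeMonoid ℚ ι)) := by
    rw [Module.Basis.span_eq]; trivial
  obtain ⟨c, hc, g, -, e⟩ := exists_int_span ⊤ (fun s hs => by
    obtain ⟨w, rfl⟩ := hs
    exact ⟨_, trivial, bc_basis w⟩) hp
  obtain ⟨w, hw⟩ : ∃ w, (FreeAlgebra.basisFreeMonoid ℚ ι).repr p w ≠ 0 := by
    by_contra hh
    push Not at hh
    exact h ((FreeAlgebra.basisFreeMonoid ℚ ι).ext_elem fun w => by simpa using hh w)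
  have key : ∀ (n : ℕ) (g : FreeAlgebra ℤ ι) (q : ℚ), q ≠ 0 → bc ℚ g = q • p →
      ((FreeAlgebra.basisFreeMonoid ℤ ι).repr g w).natAbs = n →
      ∃ q : ℚ, q ≠ 0 ∧ ∃ g : FreeAlgebra ℤ ι, bc ℚ g = q • p ∧ bc (ZMod 2) g ≠ 0 := by
    intro n
    induction n using Nat.strong_induction_on with
    | _ n ih =>
      intro g q hq e hn
      by_cases h2 : bc (ZMod 2) g = 0
      · obtain ⟨g', rfl⟩ := bc_two_ker h2
        have e1 : bc ℚ g' = (q / 2) • p := by
          rw [bc_smul] at e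
          have : bc ℚ g' = (1 / 2 : ℚ) • (((2 : ℤ) : ℚ) • bc ℚ g') := by
            rw [smul_smul]; norm_num
          rw [this, e, smul_smul]
          congr 1
          ring
        have e2 : (FreeAlgebra.basisFreeMonoid ℤ ι).repr g' w ≠ 0 := by
          intro h0
          have e3 := repr_bc (k := ℚ) g' w
          rw [h0, e1, map_smul, Finsupp.smul_apply, smul_eq_mul, Int.cast_zero] at e3
          exact mul_ne_zero (div_ne_zero hq two_ne_zero) hw e3
        refine ih _ ?_ g' (q / 2) (div_ne_zero hq two_ne_zero) e1 rfl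
        rw [map_smul, Finsupp.smul_apply, smul_eq_mul] at hn
        omega
      · exact ⟨q, hq, g, e, h2⟩
  exact key _ g c (by exact_mod_cast hc) e rfl

theorem bc_DT (ψ m : T ℤ) : bc k (DT ψ m) = DT (bc k ψ) (bc k m) := by
  refine der_inter (bc k) (d := (DT ψ).toAddMonoidHom) (DT_der ψ) (DT_der (bc k ψ))
    (fun i => ?_) m
  fin_cases i
  · show bc k (DT ψ (X ℤ)) = DT (bc k ψ) (bc k (X ℤ))
    simp
  · show bc k (DT ψ (Y ℤ)) = DT (bc k ψ) (bc k (Y ℤ))
    simp [map_br]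

theorem bc_ih (ψ φ : T ℤ) : bc k (ih ψ φ) = ih (bc k ψ) (bc k φ) := by
  rw [ih, ih, map_add, map_sub, bc_DT, bc_DT, map_br]

theorem bc_act (ψ m : T ℤ) : bc k (act ψ m) = act (bc k ψ) (bc k m) := by
  rw [act_apply, act_apply, map_add, map_mul, bc_DT]

theorem dep_bc (ψ : T ℤ) : dep (bc k ψ) = ((dep ψ : ℤ) : k) := by
  have h1 := map_liftZ2 (Int.castRingHom k).mapMatrix
    (!![1, 0; 0, 0] : Matrix (Fin 2) (Fin 2) ℤ) !![0, 1; 0, 0] ψ
  have e1 : (Int.castRingHom k).mapMatrix (!![1, 0; 0, 0] : Matrix (Fin 2) (Fin 2) ℤ) =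
      (!![1, 0; 0, 0] : Matrix (Fin 2) (Fin 2) k) := by
    ext i j
    fin_cases i <;> fin_cases j <;> simp
  have e2 : (Int.castRingHom k).mapMatrix (!![0, 1; 0, 0] : Matrix (Fin 2) (Fin 2) ℤ) =
      (!![0, 1; 0, 0] : Matrix (Fin 2) (Fin 2) k) := by
    ext i j
    fin_cases i <;> fin_cases j <;> simp
  have e3 : (ev (!![1, 0; 0, 0] : Matrix (Fin 2) (Fin 2) ℤ) !![0, 1; 0, 0] : T ℤ →ₐ[ℤ] _).toRingHom =
      liftZ ![!![1, 0; 0, 0], !![0, 1; 0, 0]] := ringHom_extZ fun i => by simp [ev]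
  have e4 : ev (!![1, 0; 0, 0] : Matrix (Fin 2) (Fin 2) ℤ) !![0, 1; 0, 0] ψ =
      liftZ ![!![1, 0; 0, 0], !![0, 1; 0, 0]] ψ := DFunLike.congr_fun e3 ψ
  rw [e1, e2] at h1
  rw [dep, dep, ev_bc, ← h1, e4]
  rfl

theorem anti_bc {ψ : T ℤ} (h : Anti (bc ℚ ψ)) : Anti (bc k ψ) := by
  intro A _ _ a b
  have h1 := h (T ℚ) (X ℚ) (Y ℚ)
  rw [ev_bc, ev_bc, ← bc_X, ← bc_Y, ← map_liftZ2, ← map_liftZ2, ← map_neg] at h1
  have h2 := congrArg (liftZ ![a, b]) (bc_injective h1)
  rw [map_neg, map_liftZ2, map_liftZ2] at h2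
  rw [ev_bc, ev_bc]
  simpa [X, Y] using h2

theorem fibEq_bc {ψ : T ℤ} (h : FibEq (bc ℚ ψ)) : FibEq (bc k ψ) := by
  intro R _ _ α β γ d12 d23 hf
  obtain ⟨g, hg⟩ := exists_univ ψ
  obtain ⟨q12, q23, hq⟩ := exists_fibre (k := ℚ)
  have h1 := h _ _ _ _ _ _ hq
  rw [ev_bc, ev_bc, ev_bc, ev_bc] at h1
  have h2 := (hg _ _ _ _ _ _ _ hq).trans h1
  have e : liftZ (ι := Fin 3) ![FreeAlgebra.ι ℚ (0 : Fin 3), FreeAlgebra.ι ℚ 1, FreeAlgebra.ι ℚ 2] =
      bc ℚ := ringHom_extZ fun i => by fin_cases i <;> simp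
  rw [e] at h2
  have h3 := bc_injective (h2.trans (map_zero _).symm)
  have h4 := hg _ _ _ _ _ _ _ hf
  rw [h3, map_zero] at h4
  rw [ev_bc, ev_bc, ev_bc, ev_bc]
  exact h4.symm

end Vale.Agent.P029
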