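import Vale.Agent.P029.KDefs

/-! Calculus of logarithmic growth, and a Gronwall estimate. -/

noncomputable section

namespace Vale.Agent.P029

open Set

variable {A : Type} [NormedRing A] [NormedAlgebra ℝ A] {f g : ℝ → A}

namespace KAsyAux

/-- weighted logarithmic bounds -/
def Bd {E : Type} [Norm E] (w : ℝ → ℝ) (f : ℝ → E) : Prop :=
  ∃ (C : ℝ) (n : ℕ), 0 ≤ C ∧ ∀ t, 0 < t → t ≤ 1 / 2 → ‖f t‖ ≤ C * w t * (1 - Real.log t) ^ n

lemma one_le_L {t : ℝ} (ht : 0 < t) (h2 : t ≤ 1 / 2) : 1 ≤ 1 - Real.log t := by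
  linarith [Real.log_nonpos ht.le (by linarith)]

lemma temp_iff : Temp f ↔ Bd (fun _ => 1) f := by
  constructor
  · rintro ⟨C, n, h⟩
    refine ⟨|C|, n, abs_nonneg C, fun t ht h2 => (h t ht h2).trans ?_⟩
    have := one_le_L ht h2
    rw [mul_one]
    gcongr
    exact le_abs_self C
  · rintro ⟨C, n, -, h⟩
    exact ⟨C, n, fun t ht h2 => by simpa using h t ht h2⟩

lemma tiny_iff : Tiny f ↔ Bd (fun t => √t) f := by
  constructor
  · rintro ⟨C, n, h⟩
    refine ⟨|C|, n, abs_nonneg C, fun t ht h2 => (h t ht h2).trans ?_⟩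
    have := one_le_L ht h2
    gcongr
    exact le_abs_self C
  · rintro ⟨C, n, -, h⟩
    exact ⟨C, n, h⟩

section
variable {E F G : Type} [Norm E] [Norm F] [Norm G] {w w' w'' : ℝ → ℝ}
  {a : ℝ → E} {b : ℝ → F} {c : ℝ → G}

lemma Bd.of_add (ha : Bd w a) (hb : Bd w b) (hw : ∀ t, 0 ≤ w t)
    (h : ∀ t, 0 < t → t ≤ 1 / 2 → ‖c t‖ ≤ ‖a t‖ + ‖b t‖) : Bd w c := by
  obtain ⟨C, n, hC, h1⟩ := ha
  obtain ⟨D, m, hD, h2⟩ := hb
  refine ⟨C + D, max n m, add_nonneg hC hD, fun t ht h3 => (h t ht h3).trans ?_⟩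
  have hL := one_le_L ht h3
  have := hw t
  rw [add_mul, add_mul]
  refine add_le_add ((h1 t ht h3).trans ?_) ((h2 t ht h3).trans ?_)
  · exact mul_le_mul_of_nonneg_left (pow_le_pow_right₀ hL (le_max_left _ _)) (by positivity)
  · exact mul_le_mul_of_nonneg_left (pow_le_pow_right₀ hL (le_max_right _ _)) (by positivity)

lemma Bd.of_mul {E F : Type} [SeminormedAddCommGroup E] [SeminormedAddCommGroup F] {a : ℝ → E}
    {b : ℝ → F} (ha : Bd w a) (hb : Bd w' b) (hw : ∀ t, w t * w' t = w'' t)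
    (h : ∀ t, 0 < t → t ≤ 1 / 2 → ‖c t‖ ≤ ‖a t‖ * ‖b t‖) : Bd w'' c := by
  obtain ⟨C, n, hC, h1⟩ := ha
  obtain ⟨D, m, hD, h2⟩ := hb
  refine ⟨C * D, n + m, mul_nonneg hC hD, fun t ht h3 => (h t ht h3).trans ?_⟩
  refine (mul_le_mul (h1 t ht h3) (h2 t ht h3) (norm_nonneg _)
    ((norm_nonneg _).trans (h1 t ht h3))).trans (le_of_eq ?_)
  rw [← hw t, pow_add]
  ring

lemma Bd.of_le (ha : Bd w a) (h : ∀ t, 0 < t → t ≤ 1 / 2 → ‖c t‖ ≤ ‖a t‖) : Bd w c := by
  obtain ⟨C, n, hC, h1⟩ := ha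
  exact ⟨C, n, hC, fun t ht h3 => (h t ht h3).trans (h1 t ht h3)⟩

lemma comp_log {t : ℝ} (ht : 0 < t) :
    Real.log (t / (1 + t)) = Real.log t + -Real.log (1 + t) := by
  rw [Real.log_div ht.ne' (by linarith), sub_eq_add_neg]

lemma log_one_add {t : ℝ} (ht : 0 < t) : 0 ≤ Real.log (1 + t) ∧ Real.log (1 + t) ≤ t :=
  ⟨Real.log_nonneg (by linarith), by linarith [Real.log_le_sub_one_of_pos (by linarith : 0 < 1 + t)]⟩

lemma Bd.comp (ha : Bd w a) (hw : ∀ t, 0 ≤ w t) (hm : Monotone w) :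
    Bd w fun t => a (t / (1 + t)) := by
  obtain ⟨C, n, hC, h1⟩ := ha
  refine ⟨C * 2 ^ n, n, by positivity, fun t ht h3 => ?_⟩
  have h4 : t / (1 + t) ≤ t := div_le_self ht.le (by linarith)
  have h5 : 0 < t / (1 + t) := by positivity
  have hL := one_le_L ht h3
  have hL' := one_le_L h5 (h4.trans h3)
  have h6 : 1 - Real.log (t / (1 + t)) ≤ 2 * (1 - Real.log t) := by
    rw [comp_log ht]
    linarith [(log_one_add ht).2]
  have := hw t
  calc ‖a (t / (1 + t))‖ ≤ C * w (t / (1 + t)) * (1 - Real.log (t / (1 + t))) ^ n :=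
        h1 _ h5 (h4.trans h3)
    _ ≤ C * w t * (2 * (1 - Real.log t)) ^ n := by
        gcongr
        exact hm h4
    _ = C * 2 ^ n * w t * (1 - Real.log t) ^ n := by rw [mul_pow]; ring

end

lemma sqrt_L (n : ℕ) : ∃ D : ℝ, 0 ≤ D ∧ ∀ t, 0 < t → t ≤ 1 / 2 →
    √t * (1 - Real.log t) ^ n ≤ D * Real.exp (Real.log t / 4) := by
  refine ⟨4 ^ n * n.factorial * Real.exp (1 / 4), by positivity, fun t ht h2 => ?_⟩
  have hL := one_le_L ht h2
  have h3 := Real.pow_div_factorial_le_exp ((1 - Real.log t) / 4) (by positivity) n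
  have h4 : √t = Real.exp (Real.log t / 2) := by
    rw [Real.sqrt_eq_rpow, Real.rpow_def_of_pos ht]
    congr 1
    ring
  rw [div_pow, div_div, div_le_iff₀ (by positivity)] at h3
  calc √t * (1 - Real.log t) ^ n
      ≤ √t * (Real.exp ((1 - Real.log t) / 4) * (4 ^ n * n.factorial)) := by gcongr
    _ = 4 ^ n * n.factorial * (Real.exp (Real.log t / 2) * Real.exp ((1 - Real.log t) / 4)) := by
        rw [h4]; ring
    _ = _ := by
        rw [mul_assoc _ (Real.exp (1 / 4)), ← Real.exp_add, ← Real.exp_add]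
        congr 2
        ring

lemma tiny_le (hf : Tiny f) : ∃ D : ℝ, 0 ≤ D ∧ ∀ t, 0 < t → t ≤ 1 / 2 →
    ‖f t‖ ≤ D * Real.exp (Real.log t / 4) := by
  obtain ⟨C, n, hC, h⟩ := tiny_iff.1 hf
  obtain ⟨D, hD, h1⟩ := sqrt_L n
  refine ⟨C * D, mul_nonneg hC hD, fun t ht h2 => (h t ht h2).trans ?_⟩
  rw [mul_assoc, mul_assoc]
  exact mul_le_mul_of_nonneg_left (h1 t ht h2) hC

/-- truncated exponential -/
def ex (N : ℕ) (a : A) (u : ℝ) : A := ∑ n ∈ Finset.range (N + 1), (u ^ n / n.factorial) • a ^ n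

/-- the rational structure -/
abbrev qm (A : Type) [NormedRing A] [NormedAlgebra ℝ A] : Module ℚ A :=
  Module.compHom A (algebraMap ℚ ℝ)

lemma ex_eq {N : ℕ} {a : A} (ha : a ^ (N + 1) = 0) (u : ℝ) :
    ex N a u = @IsNilpotent.exp A _ (qm A) (u • a) := by
  let _ := qm A
  rw [IsNilpotent.exp_eq_sum (k := N + 1) (by rw [smul_pow, ha, smul_zero]), ex]
  refine Finset.sum_congr rfl fun n _ => ?_
  change _ = (algebraMap ℚ ℝ ((n.factorial : ℚ)⁻¹)) • (u • a) ^ n
  rw [smul_pow, smul_smul]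
  congr 1
  simp [div_eq_inv_mul]

lemma nil_smul {N : ℕ} {a : A} (ha : a ^ (N + 1) = 0) (u : ℝ) : IsNilpotent (u • a) :=
  ⟨N + 1, by rw [smul_pow, ha, smul_zero]⟩

lemma ex_add {N : ℕ} {a : A} (ha : a ^ (N + 1) = 0) (u v : ℝ) :
    ex N a (u + v) = ex N a u * ex N a v := by
  let _ := qm A
  rw [ex_eq ha, ex_eq ha, ex_eq ha, add_smul]
  exact IsNilpotent.exp_add_of_commute (((Commute.refl a).smul_left u).smul_right v)
    (nil_smul ha u) (nil_smul ha v)

end KAsyAux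

open KAsyAux

theorem Temp.const (c : A) : Temp (fun _ => c) := by
  exact ⟨‖c‖, 0, fun t _ _ => by simp⟩

theorem Temp.add (hf : Temp f) (hg : Temp g) : Temp (fun t => f t + g t) := by
  exact temp_iff.2 ((temp_iff.1 hf).of_add (temp_iff.1 hg) (fun _ => zero_le_one)
    fun t _ _ => norm_add_le _ _)

theorem Temp.sub (hf : Temp f) (hg : Temp g) : Temp (fun t => f t - g t) := by
  exact temp_iff.2 ((temp_iff.1 hf).of_add (temp_iff.1 hg) (fun _ => zero_le_one)
    fun t _ _ => norm_sub_le _ _)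

theorem Temp.mul (hf : Temp f) (hg : Temp g) : Temp (fun t => f t * g t) := by
  exact temp_iff.2 ((temp_iff.1 hf).of_mul (temp_iff.1 hg) (fun _ => mul_one _)
    fun t _ _ => norm_mul_le _ _)

theorem Temp.pow (hf : Temp f) (n : ℕ) : Temp (fun t => f t ^ n) := by
  induction n with
  | zero => simpa using Temp.const (1 : A)
  | succ n ih => simpa only [pow_succ] using ih.mul hf

theorem Temp.sum {ι : Type} (s : Finset ι) {F : ι → ℝ → A} (h : ∀ i ∈ s, Temp (F i)) :
    Temp (fun t => ∑ i ∈ s, F i t) := by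
  classical
  induction s using Finset.induction_on with
  | empty => simpa using Temp.const (0 : A)
  | insert i s hi ih =>
    simp only [Finset.sum_insert hi]
    exact (h i (Finset.mem_insert_self _ _)).add (ih fun j hj => h j (Finset.mem_insert_of_mem hj))

theorem Temp.congr (hf : Temp f) (h : ∀ t, 0 < t → t ≤ 1 / 2 → g t = f t) : Temp g := by
  obtain ⟨C, n, h1⟩ := hf
  exact ⟨C, n, fun t ht h2 => h t ht h2 ▸ h1 t ht h2⟩

theorem Tiny.temp (hf : Tiny f) : Temp f := by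
  obtain ⟨C, n, hC, h⟩ := tiny_iff.1 hf
  refine ⟨C, n, fun t ht h2 => (h t ht h2).trans ?_⟩
  have hL := one_le_L ht h2
  have h3 : √t ≤ 1 := Real.sqrt_le_one.2 (by linarith)
  exact mul_le_mul_of_nonneg_right (mul_le_of_le_one_right hC h3) (by positivity)

theorem Tiny.zero : Tiny (fun _ => (0 : A)) := by
  exact ⟨0, 0, fun t _ _ => by simp⟩

theorem Tiny.add (hf : Tiny f) (hg : Tiny g) : Tiny (fun t => f t + g t) := by
  exact tiny_iff.2 ((tiny_iff.1 hf).of_add (tiny_iff.1 hg) (fun _ => Real.sqrt_nonneg _)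
    fun t _ _ => norm_add_le _ _)

theorem Tiny.neg (hf : Tiny f) : Tiny (fun t => - f t) := by
  exact tiny_iff.2 ((tiny_iff.1 hf).of_le fun t _ _ => (norm_neg _).le)

theorem Tiny.mul_temp (hf : Tiny f) (hg : Temp g) : Tiny (fun t => f t * g t) := by
  exact tiny_iff.2 ((tiny_iff.1 hf).of_mul (temp_iff.1 hg) (fun _ => mul_one _)
    fun t _ _ => norm_mul_le _ _)

theorem Tiny.temp_mul (hf : Tiny f) (hg : Temp g) : Tiny (fun t => g t * f t) := by
  exact tiny_iff.2 ((temp_iff.1 hg).of_mul (tiny_iff.1 hf) (fun _ => one_mul _)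
    fun t _ _ => norm_mul_le _ _)

theorem Tiny.sum {ι : Type} (s : Finset ι) {F : ι → ℝ → A} (h : ∀ i ∈ s, Tiny (F i)) :
    Tiny (fun t => ∑ i ∈ s, F i t) := by
  classical
  induction s using Finset.induction_on with
  | empty => simpa using Tiny.zero (A := A)
  | insert i s hi ih =>
    simp only [Finset.sum_insert hi]
    exact (h i (Finset.mem_insert_self _ _)).add (ih fun j hj => h j (Finset.mem_insert_of_mem hj))

theorem Tiny.congr (hf : Tiny f) (h : ∀ t, 0 < t → t ≤ 1 / 2 → g t = f t) : Tiny g := by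
  obtain ⟨C, n, h1⟩ := hf
  exact ⟨C, n, fun t ht h2 => h t ht h2 ▸ h1 t ht h2⟩

theorem Tiny.smul_const {c : ℝ → ℝ} (hc : Tiny c) (a : A) : Tiny (fun t => c t • a) := by
  exact tiny_iff.2 ((tiny_iff.1 hc).of_mul (temp_iff.1 (Temp.const a)) (fun _ => mul_one _)
    fun t _ _ => (norm_smul _ _).le)

theorem Tiny.tendsto (hf : Tiny f) : Filter.Tendsto f (nhdsWithin 0 (Ioi 0)) (nhds 0) := by
  obtain ⟨D, -, h⟩ := tiny_le hf
  have h1 : Filter.Tendsto (fun t : ℝ => D * Real.exp (Real.log t / 4)) (nhdsWithin 0 (Ioi 0))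
      (nhds 0) := by
    simpa using (Real.tendsto_exp_atBot.comp
      (Real.tendsto_log_nhdsGT_zero.atBot_div_const (by norm_num : (0 : ℝ) < 4))).const_mul D
  refine squeeze_zero_norm' ?_ h1
  filter_upwards [Ioc_mem_nhdsGT (by norm_num : (0 : ℝ) < 1 / 2)] with t ht
  exact h t ht.1 ht.2

/-- composition with `t ↦ t / (1 + t)` -/
theorem Tiny.comp (hf : Tiny f) : Tiny (fun t => f (t / (1 + t))) := by
  exact tiny_iff.2 ((tiny_iff.1 hf).comp (fun _ => Real.sqrt_nonneg _)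
    fun _ _ h => Real.sqrt_le_sqrt h)

theorem Temp.comp (hf : Temp f) : Temp (fun t => f (t / (1 + t))) := by
  exact temp_iff.2 ((temp_iff.1 hf).comp (fun _ => zero_le_one) fun _ _ _ => le_rfl)

theorem temp_pw (N : ℕ) (a : A) : Temp (pw N a) := by
  refine Temp.sum (Finset.range (N + 1))
    (F := fun n t => (Real.log t ^ n / n.factorial) • a ^ n) fun n _ => ⟨‖a ^ n‖, n, fun t ht h2 => ?_⟩
  have h0 := Real.log_nonpos ht.le (by linarith)
  have h3 : (1 : ℝ) ≤ n.factorial := by exact_mod_cast n.factorial_pos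
  rw [norm_smul, mul_comm, Real.norm_eq_abs, abs_div, abs_pow, abs_of_nonpos h0, Nat.abs_cast]
  refine mul_le_mul_of_nonneg_left ((div_le_self (pow_nonneg (by linarith) _) h3).trans ?_)
    (norm_nonneg _)
  exact pow_le_pow_left₀ (by linarith) (by linarith) n

theorem pw_mul_of_commute {N : ℕ} {a b : A} (h : Commute a b) (ha : a ^ (N + 1) = 0)
    (hb : b ^ (N + 1) = 0) (hab : (a + b) ^ (N + 1) = 0) (t : ℝ) :
    pw N (a + b) t = pw N a t * pw N b t := by
  let _ := qm A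
  change ex N (a + b) (Real.log t) = ex N a (Real.log t) * ex N b (Real.log t)
  rw [ex_eq ha, ex_eq hb, ex_eq hab, smul_add]
  exact IsNilpotent.exp_add_of_commute ((h.smul_left _).smul_right _)
    (nil_smul ha _) (nil_smul hb _)

theorem pw_zero (N : ℕ) (t : ℝ) : pw N (0 : A) t = 1 := by
  simp [pw, Finset.sum_range_succ']

theorem pw_mul_neg {N : ℕ} {a : A} (ha : a ^ (N + 1) = 0) (t : ℝ) :
    pw N a t * pw N (-a) t = 1 ∧ pw N (-a) t * pw N a t = 1 := by
  have hb : (-a) ^ (N + 1) = 0 := by rw [neg_pow, ha, mul_zero]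
  constructor
  · rw [← pw_mul_of_commute (Commute.refl a).neg_right ha hb (by simp), add_neg_cancel, pw_zero]
  · rw [← pw_mul_of_commute (Commute.refl a).neg_left hb ha (by simp), neg_add_cancel, pw_zero]

theorem commute_pw {N : ℕ} {a c : A} (h : Commute c a) (t : ℝ) : Commute c (pw N a t) := by
  exact Commute.sum_right _ _ _ fun n _ => (h.pow_right n).smul_right _

theorem tiny_pw_comp {N : ℕ} {a : A} (ha : a ^ (N + 1) = 0) :
    Tiny (fun t => pw N a (t / (1 + t)) - pw N a t) := by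
  have h1 : Tiny fun t => ex N a (-Real.log (1 + t)) - 1 := by
    have h2 := Tiny.sum (Finset.range N) (F := fun n t =>
      ((-Real.log (1 + t)) ^ (n + 1) / (n + 1).factorial : ℝ) • a ^ (n + 1)) fun n _ =>
        Tiny.smul_const ⟨1, 0, fun t ht h3 => by
          obtain ⟨h4, h5⟩ := log_one_add ht
          have h6 : (1 : ℝ) ≤ (n + 1).factorial := by exact_mod_cast (n + 1).factorial_pos
          have h7 : t ≤ √t := by
            rw [Real.le_sqrt ht.le ht.le]
            nlinarith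
          rw [Real.norm_eq_abs, abs_div, abs_pow, abs_neg, abs_of_nonneg h4, Nat.abs_cast, pow_zero,
            mul_one, one_mul]
          refine (div_le_self (pow_nonneg h4 _) h6).trans ?_
          exact (pow_le_of_le_one h4 (by linarith) (Nat.succ_ne_zero n)).trans (h5.trans h7)⟩ _
    refine h2.congr fun t _ _ => ?_
    simp [ex, Finset.sum_range_succ']
  refine (h1.temp_mul (temp_pw N a)).congr fun t ht _ => ?_
  change ex N a (Real.log (t / (1 + t))) - ex N a (Real.log t) = ex N a (Real.log t) * _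
  rw [comp_log ht, ex_add ha, mul_sub, mul_one]

/-- Gronwall estimate for a family of linear equations with small coefficients -/
theorem tiny_gronwall {K M : ℝ → ℝ → A} {t0 t1 : ℝ → ℝ} {m : ℝ → ℝ} (hm : Tiny m)
    (h01 : ∀ ε, 0 < ε → ε ≤ 1 / 2 → t0 ε ≤ t1 ε ∧ t1 ε - t0 ε ≤ 1 ∧ K ε (t0 ε) = 1 ∧
      ∀ t ∈ Icc (t0 ε) (t1 ε), HasDerivAt (K ε) (M ε t * K ε t) t ∧ ‖M ε t‖ ≤ m ε) :
    Tiny (fun ε => K ε (t1 ε) - 1) := by
  obtain ⟨D, hD, hb⟩ := tiny_le hm
  refine tiny_iff.2 ((tiny_iff.1 hm).of_mul (temp_iff.1 (Temp.const (Real.exp D)))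
    (fun _ => mul_one _) fun ε h1 h2 => ?_)
  obtain ⟨a1, a2, a3, a4⟩ := h01 ε h1 h2
  have m0 : 0 ≤ m ε := (norm_nonneg _).trans (a4 _ ⟨le_rfl, a1⟩).2
  have m1 : m ε ≤ D := by
    refine (le_abs_self _).trans ((hb ε h1 h2).trans (mul_le_of_le_one_right hD ?_))
    rw [Real.exp_le_one_iff]
    linarith [Real.log_nonpos h1.le (by linarith)]
  have h3 := norm_le_gronwallBound_of_norm_deriv_right_le (f := fun t => K ε t - 1)
    (f' := fun t => M ε t * K ε t) (δ := 0) (K := m ε) (ε := m ε) (a := t0 ε) (b := t1 ε)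
    (fun t ht => ((a4 t ht).1.sub_const 1).continuousAt.continuousWithinAt)
    (fun t ht => ((a4 t (Ico_subset_Icc_self ht)).1.sub_const 1).hasDerivWithinAt)
    (by simp [a3])
    (fun t ht => by
      have e : M ε t * K ε t = M ε t * (K ε t - 1) + M ε t := by rw [mul_sub, mul_one, sub_add_cancel]
      have h4 := (a4 t (Ico_subset_Icc_self ht)).2
      rw [e]
      exact (norm_add_le _ _).trans (add_le_add ((norm_mul_le _ _).trans
        (mul_le_mul_of_nonneg_right h4 (norm_nonneg _))) h4)) (t1 ε) ⟨a1, le_rfl⟩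
  refine (h3.trans (gronwallBound_mono le_rfl m0 m0 a2)).trans ?_
  rw [Real.norm_of_nonneg m0, Real.norm_of_nonneg (Real.exp_pos D).le]
  by_cases h0 : m ε = 0
  · simp [h0, gronwallBound_K0]
  · rw [gronwallBound_of_K_ne_0 h0]
    simp only [zero_mul, zero_add, mul_one, div_self h0, one_mul]
    have h5 := Real.add_one_le_exp (-m ε)
    have h6 : Real.exp (-m ε) * Real.exp (m ε) = 1 := by rw [← Real.exp_add]; simp
    have h7 := Real.exp_pos (m ε)
    have h8 : Real.exp (m ε) ≤ Real.exp D := Real.exp_le_exp.2 m1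
    nlinarith

end Vale.Agent.P029
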