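import Vale.Agent.P029.Fil

/-! Definitions for the analytic part. -/

noncomputable section

namespace Vale.Agent.P029

/-- regularised iterated integrals; the letter `0` stands for `dt / t`, the letter `1` for
`dt / (t - 1)` -/
def gi : List (Fin 2) → ℝ → ℝ
  | [], _ => 1
  | i :: w, t =>
    if i = 0 then
      if ∀ j ∈ w, j = 0 then Real.log t ^ (w.length + 1) / (w.length + 1).factorial
      else ∫ τ in (0 : ℝ)..t, gi w τ / τ
    else ∫ τ in (0 : ℝ)..t, gi w τ / (τ - 1)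

/-- sum over all words of a given length -/
def wsum {M : Type} [AddCommMonoid M] : ℕ → (List (Fin 2) → M) → M
  | 0, f => f []
  | n + 1, f => wsum n (fun w => f (0 :: w)) + wsum n (fun w => f (1 :: w))

/-- the monomial of a word -/
def wd (w : List (Fin 2)) : T ℝ := (w.map (FreeAlgebra.ι ℝ)).prod

/-- the truncated fundamental solution -/
def GT (N : ℕ) (t : ℝ) : T ℝ := ∑ n ∈ Finset.range (N + 1), wsum n (fun w => gi w t • wd w)

/-- the truncated inverse -/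
def invT (N : ℕ) (m : T ℝ) : T ℝ := ∑ n ∈ Finset.range (N + 1), (1 - m) ^ n

/-- the truncated associator -/
def KZ (N : ℕ) : T ℝ := invT N (ev (Y ℝ) (X ℝ) (GT N (1 / 2))) * GT N (1 / 2)

section
variable {A : Type} [NormedRing A] [NormedAlgebra ℝ A]

/-- `t ^ a` for a nilpotent element -/
def pw (N : ℕ) (a : A) (t : ℝ) : A :=
  ∑ n ∈ Finset.range (N + 1), (Real.log t ^ n / n.factorial) • a ^ n

/-- logarithmic growth at zero -/
def Temp (f : ℝ → A) : Prop :=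
  ∃ (C : ℝ) (n : ℕ), ∀ t, 0 < t → t ≤ 1 / 2 → ‖f t‖ ≤ C * (1 - Real.log t) ^ n

/-- decay at zero -/
def Tiny (f : ℝ → A) : Prop :=
  ∃ (C : ℝ) (n : ℕ), ∀ t, 0 < t → t ≤ 1 / 2 → ‖f t‖ ≤ C * √t * (1 - Real.log t) ^ n

/-- the open cell -/
def cell : Set (ℝ × ℝ) := Set.Ioo 0 1 ×ˢ Set.Ioo 0 1

def cP (s : Fin 5 → A) (p : ℝ × ℝ) : A :=
  p.1⁻¹ • s 0 + (p.1 - 1)⁻¹ • s 2 - (p.2 / (1 - p.1 * p.2)) • (s 3 - s 2 - s 4)

def cQ (s : Fin 5 → A) (p : ℝ × ℝ) : A :=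
  p.2⁻¹ • s 1 + (p.2 - 1)⁻¹ • s 4 - (p.1 / (1 - p.1 * p.2)) • (s 3 - s 2 - s 4)

/-- a flat section on the cell -/
def Flat (s : Fin 5 → A) (F : ℝ × ℝ → A) : Prop :=
  ∀ p ∈ cell, IsUnit (F p) ∧ HasFDerivAt F
    ((ContinuousLinearMap.fst ℝ ℝ ℝ).smulRight (cP s p * F p) +
      (ContinuousLinearMap.snd ℝ ℝ ℝ).smulRight (cQ s p * F p)) p

/-- the rotation of the cell -/
def rot (p : ℝ × ℝ) : ℝ × ℝ := ((1 - p.2) / (1 - p.1 * p.2), p.1)

/-- the residues along the five sides -/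
def sides (t : Fin 5 → Fin 5 → A) : Fin 5 → A := ![t 0 1, t 3 4, t 1 2, t 4 0, t 2 3]

end

end Vale.Agent.P029
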