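import Vale.Agent.P029.KDefs
import Vale.Agent.P029.Fam

/-! Flatness of the connection and the rotation of the cell. -/

noncomputable section

namespace Vale.Agent.P029

open Set

variable {A : Type} [NormedRing A] [NormedAlgebra ℝ A]

namespace KRotAux

theorem one_sub_pos {x y : ℝ} (hx : x ∈ Ioo (0 : ℝ) 1) (hy : y ∈ Ioo (0 : ℝ) 1) :
    0 < 1 - x * y :=
  sub_pos.2 (mul_lt_one_of_nonneg_of_lt_one_left hx.1.le hx.2 hy.2.le)

theorem comm_aux {a b c d k : A} (h1 : Commute a c) (h2 : Commute a d) (h3 : Commute b c)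
    (h4 : Commute b (d + k)) (h5 : Commute d (b + k)) (h6 : Commute k (a - c + b)) {x y : ℝ}
    (hx : x ∈ Ioo (0 : ℝ) 1) (hy : y ∈ Ioo (0 : ℝ) 1) :
    Commute (x⁻¹ • a + (x - 1)⁻¹ • b - (y / (1 - x * y)) • k)
      (y⁻¹ • c + (y - 1)⁻¹ • d - (x / (1 - x * y)) • k) := by
  have e4 : k * b = b * k + b * d - d * b := by
    have := h4.eq
    rw [mul_add, add_mul] at this
    rw [add_comm, this, add_sub_cancel_left]
  have e5 : k * d = d * k + d * b - b * d := by
    have := h5.eq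
    rw [mul_add, add_mul] at this
    rw [add_comm, this, add_sub_cancel_left]
  have e6 : k * a = a * k - c * k + k * c - (b * d - d * b) := by
    have := h6.eq
    rw [mul_add, add_mul, mul_sub, sub_mul, e4] at this
    rw [← sub_eq_zero] at this ⊢
    rw [← this]
    abel
  have n1 := hx.1.ne'
  have n2 := hy.1.ne'
  have n3 := (sub_neg.2 hx.2).ne
  have n4 := (sub_neg.2 hy.2).ne
  have n5 := (one_sub_pos hx hy).ne'
  have n6 := (one_sub_pos hy hx).ne'
  rw [Commute, SemiconjBy]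
  simp only [mul_add, add_mul, mul_sub, sub_mul, smul_mul_assoc, mul_smul_comm, ← h1.eq, ← h2.eq,
    ← h3.eq, e4, e5, e6]
  match_scalars <;> field_simp <;> ring

end KRotAux

open KRotAux

theorem cP_commute {t : Fin 5 → Fin 5 → A} (ht : Fam5 t) {p : ℝ × ℝ} (hp : p ∈ cell) :
    Commute (cP (sides t) p) (cQ (sides t) p) := by
  have e1 : t 1 2 + t 2 3 + t 1 3 = t 4 0 := ht.tri (K := ℝ) (by unfold D5; decide)
  have e2 : t 0 1 + t 1 2 + t 0 2 = t 3 4 := ht.tri (K := ℝ) (by unfold D5; decide)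
  have e3 : t 4 0 - t 1 2 - t 2 3 = t 1 3 := by
    rw [← e1]
    abel
  have c : ∀ i j k l : Fin 5, (i ≠ k ∧ i ≠ l ∧ j ≠ k ∧ j ≠ l) → Commute (t i j) (t k l) :=
    fun i j k l h => ht.comm i j k l h.1 h.2.1 h.2.2.1 h.2.2.2
  have key := comm_aux (a := t 0 1) (b := t 1 2) (c := t 3 4) (d := t 2 3) (k := t 1 3)
    (c _ _ _ _ (by decide)) (c _ _ _ _ (by decide)) (c _ _ _ _ (by decide))
    (by
      have : t 2 3 + t 1 3 = t 4 0 - t 1 2 := by
        rw [← e1]
        abel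
      rw [this]
      exact (c _ _ _ _ (by decide)).sub_right (Commute.refl _))
    (by
      have : t 1 2 + t 1 3 = t 4 0 - t 2 3 := by
        rw [← e1]
        abel
      rw [this]
      exact (c _ _ _ _ (by decide)).sub_right (Commute.refl _))
    (by
      have : t 0 1 - t 3 4 + t 1 2 = - t 0 2 := by
        rw [← e2]
        abel
      rw [this]
      exact (c _ _ _ _ (by decide)).neg_right) hp.1 hp.2
  rw [← e3] at key
  exact key

theorem rot_mem {p : ℝ × ℝ} (hp : p ∈ cell) : rot p ∈ cell := by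
  have h := one_sub_pos hp.1 hp.2
  refine ⟨⟨div_pos (sub_pos.2 hp.2.2) h, (div_lt_one h).2 ?_⟩, hp.1⟩
  nlinarith [hp.1.2, hp.2.1]

namespace KRotAux

theorem rot_two {x y : ℝ} (hx : x ∈ Ioo (0 : ℝ) 1) (hy : y ∈ Ioo (0 : ℝ) 1) :
    rot (rot (x, y)) = (1 - x * y, (1 - y) / (1 - x * y)) := by
  have n3 := (sub_pos.2 hx.2).ne'
  have n5 := (one_sub_pos hx hy).ne'
  have n6 := (one_sub_pos hy hx).ne'
  have e : 1 - (1 - y) / (1 - x * y) * x = (1 - x) / (1 - x * y) := by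
    field_simp
    ring
  simp only [rot, e, Prod.mk.injEq, and_true]
  field_simp

end KRotAux

theorem rot_five {p : ℝ × ℝ} (hp : p ∈ cell) : rot (rot (rot (rot (rot p)))) = p := by
  obtain ⟨x, y⟩ := p
  have hx : x ∈ Ioo (0 : ℝ) 1 := hp.1
  have hy : y ∈ Ioo (0 : ℝ) 1 := hp.2
  have h2 := rot_mem (rot_mem hp)
  rw [rot_two hx hy] at h2 ⊢
  have n2 := hy.1.ne'
  have n4 := (sub_pos.2 hy.2).ne'
  have n5 := (one_sub_pos hx hy).ne'
  have n6 := (one_sub_pos hy hx).ne'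
  have e1 : 1 - (1 - x * y) * ((1 - y) / (1 - x * y)) = y := by
    field_simp
    ring
  have e2 : (1 - (1 - y) / (1 - x * y)) / y = (1 - x) / (1 - x * y) := by
    field_simp
    ring
  have e3 : 1 - y * ((1 - x) / (1 - x * y)) = (1 - y) / (1 - x * y) := by
    field_simp
    ring
  rw [rot_two h2.1 h2.2, e1, e2]
  simp only [rot, e3, Prod.mk.injEq, and_true]
  field_simp
  ring

theorem rot_diag {ε : ℝ} (h0 : 0 < ε) (h1 : ε < 1) : rot (ε, ε) = (1 / (1 + ε), ε) := by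
  have n1 : 1 - ε ≠ 0 := (sub_pos.2 h1).ne'
  have n2 : 1 + ε ≠ 0 := by positivity
  have e : 1 - ε * ε = (1 - ε) * (1 + ε) := by ring
  simp only [rot, e, Prod.mk.injEq, and_true]
  field_simp

theorem Flat.rot {s : Fin 5 → A} {F : ℝ × ℝ → A} (h : Flat s F) :
    Flat (fun i => s (i + 1)) (fun p => F (rot p)) := by
  rintro ⟨x, y⟩ hp
  have hx : x ∈ Ioo (0 : ℝ) 1 := hp.1
  have hy : y ∈ Ioo (0 : ℝ) 1 := hp.2
  have n1 := hx.1.ne'
  have n2 := hy.1.ne'
  have n3 := (sub_neg.2 hx.2).ne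
  have n4 := (sub_neg.2 hy.2).ne
  have n3' := (sub_pos.2 hx.2).ne'
  have n4' := (sub_pos.2 hy.2).ne'
  have n5 := (one_sub_pos hx hy).ne'
  have n6 := (one_sub_pos hy hx).ne'
  have d1 : HasFDerivAt (fun p : ℝ × ℝ => (1 - p.2) / (1 - p.1 * p.2))
      (((1 - y) * y / (1 - x * y) ^ 2) • ContinuousLinearMap.fst ℝ ℝ ℝ +
        ((x - 1) / (1 - x * y) ^ 2) • ContinuousLinearMap.snd ℝ ℝ ℝ) (x, y) := by
    have a1 := (hasFDerivAt_fst (𝕜 := ℝ) (p := (x, y))).fun_mul hasFDerivAt_snd |>.const_sub 1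
    have a2 := ((hasFDerivAt_snd (𝕜 := ℝ) (p := (x, y))).const_sub 1).fun_mul
      ((hasDerivAt_inv n5).comp_hasFDerivAt (x, y) a1)
    refine a2.congr_fderiv ?_
    ext <;> simp <;> field_simp <;> ring
  have e1 : 1 - (1 - y) / (1 - x * y) * x = (1 - x) / (1 - x * y) := by
    field_simp
    ring
  have e2 : (1 - y) / (1 - x * y) - 1 = y * (x - 1) / (1 - x * y) := by
    field_simp
    ring
  have p1 : ((1 - y) * y / (1 - x * y) ^ 2) • cP s (P029.rot (x, y)) + cQ s (P029.rot (x, y)) =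
      cP (fun i => s (i + 1)) (x, y) := by
    simp only [cP, cQ, P029.rot, e1, e2, Fin.reduceAdd]
    match_scalars <;> field_simp <;> ring
  have p2 : ((x - 1) / (1 - x * y) ^ 2) • cP s (P029.rot (x, y)) =
      cQ (fun i => s (i + 1)) (x, y) := by
    simp only [cP, cQ, P029.rot, e1, e2, Fin.reduceAdd]
    match_scalars <;> field_simp <;> ring
  refine ⟨(h _ (rot_mem hp)).1, ?_⟩
  refine ((h _ (rot_mem hp)).2.comp (x, y) (d1.prodMk hasFDerivAt_fst)).congr_fderiv ?_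
  rw [← p1, ← p2]
  ext <;> simp [add_mul]

theorem Flat.line {s : Fin 5 → A} {F : ℝ × ℝ → A} (h : Flat s F) {t ε : ℝ}
    (hp : (t, ε) ∈ cell) : HasDerivAt (fun τ => F (τ, ε)) (cP s (t, ε) * F (t, ε)) t := by
  refine ((h _ hp).2.comp_hasDerivAt t
    ((hasDerivAt_id' t).prodMk (hasDerivAt_const t ε))).congr_deriv ?_
  simp

end Vale.Agent.P029
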