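import Vale.Agent.P029.KTwo
import Vale.Agent.P029.KRot

/-! Transport along a side, and the pentagon. -/

noncomputable section

namespace Vale.Agent.P029

open Set

variable {A : Type} [NormedRing A] [NormedAlgebra ℝ A] [CompleteSpace A] {N : ℕ}

namespace KEdgeAux

/-- two functions agree up to a small error -/
def Near (f g : ℝ → A) : Prop := Temp g ∧ Tiny fun t => f t - g t

theorem Near.refl {f : ℝ → A} (h : Temp f) : Near f f :=
  ⟨h, Tiny.zero.congr fun _ _ _ => sub_self _⟩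

theorem Near.add {E : ℝ → A} (c : A) (h : Tiny E) : Near (fun t => c + E t) fun _ => c :=
  ⟨Temp.const c, h.congr fun _ _ _ => add_sub_cancel_left _ _⟩

theorem Near.mul {f g f' g' : ℝ → A} (h : Near f g) (h' : Near f' g') :
    Near (fun t => f t * f' t) fun t => g t * g' t :=
  ⟨h.1.mul h'.1, ((h.2.mul_temp (h'.2.temp.add h'.1)).add (h'.2.temp_mul h.1)).congr
    fun t _ _ => by rw [sub_add_cancel, sub_mul, mul_sub, sub_add_sub_cancel]⟩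

theorem temp_mono {f : ℝ → A} (hf : Temp f) :
    ∃ g : ℝ → ℝ, Temp g ∧ ∀ ε t, 0 < ε → ε ≤ t → t ≤ 1 / 2 → ‖f t‖ ≤ g ε := by
  obtain ⟨C, n, hC⟩ := hf
  have hl : ∀ t : ℝ, 0 < t → t ≤ 1 / 2 → 0 ≤ 1 - Real.log t := fun t h0 h1 => by
    linarith [Real.log_nonpos h0.le (by linarith)]
  refine ⟨fun t => |C| * (1 - Real.log t) ^ n, ⟨|C|, n, fun t h0 h1 => ?_⟩,
    fun ε t h0 h1 h2 => (hC t (h0.trans_le h1) h2).trans ?_⟩
  · exact (Real.norm_of_nonneg (mul_nonneg (abs_nonneg _) (pow_nonneg (hl t h0 h1) _))).le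
  · exact mul_le_mul (le_abs_self C) (pow_le_pow_left₀ (hl t (h0.trans_le h1) h2)
      (by linarith [Real.log_le_log h0 h1]) n) (pow_nonneg (hl t (h0.trans_le h1) h2) _)
      (abs_nonneg _)

theorem tiny_two : Tiny fun t : ℝ => 2 * t := by
  refine ⟨2, 0, fun t h0 h1 => ?_⟩
  rw [Real.norm_of_nonneg (by positivity), pow_zero, mul_one]
  exact mul_le_mul_of_nonneg_left (Real.le_sqrt_of_sq_le (by nlinarith)) zero_le_two

theorem transport {F : ℝ → ℝ → A} {P U V : ℝ → A} {k : A} {t0 t1 g : ℝ → ℝ} (hg : Temp g)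
    (hUV : ∀ t, V t * U t = 1 ∧ U t * V t = 1)
    (hV : ∀ t ∈ Ioo (0 : ℝ) 1, HasDerivAt V (-(V t * P t)) t)
    (hF : ∀ ε ∈ Ioo (0 : ℝ) 1, ∀ t ∈ Ioo (0 : ℝ) 1, IsUnit (F ε t) ∧
      HasDerivAt (F ε) ((P t - (ε / (1 - t * ε)) • k) * F ε t) t)
    (h01 : ∀ ε, 0 < ε → ε ≤ 1 / 2 → 0 < t0 ε ∧ t0 ε ≤ t1 ε ∧ t1 ε < 1 ∧
      ∀ t ∈ Icc (t0 ε) (t1 ε), ‖V t * k * U t‖ ≤ g ε) :
    ∃ E : ℝ → A, Tiny E ∧ ∀ ε, 0 < ε → ε ≤ 1 / 2 →
      F ε (t1 ε) = U (t1 ε) * (1 + E ε) * V (t0 ε) * F ε (t0 ε) := by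
  refine ⟨_, tiny_gronwall (K := fun ε t => V t * F ε t * (Ring.inverse (F ε (t0 ε)) * U (t0 ε)))
    (M := fun ε t => -((ε / (1 - t * ε)) • (V t * k * U t))) (t0 := t0) (t1 := t1)
    (tiny_two.mul_temp hg) fun ε h0 h1 => ?_, fun ε h0 h1 => ?_⟩
  · obtain ⟨a1, a2, a3, a4⟩ := h01 ε h0 h1
    have he : ε ∈ Ioo (0 : ℝ) 1 := ⟨h0, by linarith⟩
    refine ⟨a2, by linarith, ?_, fun t ht => ⟨?_, ?_⟩⟩
    · rw [mul_assoc, Ring.mul_inverse_cancel_left _ _ (hF ε he _ ⟨a1, a2.trans_lt a3⟩).1,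
        (hUV _).1]
    · have ht' : t ∈ Ioo (0 : ℝ) 1 := ⟨a1.trans_le ht.1, ht.2.trans_lt a3⟩
      refine (((hV t ht').fun_mul (hF ε he t ht').2).mul_const _).congr_deriv ?_
      rw [← mul_assoc _ (V t * F ε t)]
      congr 1
      rw [neg_mul, neg_mul, smul_mul_assoc, mul_assoc _ (U t), ← mul_assoc (U t), (hUV t).2,
        one_mul, sub_mul, mul_sub, mul_assoc, smul_mul_assoc, mul_smul_comm, mul_assoc]
      abel
    · have b1 : 1 / 2 ≤ 1 - t * ε := by nlinarith [ht.2.trans_lt a3]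
      rw [norm_neg, norm_smul, Real.norm_of_nonneg (div_nonneg h0.le (by linarith))]
      exact mul_le_mul ((div_le_iff₀ (by linarith)).2 (by nlinarith)) (a4 t ht) (norm_nonneg _)
        (by positivity)
  · obtain ⟨a1, a2, a3, -⟩ := h01 ε h0 h1
    have hu := (hF ε ⟨h0, by linarith⟩ _ ⟨a1, a2.trans_lt a3⟩).1
    rw [add_sub_cancel]
    simp only [← mul_assoc, (hUV _).2, one_mul]
    rw [mul_assoc _ (U _), (hUV _).2, mul_one, Ring.inverse_mul_cancel_right _ _ hu]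

end KEdgeAux

open KOneAux KEdgeAux

theorem edge {s : Fin 5 → A} {F : ℝ × ℝ → A} (hN : Nil ℝ N (range s)) (h : Flat s F)
    (h10 : Commute (s 1) (s 0)) (h12 : Commute (s 1) (s 2)) :
    ∃ E : ℝ → A, Tiny E ∧ ∀ ε, 0 < ε → ε ≤ 1 / 2 → F (1 / (1 + ε), ε) =
      pw N (s 1 + s 2) ε * (ev (s 0) (s 2) (KZ N) + E ε) * pw N (-(s 0 + s 1)) ε * F (ε, ε) := by
  have m : ∀ i, s i ∈ Submodule.span ℝ (range s) := fun i => Submodule.subset_span ⟨i, rfl⟩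
  have n1 : Nil ℝ N {s 0, s 2} := hN.mono le_rfl (pair_subset (m 0) (m 2))
  have n2 : Nil ℝ N {s 2, s 0} := hN.mono le_rfl (pair_subset (m 2) (m 0))
  have hF : ∀ ε ∈ Ioo (0 : ℝ) 1, ∀ t ∈ Ioo (0 : ℝ) 1, IsUnit (F (t, ε)) ∧
      HasDerivAt (fun τ => F (τ, ε)) ((t⁻¹ • s 0 + (t - 1)⁻¹ • s 2 -
        (ε / (1 - t * ε)) • (s 3 - s 2 - s 4)) * F (t, ε)) t :=
    fun ε he t ht => ⟨(h (t, ε) ⟨ht, he⟩).1, h.line ⟨ht, he⟩⟩
  obtain ⟨g1, hg1, b1⟩ := temp_mono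
    (((Ginv_temp N (s 0) (s 2)).mul (Temp.const (s 3 - s 2 - s 4))).mul (G_temp N (s 0) (s 2)))
  obtain ⟨g2, hg2, b2⟩ := temp_mono
    (((Ginv_temp N (s 2) (s 0)).mul (Temp.const (s 3 - s 2 - s 4))).mul (G_temp N (s 2) (s 0)))
  obtain ⟨E1, hE1, e1⟩ := transport (F := fun ε t => F (t, ε)) (t0 := fun ε => ε)
    (t1 := fun _ => 1 / 2) hg1 (fun t => ev_invT n1 (GT_sub_one N t))
    (fun t ht => Ginv_deriv n1 ht) hF
    fun ε h0 h1 => ⟨h0, h1, by norm_num, fun t ht => b1 ε t h0 ht.1 ht.2⟩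
  have q : ∀ ε : ℝ, 0 < ε → 1 - 1 / (1 + ε) = ε / (1 + ε) := fun ε h0 => by
    field_simp
    ring
  obtain ⟨E2, hE2, e2⟩ := transport (F := fun ε t => F (t, ε)) (t0 := fun _ => 1 / 2)
    (t1 := fun ε => 1 / (1 + ε)) hg2.comp (fun t => ev_invT n2 (GT_sub_one N (1 - t)))
    (fun t ht => by
      refine ((Ginv_deriv n2 (t := 1 - t) ⟨by linarith [ht.2], by linarith [ht.1]⟩).scomp t
        ((hasDerivAt_id' t).const_sub 1)).congr_deriv ?_
      rw [neg_smul, one_smul, neg_neg, sub_sub_cancel_left, ← neg_sub t 1, inv_neg, inv_neg,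
        neg_smul, neg_smul, ← neg_add, add_comm _ (t⁻¹ • s 0), mul_neg, neg_sub]) hF
    fun ε h0 h1 => ⟨by norm_num, one_div_le_one_div_of_le (by positivity) (by linarith),
      (div_lt_one (by positivity)).2 (by linarith), fun t ht => b2 _ (1 - t) (by positivity)
        (by rw [← q ε h0]; linarith [ht.2]) (by linarith [ht.1])⟩
  have h3 : ev (s 0) (s 2) (KZ N) = ev (s 2) (s 0) (invT N (GT N (1 - 1 / 2))) *
      ev (s 0) (s 2) (GT N (1 / 2)) := by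
    rw [KZ, map_mul, ev_invT_eq, ev_invT_eq, map_ev, ev_X, ev_Y, sub_half]
  have r1 : Near (fun ε => ev (s 2) (s 0) (GT N (ε / (1 + ε)))) (pw N (s 2)) :=
    ⟨temp_pw _ _, ((G_tiny N (s 2) (s 0)).comp.add (tiny_pw_comp (nil_pow hN (m 2)))).congr
      fun _ _ _ => (sub_add_sub_cancel _ _ _).symm⟩
  have r2 := ((((((Near.refl (temp_pw N (-(s 1 + s 2)))).mul r1).mul (Near.add 1 hE2)).mul
    (Near.refl (Temp.const (ev (s 0) (s 2) (KZ N))))).mul (Near.add 1 hE1)).mul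
    ⟨temp_pw _ _, Ginv_tiny n1⟩).mul (Near.refl (temp_pw N (s 0 + s 1)))
  refine ⟨_, r2.2, fun ε h0 h1 => ?_⟩
  have p1 : pw N (-(s 1 + s 2)) ε * pw N (s 2) ε = pw N (-s 1) ε := by
    rw [← pw_mul_of_commute (h12.add_left (Commute.refl _)).neg_left
      (nil_pow hN (neg_mem (add_mem (m 1) (m 2)))) (nil_pow hN (m 2))
      (nil_pow hN (add_mem (neg_mem (add_mem (m 1) (m 2))) (m 2))), neg_add, neg_add_cancel_right]
  have p2 : pw N (-s 0) ε * pw N (s 0 + s 1) ε = pw N (s 1) ε := by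
    rw [← pw_mul_of_commute ((Commute.refl _).add_right h10.symm).neg_left
      (nil_pow hN (neg_mem (m 0))) (nil_pow hN (add_mem (m 0) (m 1)))
      (nil_pow hN (add_mem (neg_mem (m 0)) (add_mem (m 0) (m 1)))), neg_add_cancel_left]
  have c := commute_pw (N := N) (commute_ev h10 h12 (KZ N)).symm ε
  beta_reduce
  rw [mul_one, mul_one, p1, mul_assoc _ (pw N (-s 0) ε), p2, mul_assoc (pw N (-s 1) ε), c.eq,
    ← mul_assoc (pw N (-s 1) ε), (pw_mul_neg (nil_pow hN (m 1)) ε).2, one_mul, add_sub_cancel,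
    e2 ε h0 h1, e1 ε h0 h1, q ε h0, h3]
  simp only [← mul_assoc, (pw_mul_neg (nil_pow hN (add_mem (m 1) (m 2))) ε).1, one_mul]
  rw [mul_assoc _ (pw N (s 0 + s 1) ε), (pw_mul_neg (nil_pow hN (add_mem (m 0) (m 1))) ε).1,
    mul_one]

end Vale.Agent.P029
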