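import Vale.Agent.P029.Flow
import Vale.Agent.P029.Dyn
import Vale.Agent.P029.Int

/-! Two truncated associators differ by solutions of the linear equations. -/

noncomputable section

namespace Vale.Agent.P029

open scoped TensorProduct

variable {K : Type} [Field K] [CharZero K]

/-- a truncated polynomial algebra -/
theorem exists_trunc (K : Type) [Field K] (m : ℕ) :
    ∃ (C : Type) (_ : CommRing C) (_ : Algebra K C) (h : C), h ^ (m + 1) = 0 ∧ h ^ m ≠ 0 := by
  refine ⟨AdjoinRoot ((Polynomial.X : Polynomial K) ^ (m + 1)), inferInstance, inferInstance,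
    AdjoinRoot.root _, ?_, ?_⟩
  · rw [← AdjoinRoot.mk_X, ← map_pow, AdjoinRoot.mk_self]
  · rw [← AdjoinRoot.mk_X, ← map_pow, Ne, AdjoinRoot.mk_eq_zero]
    intro h
    have := Polynomial.natDegree_le_of_dvd h (pow_ne_zero _ Polynomial.X_ne_zero)
    simp at this

theorem eq_zero_of_tmul {A C : Type} [AddCommGroup A] [Module K A] [AddCommGroup C] [Module K C]
    {a : A} {c : C} (hc : c ≠ 0) (h : a ⊗ₜ[K] c = 0) : a = 0 := by
  obtain ⟨l, hl⟩ := Module.Projective.exists_dual_eq_one K hc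
  have := congrArg (fun z => TensorProduct.rid K A (LinearMap.lTensor A l z)) h
  simpa [hl] using this

namespace TorsAux

variable {k : Type} [CommRing k] {B : Type} [Ring B] [Algebra k B]

theorem nil_of_central {c : B} (hc : ∀ b, Commute c b) {m : ℕ} (h : c ^ (m + 1) = 0) {S : Set B}
    (hS : ∀ s ∈ S, ∃ b, s = c * b) : Nil k m S := by
  refine nil_iff_list.2 fun l hl hn => ?_
  have key : ∀ l : List B, (∀ a ∈ l, a ∈ S) → ∃ b, l.prod = c ^ l.length * b := by
    intro l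
    induction l with
    | nil => intro _; exact ⟨1, by simp⟩
    | cons a l ih =>
      intro hl
      obtain ⟨b, hb⟩ := ih fun x hx => hl x (by simp [hx])
      obtain ⟨b', hb'⟩ := hS a (hl a (by simp))
      refine ⟨b' * b, ?_⟩
      rw [List.prod_cons, List.length_cons, hb, hb', pow_succ', mul_assoc, mul_assoc,
        ← mul_assoc b', ← ((hc b').pow_left _).eq, mul_assoc]
  obtain ⟨b, hb⟩ := key l hl
  rw [hb, hn, h, zero_mul]

section pert
variable {m : ℕ} {Φ Φ' ψ : T k} {S : Set B}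

theorem ev_split (hS : Nil k m S) (hd : Φ - Φ' - ψ ∈ Fl (VT k) (m + 1)) {a b : B}
    (ha : a ∈ Submodule.span k S) (hb : b ∈ Submodule.span k S) :
    ev a b Φ = ev a b Φ' + ev a b ψ := by
  have := ev_eq_zero_of_nil hS ha hb hd
  rw [map_sub, map_sub, sub_sub, sub_eq_zero] at this
  exact this

theorem p_mul_u (hS : Nil k m S) (hΦ : Φ' - 1 ∈ Fl (VT k) 2) (hψ : ψ ∈ VT k ^ m) {a b a' b' : B}
    (ha : a ∈ Submodule.span k S) (hb : b ∈ Submodule.span k S) (ha' : a' ∈ Submodule.span k S)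
    (hb' : b' ∈ Submodule.span k S) : ev a b ψ * ev a' b' Φ' = ev a b ψ := by
  have := ev_mul_eq_zero_of_nil hS ha hb ha' hb' (by omega) (pow_le_Fl _ m hψ) hΦ
  rw [map_sub, map_one, mul_sub, mul_one, sub_eq_zero] at this
  exact this

theorem u_mul_p (hS : Nil k m S) (hΦ : Φ' - 1 ∈ Fl (VT k) 2) (hψ : ψ ∈ VT k ^ m) {a b a' b' : B}
    (ha : a ∈ Submodule.span k S) (hb : b ∈ Submodule.span k S) (ha' : a' ∈ Submodule.span k S)
    (hb' : b' ∈ Submodule.span k S) : ev a' b' Φ' * ev a b ψ = ev a b ψ := by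
  have := ev_mul_eq_zero_of_nil hS ha' hb' ha hb (by omega) hΦ (pow_le_Fl _ m hψ)
  rw [map_sub, map_one, sub_mul, one_mul, sub_eq_zero] at this
  exact this

theorem p_mul_p (hS : Nil k m S) (hm : 1 ≤ m) (hψ : ψ ∈ VT k ^ m) {a b a' b' : B}
    (ha : a ∈ Submodule.span k S) (hb : b ∈ Submodule.span k S) (ha' : a' ∈ Submodule.span k S)
    (hb' : b' ∈ Submodule.span k S) : ev a b ψ * ev a' b' ψ = 0 :=
  ev_mul_eq_zero_of_nil hS ha hb ha' hb' (by omega) (pow_le_Fl _ m hψ) (pow_le_Fl _ m hψ)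

end pert

theorem five {ι : Type} (u p : ι → B) (h1 : ∀ i j, p i * u j = p i) (h2 : ∀ i j, u j * p i = p i)
    (h3 : ∀ i j, p i * p j = 0) (a b c d e : ι) :
    (u a + p a) * (u b + p b) * (u c + p c) * (u d + p d) * (u e + p e) =
      u a * u b * u c * u d * u e + (p a + p b + p c + p d + p e) := by
  have h1' : ∀ i j x, p i * (u j * x) = p i * x := fun i j x => by rw [← mul_assoc, h1]
  have h2' : ∀ i j x, u j * (p i * x) = p i * x := fun i j x => by rw [← mul_assoc, h2]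
  have h3' : ∀ i j x, p i * (p j * x) = 0 := fun i j x => by rw [← mul_assoc, h3, zero_mul]
  simp only [add_mul, mul_add, mul_assoc, h1, h2, h3, h1', h2', h3', mul_zero, add_zero]
  abel

section tens
variable {A C : Type} [Ring A] [Algebra k A] [CommRing C] [Algebra k C]

/-- the element `a ⊗ h` -/
def sc (h : C) (a : A) : A ⊗[k] C := ((1 : A) ⊗ₜ[k] h) * (a ⊗ₜ[k] (1 : C))

theorem central (h : C) (b : A ⊗[k] C) : Commute ((1 : A) ⊗ₜ[k] h) b := by
  induction b using TensorProduct.induction_on with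
  | zero => exact Commute.zero_right _
  | tmul a c => simp [Commute, SemiconjBy, mul_comm]
  | add x y hx hy => exact hx.add_right hy

theorem nil_sc {h : C} {m : ℕ} (hh : h ^ (m + 1) = 0) {S : Set (A ⊗[k] C)}
    (hS : ∀ s ∈ S, ∃ a, s = sc h a) : Nil k m S := by
  refine nil_of_central (central h) (by rw [Algebra.TensorProduct.tmul_pow, hh]; simp)
    fun s hs => ?_
  obtain ⟨a, rfl⟩ := hS s hs
  exact ⟨_, rfl⟩

theorem ev_sc (h : C) (a b : A) {m : ℕ} {ψ : T k} (hψ : ψ ∈ VT k ^ m) :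
    ev (sc h a : A ⊗[k] C) (sc h b) ψ = ev a b ψ ⊗ₜ[k] (h ^ m) := by
  have e := map_ev (Algebra.TensorProduct.includeLeft : A →ₐ[k] A ⊗[k] C) a b ψ
  simp only [Algebra.TensorProduct.includeLeft_apply] at e
  rw [sc, sc, ev_central (central h _) (central h _) hψ, ← e, Algebra.TensorProduct.tmul_pow]
  simp

theorem sc_add (h : C) (a b : A) : (sc h (a + b) : A ⊗[k] C) = sc h a + sc h b := by
  rw [sc, sc, sc, TensorProduct.add_tmul, mul_add]

theorem sc_commute (h : C) {a b : A} (hab : Commute a b) :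
    Commute (sc h a : A ⊗[k] C) (sc h b) := by
  simp [sc, Commute, SemiconjBy, hab.eq]

theorem sc_fam (h : C) {t : Fin 5 → Fin 5 → A} (ht : Fam5 t) :
    Fam5 (fun i j => (sc h (t i j) : A ⊗[k] C)) :=
  (ht.map (Algebra.TensorProduct.includeLeft : A →ₐ[k] A ⊗[k] C).toRingHom).central
    fun _ _ => central h _

end tens

end TorsAux

open TorsAux

/-- the leading term of the difference -/
theorem Good.diff {N m : ℕ} (hm : 1 ≤ m) (hN : m ≤ N) {Φ Φ' ψ : T K} (h : Good N Φ)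
    (h' : Good N Φ') (hψ : ψ ∈ VT K ^ m) (hd : Φ - Φ' - ψ ∈ Fl (VT K) (m + 1)) :
    ψ ∈ HT K m ∧ Pent ψ := by
  obtain ⟨C, _, _, c, hc, hc'⟩ := exists_trunc K m
  refine ⟨mem_HT_of_prim hm hψ fun A _ _ a1 b1 a2 b2 h1 h2 h3 h4 => ?_, fun A _ _ t ht => ?_⟩
  · have hS : Nil K m ({sc c a1, sc c b1, sc c a2, sc c b2} : Set (A ⊗[K] C)) :=
      nil_sc hc (by rintro s (rfl | rfl | rfl | rfl) <;> exact ⟨_, rfl⟩)
    have hS' := hS.mono hN Submodule.subset_span
    have m1 := Submodule.subset_span (R := K) (show sc c a1 ∈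
      ({sc c a1, sc c b1, sc c a2, sc c b2} : Set (A ⊗[K] C)) by simp)
    have m2 := Submodule.subset_span (R := K) (show sc c b1 ∈
      ({sc c a1, sc c b1, sc c a2, sc c b2} : Set (A ⊗[K] C)) by simp)
    have m3 := Submodule.subset_span (R := K) (show sc c a2 ∈
      ({sc c a1, sc c b1, sc c a2, sc c b2} : Set (A ⊗[K] C)) by simp)
    have m4 := Submodule.subset_span (R := K) (show sc c b2 ∈
      ({sc c a1, sc c b1, sc c a2, sc c b2} : Set (A ⊗[K] C)) by simp)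
    have e := h.2.1 _ _ _ _ _ (sc_commute c h1) (sc_commute c h2) (sc_commute c h3)
      (sc_commute c h4) hS'
    have e' := h'.2.1 _ _ _ _ _ (sc_commute c h1) (sc_commute c h2) (sc_commute c h3)
      (sc_commute c h4) hS'
    rw [ev_split hS hd (add_mem m1 m3) (add_mem m2 m4), ev_split hS hd m1 m2, ev_split hS hd m3 m4,
      e', add_mul, mul_add, mul_add, u_mul_p hS h'.1 hψ m1 m2 m3 m4,
      p_mul_u hS h'.1 hψ m3 m4 m1 m2, p_mul_p hS hm hψ m3 m4 m1 m2, add_zero, add_assoc,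
      add_right_inj, ← sc_add, ← sc_add, ev_sc c _ _ hψ, ev_sc c _ _ hψ, ev_sc c _ _ hψ,
      ← TensorProduct.add_tmul, ← sub_eq_zero, ← TensorProduct.sub_tmul] at e
    exact sub_eq_zero.1 (eq_zero_of_tmul hc' e)
  · have hS : Nil K m (Set.range fun p : Fin 5 × Fin 5 => (sc c (t p.1 p.2) : A ⊗[K] C)) :=
      nil_sc hc (by rintro s ⟨p, rfl⟩; exact ⟨_, rfl⟩)
    have hS' := hS.mono hN Submodule.subset_span
    have mm : ∀ i j, (sc c (t i j) : A ⊗[K] C) ∈ Submodule.span K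
        (Set.range fun p : Fin 5 × Fin 5 => (sc c (t p.1 p.2) : A ⊗[K] C)) := fun i j =>
      Submodule.subset_span ⟨(i, j), rfl⟩
    have e := h.2.2 _ _ (sc_fam c ht) hS'
    have e' := h'.2.2 _ _ (sc_fam c ht) hS'
    have e5 := five
      (fun q : Fin 5 × Fin 5 × Fin 5 => ev (sc c (t q.1 q.2.1) : A ⊗[K] C) (sc c (t q.2.1 q.2.2)) Φ')
      (fun q : Fin 5 × Fin 5 × Fin 5 => ev (sc c (t q.1 q.2.1) : A ⊗[K] C) (sc c (t q.2.1 q.2.2)) ψ)
      (fun _ _ => p_mul_u hS h'.1 hψ (mm _ _) (mm _ _) (mm _ _) (mm _ _))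
      (fun _ _ => u_mul_p hS h'.1 hψ (mm _ _) (mm _ _) (mm _ _) (mm _ _))
      (fun _ _ => p_mul_p hS hm hψ (mm _ _) (mm _ _) (mm _ _) (mm _ _))
      (2, 3, 4) (4, 0, 1) (1, 2, 3) (3, 4, 0) (0, 1, 2)
    simp only [← ev_split hS hd (mm _ _) (mm _ _)] at e5
    rw [e, e', left_eq_add] at e5
    simp only [ev_sc c _ _ hψ, ← TensorProduct.add_tmul] at e5
    rw [← eq_zero_of_tmul hc' e5]
    abel

theorem Good.neg {N : ℕ} {Φ : T K} (h : Good N Φ) :
    Good N (ev (-X K) (-Y K) Φ) ∧ Φ - ev (-X K) (-Y K) Φ ∈ Fl (VT K) 3 := by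
  have hX : -X K ∈ VT K := neg_mem (Submodule.subset_span (Or.inl rfl))
  have hY : -Y K ∈ VT K := neg_mem (Submodule.subset_span (Or.inr rfl))
  have key : ∀ (A : Type) [Ring A] [Algebra K A] (a b : A),
      ev a b (ev (-X K) (-Y K) Φ) = ev (-a) (-b) Φ := fun A _ _ a b => by
    rw [map_ev]; simp
  refine ⟨⟨?_, fun A _ _ a1 b1 a2 b2 h1 h2 h3 h4 hN => ?_, fun A _ _ t ht hN => ?_⟩, ?_⟩
  · have := ev_mem_Fl hX hY h.1
    rwa [map_sub, map_one] at this
  · rw [key, key, key, neg_add, neg_add]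
    refine h.2.1 A _ _ _ _ h1.neg_left.neg_right h2.neg_left.neg_right h3.neg_left.neg_right
      h4.neg_left.neg_right (hN.mono le_rfl ?_)
    rintro s (rfl | rfl | rfl | rfl) <;> exact neg_mem (Submodule.subset_span (by simp))
  · rw [key, key, key, key, key]
    refine h.2.2 A _ ht.neg (hN.mono le_rfl ?_)
    rintro s ⟨p, rfl⟩
    exact neg_mem (Submodule.subset_span ⟨p, rfl⟩)
  · obtain ⟨p, hp, hq⟩ := Fl_split VT_gen h.1
    have e := ev_smul (-1 : K) (X K) (Y K) hp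
    rw [neg_one_smul, neg_one_smul, ev_self, neg_one_sq, one_smul] at e
    have := sub_mem hq (ev_mem_Fl hX hY hq)
    rw [map_sub, map_sub, map_one, e] at this
    convert this using 1
    abel

theorem exists_of_good {N : ℕ} (hN : 3 ≤ N) (ho : Odd N) {Φ : T K} (h : Good N Φ)
    (hl : lam N Φ ≠ 0) : ∃ ψ ∈ HT K N, Pent ψ ∧ dep ψ ≠ 0 := by
  have key : ∀ m, 3 ≤ m → m ≤ N →
      ∃ Φ' : T K, Good N Φ' ∧ Φ - Φ' ∈ Fl (VT K) m ∧ lam N Φ' = -lam N Φ := by
    intro m hm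
    induction m, hm using Nat.le_induction with
    | base => exact fun _ => ⟨_, h.neg.1, h.neg.2, by rw [lam_neg, ho.neg_one_pow, neg_one_mul]⟩
    | succ m hm ih =>
      intro hm'
      obtain ⟨Φ', g, hd, e⟩ := ih (by omega)
      obtain ⟨ψ, hψ, hd'⟩ := Fl_split VT_gen hd
      obtain ⟨h1, h2⟩ := Good.diff (by omega) (by omega) h g hψ hd'
      obtain ⟨Φ'', g', hd'', e'⟩ := Good.flow hm (by omega) h1 h2 g
      refine ⟨Φ'', g', ?_, e'.trans e⟩
      convert sub_mem hd' hd'' using 1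
      abel
  obtain ⟨Φ', g, hd, e⟩ := key N hN le_rfl
  obtain ⟨ψ, hψ, hd'⟩ := Fl_split VT_gen hd
  obtain ⟨h1, h2⟩ := Good.diff (by omega) le_rfl h g hψ hd'
  refine ⟨ψ, h1, h2, ?_⟩
  have e1 := lam_of_Fl hd'
  rw [lam_sub, lam_sub, e, lam_of_pow hψ] at e1
  intro h0
  apply hl
  have : (2 : K) * lam N Φ = 0 := by linear_combination e1 + h0
  exact (mul_eq_zero.1 this).resolve_left two_ne_zero

/-- descent to the rationals -/
theorem descent {n : ℕ} {ψ : T ℝ} (hψ : ψ ∈ HT ℝ n) (hP : Pent ψ) (hd : dep ψ ≠ 0) :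
    ∃ φ ∈ HT ℚ n, Pent φ ∧ dep φ ≠ 0 := by
  obtain ⟨l, hl⟩ := Module.Projective.exists_dual_ne_zero ℚ hd
  have key : ∀ ψ ∈ HT ℝ n, ∀ r : ℝ, ∃ φ ∈ HT ℚ n, dep φ = l (r * dep ψ) ∧
      ∀ (A : Type) [Ring A] [Algebra ℚ A] (a b : A), TensorProduct.lid ℚ A (LinearMap.rTensor A l
        (r • ev ((1 : ℝ) ⊗ₜ[ℚ] a) ((1 : ℝ) ⊗ₜ[ℚ] b) ψ)) = ev a b φ := by
    intro ψ hψ
    induction hψ using Submodule.span_induction with
    | mem s hs =>
      intro r
      obtain ⟨g, hg, rfl⟩ := IntAux.mon_bc hs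
      refine ⟨l r • bc ℚ g, Submodule.smul_mem _ _ (bc_mem (Submodule.subset_span hg)), ?_,
        fun A _ _ a b => ?_⟩
      · rw [dep_smul, dep_bc, dep_bc, mul_comm r, ← zsmul_eq_mul, map_zsmul, zsmul_eq_mul, mul_comm]
      · have e := IntAux.map_liftZ2
          (Algebra.TensorProduct.includeRight : A →ₐ[ℚ] ℝ ⊗[ℚ] A).toRingHom a b g
        rw [IntAux.ev_bc, map_smul (ev a b), IntAux.ev_bc]
        refine (congrArg (fun z => TensorProduct.lid ℚ A (LinearMap.rTensor A l (r • z))) e.symm).trans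
          ?_
        simp [TensorProduct.smul_tmul']
    | zero => exact fun r => ⟨0, zero_mem _, by simp [dep], fun A _ _ a b => by simp⟩
    | add p q _ _ hp hq =>
      intro r
      obtain ⟨φ, m1, e1, f1⟩ := hp r
      obtain ⟨φ', m2, e2, f2⟩ := hq r
      refine ⟨φ + φ', add_mem m1 m2, by rw [dep_add, dep_add, mul_add, map_add, e1, e2],
        fun A _ _ a b => ?_⟩
      rw [map_add, smul_add, map_add, map_add, f1, f2, map_add]
    | smul c p _ hp =>
      intro r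
      obtain ⟨φ, m1, e1, f1⟩ := hp (r * c)
      refine ⟨φ, m1, by rw [e1, dep_smul, mul_assoc], fun A _ _ a b => ?_⟩
      rw [map_smul (ev _ _), smul_smul, f1]
  obtain ⟨φ, m1, e1, f1⟩ := key ψ hψ 1
  refine ⟨φ, m1, fun A _ _ t ht => ?_, by rwa [e1, one_mul]⟩
  have e := hP (ℝ ⊗[ℚ] A) _
    (ht.map (Algebra.TensorProduct.includeRight : A →ₐ[ℚ] ℝ ⊗[ℚ] A).toRingHom)
  simp only [one_smul] at f1
  rw [← f1, ← f1, ← f1, ← f1, ← f1, ← map_add, ← map_add, ← map_add, ← map_add, ← map_add,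
    ← map_add, ← map_add, ← map_add]
  refine (congrArg (fun z => TensorProduct.lid ℚ A (LinearMap.rTensor A l z)) e).trans ?_
  simp

end Vale.Agent.P029
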