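import Vale.Agent.P029.KLam
import Vale.Agent.P029.Tors

/-! Existence of solutions of depth one. -/

noncomputable section

namespace Vale.Agent.P029

theorem exists_depth_one {n : ℕ} (hn : 3 ≤ n) (ho : Odd n) :
    ∃ φ ∈ HT ℚ n, Pent φ ∧ dep φ ≠ 0 := by
  obtain ⟨ψ, h1, h2, h3⟩ := exists_of_good hn ho (KZ_good (by omega)) (KZ_lam (by omega))
  exact descent h1 h2 h3

end Vale.Agent.P029
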