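import Vale.Agent.P029.KDefs

/-! Flat sections on the cell. -/

noncomputable section

namespace Vale.Agent.P029

open Set

variable {A : Type} [NormedRing A] [NormedAlgebra ℝ A]

namespace KFlatAux

lemma cell_open : IsOpen cell := isOpen_Ioo.prod isOpen_Ioo

lemma cell_convex : Convex ℝ cell := (convex_Ioo 0 1).prod (convex_Ioo 0 1)

lemma half_mem : ((1 / 2, 1 / 2) : ℝ × ℝ) ∈ cell := by
  constructor <;> constructor <;> norm_num

/-- the one-form with the given coefficients -/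
abbrev fm (u v : A) : ℝ × ℝ →L[ℝ] A :=
  (ContinuousLinearMap.fst ℝ ℝ ℝ).smulRight u + (ContinuousLinearMap.snd ℝ ℝ ℝ).smulRight v

lemma poincare [CompleteSpace A] {u v : ℝ × ℝ → A}
    (h : ∀ p ∈ cell, ∃ u' v' : ℝ × ℝ →L[ℝ] A, HasFDerivAt u u' p ∧ HasFDerivAt v v' p ∧
      u' (0, 1) = v' (1, 0)) :
    ∃ H : ℝ × ℝ → A, H (1 / 2, 1 / 2) = 1 ∧ ∀ p ∈ cell, HasFDerivAt H (fm (u p) (v p)) p := by
  choose! u' v' hu hv huv using h
  obtain ⟨H, hH⟩ := cell_convex.exists_forall_hasFDerivWithinAt_of_hasFDerivWithinAt_symmetric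
    (𝕜 := ℝ) (ω := fun p => fm (u p) (v p))
    (dω := fun p => (ContinuousLinearMap.smulRightL ℝ (ℝ × ℝ) A
        (ContinuousLinearMap.fst ℝ ℝ ℝ)).comp (u' p) +
      (ContinuousLinearMap.smulRightL ℝ (ℝ × ℝ) A (ContinuousLinearMap.snd ℝ ℝ ℝ)).comp (v' p))
    (fun p hp => (((ContinuousLinearMap.smulRightL ℝ (ℝ × ℝ) A
        (ContinuousLinearMap.fst ℝ ℝ ℝ)).hasFDerivAt.comp p (hu p hp)).add
      ((ContinuousLinearMap.smulRightL ℝ (ℝ × ℝ) A
        (ContinuousLinearMap.snd ℝ ℝ ℝ)).hasFDerivAt.comp p (hv p hp))).hasFDerivWithinAt)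
    (fun p hp x _ y _ => by
      have e : ∀ (L : ℝ × ℝ →L[ℝ] A) (z : ℝ × ℝ), L z = z.1 • L (1, 0) + z.2 • L (0, 1) := by
        intro L z
        rw [← map_smul, ← map_smul, ← map_add]
        congr 1
        simp
      simp only [add_apply, ContinuousLinearMap.comp_apply,
        ContinuousLinearMap.smulRightL_apply_apply, ContinuousLinearMap.smulRight_apply,
        ContinuousLinearMap.coe_fst', ContinuousLinearMap.coe_snd']
      rw [e (u' p) x, e (u' p) y, e (v' p) x, e (v' p) y, huv p hp]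
      module)
  refine ⟨fun p => H p - H (1 / 2, 1 / 2) + 1, by simp, fun p hp => ?_⟩
  exact (((hH p hp).hasFDerivAt (cell_open.mem_nhds hp)).sub_const _).add_const _

lemma mem_of_deriv [FiniteDimensional ℝ A] {V : Submodule ℝ A} {H : ℝ × ℝ → A}
    {H' : ℝ × ℝ → ℝ × ℝ →L[ℝ] A} (h : ∀ p ∈ cell, HasFDerivAt H (H' p) p ∧ ∀ z, H' p z ∈ V)
    (h0 : H (1 / 2, 1 / 2) = 0) {p : ℝ × ℝ} (hp : p ∈ cell) : H p ∈ V := by
  rw [← Subspace.forall_mem_dualAnnihilator_apply_eq_zero_iff]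
  intro φ hφ
  have h1 : ∀ q ∈ cell, HasFDerivAt (fun q => φ (H q)) (0 : ℝ × ℝ →L[ℝ] ℝ) q := by
    intro q hq
    have h2 := (LinearMap.toContinuousLinearMap φ).hasFDerivAt.comp q (h q hq).1
    have h3 : (LinearMap.toContinuousLinearMap φ).comp (H' q) = 0 :=
      ContinuousLinearMap.ext fun z => (Submodule.mem_dualAnnihilator φ).1 hφ _ ((h q hq).2 z)
    rwa [h3] at h2
  have h4 := cell_open.is_const_of_fderiv_eq_zero cell_convex.isPreconnected
    (fun q hq => (h1 q hq).differentiableAt.differentiableWithinAt)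
    (fun q hq => (h1 q hq).fderiv) hp half_mem
  rw [h4, h0, map_zero]

lemma den_ne {p : ℝ × ℝ} (hp : p ∈ cell) : 1 - p.1 * p.2 ≠ 0 := by
  obtain ⟨⟨a, b⟩, c, d⟩ := hp
  nlinarith

lemma quot_deriv {x y : ℝ} (h : 1 - x * y ≠ 0) :
    HasDerivAt (fun y : ℝ => y / (1 - x * y)) (1 / (1 - x * y) ^ 2) y := by
  have h1 := (hasDerivAt_id y).div (((hasDerivAt_id y).const_mul x).const_sub 1) h
  refine h1.congr_deriv ?_
  simp only [id]
  congr 1
  ring

lemma cP_deriv (s : Fin 5 → A) {p : ℝ × ℝ} (hp : p ∈ cell) : ∃ P' : ℝ × ℝ →L[ℝ] A,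
    HasFDerivAt (cP s) P' p ∧ P' (0, 1) = -((1 / (1 - p.1 * p.2) ^ 2) • (s 3 - s 2 - s 4)) := by
  have h0 := den_ne hp
  have h1 : p.1 ≠ 0 := hp.1.1.ne'
  have h2 : p.1 - 1 ≠ 0 := sub_ne_zero.2 hp.1.2.ne
  have hd : DifferentiableAt ℝ (cP s) p := by
    unfold cP
    simp only [div_eq_mul_inv]
    fun_prop (disch := assumption)
  refine ⟨_, hd.hasFDerivAt, ?_⟩
  have h3 := HasFDerivAt.comp_hasDerivAt (l := cP s) (f := fun y : ℝ => (p.1, y)) p.2
    hd.hasFDerivAt ((hasDerivAt_const p.2 p.1).prodMk (hasDerivAt_id p.2))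
  exact h3.unique (((quot_deriv h0).smul_const (s 3 - s 2 - s 4)).const_sub
    (p.1⁻¹ • s 0 + (p.1 - 1)⁻¹ • s 2))

lemma cQ_deriv (s : Fin 5 → A) {p : ℝ × ℝ} (hp : p ∈ cell) : ∃ Q' : ℝ × ℝ →L[ℝ] A,
    HasFDerivAt (cQ s) Q' p ∧ Q' (1, 0) = -((1 / (1 - p.1 * p.2) ^ 2) • (s 3 - s 2 - s 4)) := by
  have h0 := den_ne hp
  have h1 : p.2 ≠ 0 := hp.2.1.ne'
  have h2 : p.2 - 1 ≠ 0 := sub_ne_zero.2 hp.2.2.ne
  have hd : DifferentiableAt ℝ (cQ s) p := by
    unfold cQ
    simp only [div_eq_mul_inv]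
    fun_prop (disch := assumption)
  refine ⟨_, hd.hasFDerivAt, ?_⟩
  have h3 := HasFDerivAt.comp_hasDerivAt (l := cQ s) (f := fun x : ℝ => (x, p.2)) p.1
    hd.hasFDerivAt ((hasDerivAt_id p.1).prodMk (hasDerivAt_const p.1 p.2))
  have h4 := quot_deriv (x := p.2) (y := p.1) (by rwa [mul_comm])
  simp only [mul_comm p.2] at h4
  exact h3.unique ((h4.smul_const (s 3 - s 2 - s 4)).const_sub
    (p.2⁻¹ • s 1 + (p.2 - 1)⁻¹ • s 4))

lemma cP_mem (s : Fin 5 → A) (p : ℝ × ℝ) : cP s p ∈ Submodule.span ℝ (range s) := by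
  have h : ∀ i, s i ∈ Submodule.span ℝ (range s) := fun i => Submodule.subset_span ⟨i, rfl⟩
  exact sub_mem (add_mem (Submodule.smul_mem _ _ (h 0)) (Submodule.smul_mem _ _ (h 2)))
    (Submodule.smul_mem _ _ (sub_mem (sub_mem (h 3) (h 2)) (h 4)))

lemma cQ_mem (s : Fin 5 → A) (p : ℝ × ℝ) : cQ s p ∈ Submodule.span ℝ (range s) := by
  have h : ∀ i, s i ∈ Submodule.span ℝ (range s) := fun i => Submodule.subset_span ⟨i, rfl⟩
  exact sub_mem (add_mem (Submodule.smul_mem _ _ (h 1)) (Submodule.smul_mem _ _ (h 4)))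
    (Submodule.smul_mem _ _ (sub_mem (sub_mem (h 3) (h 2)) (h 4)))

lemma iter [FiniteDimensional ℝ A] {s : Fin 5 → A}
    (hc : ∀ p ∈ cell, Commute (cP s p) (cQ s p)) (k : ℕ) :
    ∃ F G : ℝ × ℝ → A, F (1 / 2, 1 / 2) = 1 ∧ ∀ p ∈ cell,
      HasFDerivAt F (fm (cP s p * G p) (cQ s p * G p)) p ∧
      F p - G p ∈ Submodule.span ℝ (range s) ^ k ∧
      F p - 1 ∈ ⨆ i, Submodule.span ℝ (range s) ^ (i + 1) := by
  have : CompleteSpace A := FiniteDimensional.complete ℝ A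
  induction k with
  | zero =>
    refine ⟨fun _ => 1, fun _ => 0, rfl, fun p _ => ⟨?_, ?_, by simp⟩⟩
    · simpa [fm] using hasFDerivAt_const (1 : A) p
    · rw [pow_zero, sub_zero]
      exact Submodule.one_le.1 le_rfl
  | succ k ih =>
    obtain ⟨F, G, h0, h⟩ := ih
    obtain ⟨H, H0, hH⟩ := poincare (u := fun p => cP s p * F p) (v := fun p => cQ s p * F p)
      fun p hp => by
        obtain ⟨P', h1, h2⟩ := cP_deriv s hp
        obtain ⟨Q', h3, h4⟩ := cQ_deriv s hp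
        refine ⟨_, _, h1.mul' (h p hp).1, h3.mul' (h p hp).1, ?_⟩
        simp only [fm, add_apply, smul_apply,
          ContinuousLinearMap.smulRight_apply, ContinuousLinearMap.coe_fst',
          ContinuousLinearMap.coe_snd', h2, h4, zero_smul, one_smul, zero_add, add_zero,
          smul_eq_mul]
        rw [← mul_assoc, ← mul_assoc, (hc p hp).eq]
    have hm : ∀ p ∈ cell, H p - F p ∈ Submodule.span ℝ (range s) ^ (k + 1) := by
      intro p hp
      refine mem_of_deriv (H := fun p => H p - F p)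
        (H' := fun p => fm (cP s p * F p) (cQ s p * F p) - fm (cP s p * G p) (cQ s p * G p))
        (fun q hq => ⟨(hH q hq).sub (h q hq).1, fun z => ?_⟩) (by simp only [H0, h0, sub_self]) hp
      have e : (fm (cP s q * F q) (cQ s q * F q) - fm (cP s q * G q) (cQ s q * G q)) z =
          z.1 • (cP s q * (F q - G q)) + z.2 • (cQ s q * (F q - G q)) := by
        simp only [fm, add_apply, sub_apply,
          ContinuousLinearMap.smulRight_apply, ContinuousLinearMap.coe_fst',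
          ContinuousLinearMap.coe_snd', mul_sub]
        module
      rw [e, pow_succ']
      exact add_mem (Submodule.smul_mem _ _ (Submodule.mul_mem_mul (cP_mem s q) (h q hq).2.1))
        (Submodule.smul_mem _ _ (Submodule.mul_mem_mul (cQ_mem s q) (h q hq).2.1))
    refine ⟨H, F, H0, fun p hp => ⟨hH p hp, hm p hp, ?_⟩⟩
    have e : H p - 1 = (H p - F p) + (F p - 1) := by abel
    rw [e]
    exact add_mem (Submodule.mem_iSup_of_mem k (hm p hp)) (h p hp).2.2

lemma nilp {N : ℕ} {S : Set A} (hN : Nil ℝ N S) {x : A}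
    (hx : x ∈ ⨆ i, Submodule.span ℝ S ^ (i + 1)) : IsNilpotent x := by
  have h1 : ∀ m, (⨆ i, Submodule.span ℝ S ^ (i + 1)) ^ m ≤ ⨆ i, Submodule.span ℝ S ^ (i + m) := by
    intro m
    induction m with
    | zero => exact (pow_zero _).le.trans (le_iSup_of_le 0 (pow_zero _).ge)
    | succ m ih =>
      rw [pow_succ]
      refine (mul_le_mul_left ih _).trans ?_
      rw [Submodule.iSup_mul]
      refine iSup_le fun i => ?_
      rw [Submodule.mul_iSup]
      refine iSup_le fun j => le_iSup_of_le (i + j) (le_of_eq ?_)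
      rw [← pow_add]
      congr 1
      ring
  refine ⟨N + 1, ?_⟩
  have h2 := h1 (N + 1) (Submodule.pow_mem_pow _ hx _)
  have h3 : (⨆ i, Submodule.span ℝ S ^ (i + (N + 1))) = ⊥ := by
    refine iSup_eq_bot.2 fun i => ?_
    rw [pow_add, show Submodule.span ℝ S ^ (N + 1) = ⊥ from hN, Submodule.mul_bot]
  rwa [h3, Submodule.mem_bot] at h2

end KFlatAux

theorem exists_flat [FiniteDimensional ℝ A] {N : ℕ} {s : Fin 5 → A} (hN : Nil ℝ N (range s))
    (hc : ∀ p ∈ cell, Commute (cP s p) (cQ s p)) : ∃ F, Flat s F := by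
  obtain ⟨F, G, -, h⟩ := KFlatAux.iter hc (N + 1)
  refine ⟨F, fun p hp => ⟨?_, ?_⟩⟩
  · have h1 := (KFlatAux.nilp hN (h p hp).2.2).isUnit_one_add
    rwa [add_sub_cancel] at h1
  · have h1 := (h p hp).2.1
    rw [show Submodule.span ℝ (range s) ^ (N + 1) = ⊥ from hN, Submodule.mem_bot,
      sub_eq_zero] at h1
    have h2 := (h p hp).1
    rw [← h1] at h2
    exact h2

end Vale.Agent.P029
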