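import Vale.Agent.P029.KDefs

/-! Iterated integrals. -/

noncomputable section

namespace Vale.Agent.P029

open Set

namespace KIntAux

open MeasureTheory

lemma div_sqrt {t : ℝ} (ht : 0 < t) (C : ℝ) : C / √t = C * t ^ (-(1 / 2 : ℝ)) := by
  rw [Real.rpow_neg ht.le, Real.sqrt_eq_rpow, div_eq_mul_inv]

lemma log_pow_le (n : ℕ) {t : ℝ} (ht : 0 < t) (h1 : t ≤ 1) :
    |Real.log t ^ n / n.factorial| ≤ 2 ^ n / √t := by
  have hy : 0 ≤ -Real.log t / 2 := by linarith [Real.log_nonpos ht.le h1]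
  have h2 := Real.pow_div_factorial_le_exp _ hy n
  have h3 : Real.exp (-Real.log t / 2) = 1 / √t := by
    rw [div_sqrt ht, one_mul, Real.rpow_def_of_pos ht]
    congr 1
    ring
  rw [abs_div, abs_pow, abs_of_nonpos (Real.log_nonpos ht.le h1), Nat.abs_cast]
  rw [h3, div_pow] at h2
  calc (-Real.log t) ^ n / (n.factorial : ℝ) = 2 ^ n * ((-Real.log t) ^ n / 2 ^ n / n.factorial) := by
        field_simp
    _ ≤ 2 ^ n * (1 / √t) := by gcongr
    _ = 2 ^ n / √t := by ring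

section prim
variable {h : ℝ → ℝ} (hc : ContinuousOn h (Ioo 0 1))
  (hb : ∀ b, b < 1 → ∃ C : ℝ, ∀ t, 0 < t → t ≤ b → |h t| ≤ C / √t)
include hc hb

lemma prim_int {t : ℝ} (ht : t ∈ Ioo (0 : ℝ) 1) : IntervalIntegrable h volume 0 t := by
  obtain ⟨C, hC⟩ := hb t ht.2
  have h1 : IntervalIntegrable (fun τ : ℝ => C * τ ^ (-(1 / 2 : ℝ))) volume 0 t :=
    (intervalIntegral.intervalIntegrable_rpow' (by norm_num)).const_mul C
  rw [intervalIntegrable_iff_integrableOn_Ioc_of_le ht.1.le] at h1 ⊢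
  refine h1.mono' ((hc.mono fun x hx => ⟨hx.1, hx.2.trans_lt ht.2⟩).aestronglyMeasurable
    measurableSet_Ioc) ((ae_restrict_iff' measurableSet_Ioc).2 (ae_of_all _ fun x hx => ?_))
  rw [← div_sqrt hx.1]
  exact hC x hx.1 hx.2

lemma prim_deriv {t : ℝ} (ht : t ∈ Ioo (0 : ℝ) 1) :
    HasDerivAt (fun u => ∫ τ in (0 : ℝ)..u, h τ) (h t) t :=
  intervalIntegral.integral_hasDerivAt_right (prim_int hc hb ht)
    (hc.stronglyMeasurableAtFilter isOpen_Ioo t ht) (hc.continuousAt (isOpen_Ioo.mem_nhds ht))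

omit hc in
lemma prim_bound (b : ℝ) (h1 : b < 1) :
    ∃ C : ℝ, ∀ t, 0 < t → t ≤ b → |∫ τ in (0 : ℝ)..t, h τ| ≤ C * √t := by
  obtain ⟨C, hC⟩ := hb b h1
  refine ⟨2 * C, fun t ht htb => ?_⟩
  have h2 : IntervalIntegrable (fun τ : ℝ => C * τ ^ (-(1 / 2 : ℝ))) volume 0 t :=
    (intervalIntegral.intervalIntegrable_rpow' (by norm_num)).const_mul C
  refine (intervalIntegral.norm_integral_le_of_norm_le (f := h) ht.le
    (ae_of_all _ fun x hx => ?_) h2).trans (le_of_eq ?_)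
  · rw [← div_sqrt hx.1]
    exact hC x hx.1 (hx.2.trans htb)
  · rw [intervalIntegral.integral_const_mul, integral_rpow (Or.inl (by norm_num)),
      Real.zero_rpow (by norm_num), Real.sqrt_eq_rpow]
    norm_num
    ring

lemma prim_spec : ContinuousOn (fun u => ∫ τ in (0 : ℝ)..u, h τ) (Ioo 0 1) ∧
    (∀ b, b < 1 → ∃ C : ℝ, ∀ t, 0 < t → t ≤ b → |∫ τ in (0 : ℝ)..t, h τ| ≤ C / √t) ∧
    ∀ b, b < 1 → ∃ C : ℝ, ∀ t, 0 < t → t ≤ b → |∫ τ in (0 : ℝ)..t, h τ| ≤ C * √t := by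
  refine ⟨fun t ht => (prim_deriv hc hb ht).continuousAt.continuousWithinAt, fun b h1 => ?_,
    prim_bound hb⟩
  obtain ⟨C, hC⟩ := prim_bound hb b h1
  refine ⟨|C|, fun t ht htb => (hC t ht htb).trans ?_⟩
  have h2 : 0 < √t := Real.sqrt_pos.2 ht
  rw [le_div_iff₀ h2, mul_assoc, Real.mul_self_sqrt ht.le]
  nlinarith [le_abs_self C, abs_nonneg C]

end prim

lemma gi_zero_pure {w : List (Fin 2)} (hw : ∀ j ∈ w, j = 0) :
    gi (0 :: w) = fun t => Real.log t ^ (w.length + 1) / (w.length + 1).factorial := by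
  funext t
  rw [gi, if_pos rfl, if_pos hw]

lemma gi_zero {w : List (Fin 2)} (hw : ¬ ∀ j ∈ w, j = 0) :
    gi (0 :: w) = fun t => ∫ τ in (0 : ℝ)..t, gi w τ / τ := by
  funext t
  rw [gi, if_pos rfl, if_neg hw]

lemma gi_one_cons (w : List (Fin 2)) :
    gi (1 :: w) = fun t => ∫ τ in (0 : ℝ)..t, gi w τ / (τ - 1) := by
  funext t
  rw [gi, if_neg (by decide)]

lemma gi_pure {w : List (Fin 2)} (hw : ∀ j ∈ w, j = 0) :
    gi w = fun t => Real.log t ^ w.length / w.length.factorial := by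
  cases w with
  | nil =>
    funext t
    simp [gi]
  | cons i w =>
    obtain rfl : i = 0 := hw i List.mem_cons_self
    exact gi_zero_pure fun j hj => hw j (List.mem_cons_of_mem _ hj)

lemma h_zero {g : ℝ → ℝ} (hc : ContinuousOn g (Ioo 0 1))
    (hb : ∀ b, b < 1 → ∃ C : ℝ, ∀ t, 0 < t → t ≤ b → |g t| ≤ C * √t) :
    ContinuousOn (fun τ => g τ / τ) (Ioo 0 1) ∧
      ∀ b, b < 1 → ∃ C : ℝ, ∀ t, 0 < t → t ≤ b → |g t / t| ≤ C / √t := by
  refine ⟨hc.div continuousOn_id fun x hx => hx.1.ne', fun b h1 => ?_⟩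
  obtain ⟨C, hC⟩ := hb b h1
  refine ⟨C, fun t ht htb => ?_⟩
  have h2 : 0 < √t := Real.sqrt_pos.2 ht
  rw [abs_div, abs_of_pos ht, div_le_div_iff₀ ht h2]
  calc |g t| * √t ≤ C * √t * √t := by gcongr; exact hC t ht htb
    _ = C * t := by rw [mul_assoc, Real.mul_self_sqrt ht.le]

lemma h_one {g : ℝ → ℝ} (hc : ContinuousOn g (Ioo 0 1))
    (hb : ∀ b, b < 1 → ∃ C : ℝ, ∀ t, 0 < t → t ≤ b → |g t| ≤ C / √t) :
    ContinuousOn (fun τ => g τ / (τ - 1)) (Ioo 0 1) ∧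
      ∀ b, b < 1 → ∃ C : ℝ, ∀ t, 0 < t → t ≤ b → |g t / (t - 1)| ≤ C / √t := by
  refine ⟨hc.div (continuousOn_id.sub continuousOn_const) fun x hx => sub_ne_zero.2 hx.2.ne,
    fun b h1 => ?_⟩
  obtain ⟨C, hC⟩ := hb b h1
  refine ⟨C / (1 - b), fun t ht htb => ?_⟩
  rw [abs_div, abs_of_neg (by linarith : t - 1 < 0), div_right_comm]
  exact div_le_div₀ ((abs_nonneg _).trans (hC t ht htb)) (hC t ht htb) (by linarith) (by linarith)

lemma not_pure (n : ℕ) : ¬ ∀ j ∈ List.replicate n (0 : Fin 2) ++ [1], j = 0 := fun h =>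
  absurd (h 1 (by simp)) (by decide)

end KIntAux

open KIntAux

/-- the three properties proved together by induction on the word -/
theorem gi_spec (w : List (Fin 2)) :
    ContinuousOn (gi w) (Ioo 0 1) ∧
    (∀ b, b < 1 → ∃ C : ℝ, ∀ t, 0 < t → t ≤ b → |gi w t| ≤ C / √t) ∧
    ((¬ ∀ j ∈ w, j = 0) → ∀ b, b < 1 → ∃ C : ℝ, ∀ t, 0 < t → t ≤ b → |gi w t| ≤ C * √t) := by
  induction w with
  | nil =>
    refine ⟨continuousOn_const, fun b hb => ⟨1, fun t ht htb => ?_⟩, fun h => absurd (by simp) h⟩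
    simpa [gi] using log_pow_le 0 ht (htb.trans hb.le)
  | cons i w ih =>
    rcases (by decide : ∀ i : Fin 2, i = 0 ∨ i = 1) i with rfl | rfl
    · by_cases hw : ∀ j ∈ w, j = 0
      · rw [gi_zero_pure hw]
        refine ⟨((Real.continuousOn_log.mono fun x hx => hx.1.ne').pow _).div_const _,
          fun b hb => ⟨_, fun t ht htb => log_pow_le _ ht (htb.trans hb.le)⟩, fun h => ?_⟩
        exact absurd ((List.forall_mem_cons (p := fun j => j = 0)).2 ⟨rfl, hw⟩) h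
      · rw [gi_zero hw]
        obtain ⟨h1, h2⟩ := h_zero ih.1 (ih.2.2 hw)
        obtain ⟨h3, h4, h5⟩ := prim_spec h1 h2
        exact ⟨h3, h4, fun _ => h5⟩
    · rw [gi_one_cons]
      obtain ⟨h1, h2⟩ := h_one ih.1 ih.2.1
      obtain ⟨h3, h4, h5⟩ := prim_spec h1 h2
      exact ⟨h3, h4, fun _ => h5⟩

theorem gi_deriv_zero (w : List (Fin 2)) {t : ℝ} (ht : t ∈ Ioo (0 : ℝ) 1) :
    HasDerivAt (gi (0 :: w)) (gi w t / t) t := by
  by_cases hw : ∀ j ∈ w, j = 0
  · rw [gi_zero_pure hw, gi_pure hw]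
    refine (((Real.hasDerivAt_log ht.1.ne').fun_pow _).div_const _).congr_deriv ?_
    rw [Nat.factorial_succ, Nat.add_sub_cancel]
    push_cast
    field_simp
  · rw [gi_zero hw]
    obtain ⟨h1, h2⟩ := h_zero (gi_spec w).1 ((gi_spec w).2.2 hw)
    exact prim_deriv h1 h2 ht

theorem gi_deriv_one (w : List (Fin 2)) {t : ℝ} (ht : t ∈ Ioo (0 : ℝ) 1) :
    HasDerivAt (gi (1 :: w)) (gi w t / (t - 1)) t := by
  rw [gi_one_cons]
  obtain ⟨h1, h2⟩ := h_one (gi_spec w).1 (gi_spec w).2.1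
  exact prim_deriv h1 h2 ht

theorem gi_replicate (n : ℕ) (t : ℝ) :
    gi (List.replicate n 0) t = Real.log t ^ n / n.factorial := by
  rw [gi_pure fun j hj => List.eq_of_mem_replicate hj, List.length_replicate]

theorem gi_one {t : ℝ} (ht : t ∈ Ioo (0 : ℝ) 1) : gi [1] t = Real.log (1 - t) := by
  rw [gi_one_cons]
  obtain ⟨h1, h2⟩ := h_one (gi_spec []).1 (gi_spec []).2.1
  have h3 := intervalIntegral.integral_eq_sub_of_hasDerivAt (f := fun τ => Real.log (1 - τ))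
    (fun x hx => by
      rw [uIcc_of_le ht.1.le] at hx
      have h4 : 1 - x ≠ 0 := by linarith [hx.2, ht.2]
      have h5 : x - 1 ≠ 0 := by linarith [hx.2, ht.2]
      refine (((hasDerivAt_id x).const_sub 1).log h4).congr_deriv ?_
      simp only [gi, id]
      field_simp
      ring) (prim_int h1 h2 ht)
  simpa using h3

theorem gi_tendsto {w : List (Fin 2)} (hw : ¬ ∀ j ∈ w, j = 0) :
    Filter.Tendsto (gi w) (nhdsWithin 0 (Ioi 0)) (nhds 0) := by
  obtain ⟨C, hC⟩ := (gi_spec w).2.2 hw (1 / 2) (by norm_num)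
  have h1 : Filter.Tendsto (fun t : ℝ => C * √t) (nhdsWithin 0 (Ioi 0)) (nhds 0) := by
    have : Filter.Tendsto (fun t : ℝ => C * √t) (nhds 0) (nhds (C * √0)) :=
      (by fun_prop : Continuous fun t : ℝ => C * √t).tendsto 0
    rw [Real.sqrt_zero, mul_zero] at this
    exact this.mono_left nhdsWithin_le_nhds
  refine squeeze_zero_norm' ?_ h1
  filter_upwards [Ioc_mem_nhdsGT (by norm_num : (0 : ℝ) < 1 / 2)] with t ht
  exact hC t ht.1 ht.2

/-- minus the polylogarithm is negative and decreasing -/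
theorem gi_neg (n : ℕ) : (∀ t ∈ Ioo (0 : ℝ) 1, gi (List.replicate n 0 ++ [1]) t < 0) ∧
    AntitoneOn (gi (List.replicate n 0 ++ [1])) (Ioo 0 1) := by
  have key : ∀ {g g' : ℝ → ℝ}, (∀ t ∈ Ioo (0 : ℝ) 1, HasDerivAt g (g' t) t ∧ g' t ≤ 0) →
      AntitoneOn g (Ioo 0 1) := fun h =>
    antitoneOn_of_deriv_nonpos (convex_Ioo 0 1)
      (fun t ht => (h t ht).1.continuousAt.continuousWithinAt)
      (fun t ht => (h t (interior_subset ht)).1.differentiableAt.differentiableWithinAt)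
      (fun t ht => (h t (interior_subset ht)).1.deriv ▸ (h t (interior_subset ht)).2)
  induction n with
  | zero =>
    refine ⟨fun t ht => ?_, key fun t ht => ⟨gi_deriv_one [] ht, ?_⟩⟩
    · rw [List.replicate_zero, List.nil_append, gi_one ht]
      exact Real.log_neg (by linarith [ht.2]) (by linarith [ht.1])
    · exact div_nonpos_of_nonneg_of_nonpos zero_le_one (by linarith [ht.2])
  | succ n ih =>
    rw [List.replicate_succ, List.cons_append]
    refine ⟨fun t ht => ?_, key fun t ht => ⟨gi_deriv_zero _ ht,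
      div_nonpos_of_nonpos_of_nonneg (ih.1 t ht).le ht.1.le⟩⟩
    obtain ⟨h1, h2⟩ := h_zero (gi_spec _).1 ((gi_spec _).2.2 (not_pure n))
    have h3 := intervalIntegral.intervalIntegral_pos_of_pos_on (prim_int h1 h2 ht).neg
      (fun x hx => neg_pos.2 (div_neg_of_neg_of_pos (ih.1 x ⟨hx.1, hx.2.trans ht.2⟩) hx.1)) ht.1
    rw [gi_zero (not_pure n)]
    simp only [Pi.neg_apply, intervalIntegral.integral_neg] at h3
    exact neg_pos.1 h3

end Vale.Agent.P029
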