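import Vale.Agent.P029.KMod

/-! The coefficient of depth one. -/

noncomputable section

namespace Vale.Agent.P029

open Set

namespace KLamAux

open Polynomial KOneAux

abbrev M2 : Type := Matrix (Fin 2) (Fin 2) ℝ[X]

def mA : M2 := !![Polynomial.X, 0; 0, 0]

def mB : M2 := !![0, Polynomial.X; 0, 0]

theorem entries (S : ℕ → (List (Fin 2) → ℝ) → M2) (p q : Fin 2) (h0 : ∀ f, S 0 f = f [] • 1)
    (hs : ∀ n f, S (n + 1) f = mA * S n (fun w => f (p :: w)) + mB * S n (fun w => f (q :: w)))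
    (n : ℕ) : ∀ f, S n f 0 0 = C (f (List.replicate n p)) * Polynomial.X ^ n ∧ S n f 1 0 = 0 ∧
      S n f 1 1 = (if n = 0 then C (f []) else 0) ∧
      S n f 0 1 = if n = 0 then 0 else
        C (f (List.replicate (n - 1) p ++ [q])) * Polynomial.X ^ n := by
  induction n with
  | zero => intro f; simp [h0, Polynomial.smul_eq_C_mul]
  | succ n ih =>
    intro f
    obtain ⟨a1, a2, a3, a4⟩ := ih (fun w => f (p :: w))
    obtain ⟨b1, b2, b3, b4⟩ := ih (fun w => f (q :: w))
    rw [hs]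
    simp only [mA, mB, Matrix.add_apply, Matrix.mul_apply, Fin.sum_univ_two, a1, a2, a3, a4, b1,
      b2, b3, b4]
    refine ⟨by simp [List.replicate_succ]; ring, by simp, by simp, ?_⟩
    rcases n with _ | n
    · simp
    · simp [List.replicate_succ]; ring

def Sv (a b : M2) (n : ℕ) (f : List (Fin 2) → ℝ) : M2 := wsum n (fun w => f w • ev a b (wd w))

theorem Sv_succ (a b : M2) (n : ℕ) (f : List (Fin 2) → ℝ) :
    Sv a b (n + 1) f = a * Sv a b n (fun w => f (0 :: w)) + b * Sv a b n (fun w => f (1 :: w)) := by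
  unfold Sv
  rw [wsum]
  congr 1
  · have := wsum_map (LinearMap.mulLeft ℝ a) n (fun w => f (0 :: w) • ev a b (wd w))
    simp only [LinearMap.mulLeft_apply] at this
    rw [this]
    simp [wd_zero]
  · have := wsum_map (LinearMap.mulLeft ℝ b) n (fun w => f (1 :: w) • ev a b (wd w))
    simp only [LinearMap.mulLeft_apply] at this
    rw [this]
    simp [wd_one]

theorem Sv_zero (a b : M2) (f : List (Fin 2) → ℝ) : Sv a b 0 f = f [] • 1 := by
  simp [Sv, wsum, wd]

theorem ev_GT (a b : M2) (N : ℕ) (t : ℝ) :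
    ev a b (GT N t) = ∑ n ∈ Finset.range (N + 1), Sv a b n (fun w => gi w t) := by
  rw [GT, map_sum]
  refine Finset.sum_congr rfl fun n _ => ?_
  rw [wsum_map (ev a b), Sv]
  simp

theorem corner (m : T ℝ) : ev mA mB m 1 0 = 0 ∧ ∃ c, ev mA mB m 1 1 = C c := by
  induction m using FreeAlgebra.induction with
  | grade0 r =>
    rw [AlgHom.commutes, Algebra.algebraMap_eq_smul_one]
    exact ⟨by simp, r, by simp [Polynomial.smul_eq_C_mul]⟩
  | grade1 i =>
    fin_cases i
    · change ev mA mB (Vale.Agent.P029.X ℝ) 1 0 = 0 ∧ ∃ c, ev mA mB (Vale.Agent.P029.X ℝ) 1 1 = C c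
      rw [ev_X]
      exact ⟨by simp [mA], 0, by simp [mA]⟩
    · change ev mA mB (Y ℝ) 1 0 = 0 ∧ ∃ c, ev mA mB (Y ℝ) 1 1 = C c
      rw [ev_Y]
      exact ⟨by simp [mB], 0, by simp [mB]⟩
  | mul a b ha hb =>
    obtain ⟨a1, c, a2⟩ := ha
    obtain ⟨b1, c', b2⟩ := hb
    rw [map_mul]
    exact ⟨by simp [Matrix.mul_apply, a1, b1], c * c', by simp [Matrix.mul_apply, a1, a2, b2]⟩
  | add a b ha hb =>
    obtain ⟨a1, c, a2⟩ := ha
    obtain ⟨b1, c', b2⟩ := hb
    rw [map_add]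
    exact ⟨by simp [a1, b1], c + c', by simp [a2, b2]⟩

theorem coeff_eq {N : ℕ} {t : ℝ} (ht : t ∈ Ioo (0 : ℝ) 1) :
    ((ev mB mA (GT N (1 - t)) * ev mA mB (KZ N)) 0 1).coeff N =
      (ev mA mB (GT N t) 0 1).coeff N := by
  let π : ℝ[X] →ₐ[ℝ] AdjoinRoot (Polynomial.X ^ (N + 1) : ℝ[X]) := AdjoinRoot.mkₐ _
  let ρ : M2 →ₐ[ℝ] Matrix (Fin 2) (Fin 2) (AdjoinRoot (Polynomial.X ^ (N + 1) : ℝ[X])) :=
    π.mapMatrix
  have hX : π Polynomial.X ^ (N + 1) = 0 := by
    rw [← map_pow]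
    exact AdjoinRoot.mk_self
  have hn : Nil ℝ N {ρ mA, ρ mB} := by
    rw [nil_iff_list]
    have key : ∀ l : List (Matrix (Fin 2) (Fin 2) (AdjoinRoot (Polynomial.X ^ (N + 1) : ℝ[X]))),
        (∀ a ∈ l, a ∈ ({ρ mA, ρ mB} : Set _)) → ∃ M, l.prod = π Polynomial.X ^ l.length • M := by
      intro l hl
      induction l with
      | nil => exact ⟨1, by simp⟩
      | cons a l ih =>
        obtain ⟨M, hM⟩ := ih fun b hb => hl b (List.mem_cons_of_mem _ hb)
        have : ∃ M', a = π Polynomial.X • M' := by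
          rcases hl a List.mem_cons_self with h | h
          · refine ⟨!![1, 0; 0, 0], ?_⟩
            rw [h]
            ext i j
            fin_cases i <;> fin_cases j <;> simp [ρ, mA]
          · refine ⟨!![0, 1; 0, 0], ?_⟩
            rw [h]
            ext i j
            fin_cases i <;> fin_cases j <;> simp [ρ, mB]
        obtain ⟨M', rfl⟩ := this
        exact ⟨M' * M, by
          rw [List.prod_cons, hM, List.length_cons, smul_mul_smul_comm, pow_succ' (π Polynomial.X)]⟩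
    intro l hl hlen
    obtain ⟨M, hM⟩ := key l hl
    rw [hM, hlen, hX, zero_smul]
  have e := KZ_const' hn ht
  rw [← map_ev, ← map_ev, ← map_ev, ← map_mul] at e
  have e2 : π ((ev mB mA (GT N (1 - t)) * ev mA mB (KZ N)) 0 1) = π (ev mA mB (GT N t) 0 1) :=
    congrFun (congrFun e 0) 1
  have e3 := AdjoinRoot.mk_eq_mk.1 e2
  have e4 := Polynomial.X_pow_dvd_iff.1 e3 N (Nat.lt_succ_self N)
  rwa [coeff_sub, sub_eq_zero] at e4

theorem coeff_01 (a b : M2) (p q : Fin 2)
    (hs : ∀ n f, Sv a b (n + 1) f =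
      mA * Sv a b n (fun w => f (p :: w)) + mB * Sv a b n (fun w => f (q :: w)))
    {N : ℕ} (hN : 1 ≤ N) (t : ℝ) :
    (ev a b (GT N t) 0 1).coeff N = gi (List.replicate (N - 1) p ++ [q]) t := by
  rw [ev_GT, Matrix.sum_apply, finset_sum_coeff, Finset.sum_eq_single N]
  · rw [(entries _ p q (Sv_zero a b) hs N _).2.2.2, if_neg (by omega)]
    simp
  · intro n _ hn
    rw [(entries _ p q (Sv_zero a b) hs n _).2.2.2]
    split_ifs
    · simp
    · simp [coeff_X_pow, hn.symm]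
  · intro h
    exact absurd (Finset.self_mem_range_succ N) h

end KLamAux

open KLamAux Polynomial Filter

theorem KZ_lam {N : ℕ} (hN : 2 ≤ N) : lam N (KZ N) ≠ 0 := by
  have hs1 := Sv_succ mA mB
  have hs2 : ∀ n f, Sv mB mA (n + 1) f =
      mA * Sv mB mA n (fun w => f (1 :: w)) + mB * Sv mB mA n (fun w => f (0 :: w)) :=
    fun n f => by rw [Sv_succ, add_comm]
  obtain ⟨-, c, hc⟩ := corner (KZ N)
  set q := ev mA mB (KZ N) 0 1 with hq
  have hl : lam N (KZ N) = q.coeff N := rfl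
  have key : ∀ t ∈ Ioo (0 : ℝ) 1, gi (List.replicate (N - 1) 0 ++ [1]) t =
      ∑ n ∈ Finset.range (N + 1), gi (List.replicate n 1) (1 - t) * (Polynomial.X ^ n * q).coeff N +
        gi (List.replicate (N - 1) 1 ++ [0]) (1 - t) * c := by
    intro t ht
    rw [← coeff_01 mA mB 0 1 hs1 (by omega), ← coeff_eq ht, Matrix.mul_apply, Fin.sum_univ_two,
      coeff_add, hc, coeff_mul_C, coeff_01 mB mA 1 0 hs2 (by omega), ← hq, ev_GT,
      Matrix.sum_apply, Finset.sum_mul, finset_sum_coeff]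
    congr 1
    refine Finset.sum_congr rfl fun n _ => ?_
    rw [(entries _ 1 0 (Sv_zero mB mA) hs2 n _).1, mul_assoc, coeff_C_mul]
  have t1 : Tendsto (fun t : ℝ => 1 - t) (nhdsWithin 1 (Iio 1)) (nhdsWithin 0 (Ioi 0)) := by
    refine tendsto_nhdsWithin_iff.2 ⟨?_, ?_⟩
    · have : Tendsto (fun t : ℝ => 1 - t) (nhds 1) (nhds (1 - 1)) :=
        tendsto_const_nhds.sub tendsto_id
      rw [sub_self] at this
      exact this.mono_left nhdsWithin_le_nhds
    · filter_upwards [self_mem_nhdsWithin] with t ht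
      exact sub_pos.2 (show t < 1 from ht)
  have t2 : Tendsto (fun t : ℝ => ∑ n ∈ Finset.range (N + 1),
      gi (List.replicate n 1) (1 - t) * (Polynomial.X ^ n * q).coeff N +
        gi (List.replicate (N - 1) 1 ++ [0]) (1 - t) * c) (nhdsWithin 1 (Iio 1))
      (nhds (∑ n ∈ Finset.range (N + 1), (if n = 0 then 1 else 0) * (Polynomial.X ^ n * q).coeff N +
        0 * c)) := by
    refine (tendsto_finset_sum _ fun n _ => Tendsto.mul_const _ ?_).add (Tendsto.mul_const _ ?_)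
    · rcases n with _ | n
      · simp [gi]
      · rw [if_neg (Nat.succ_ne_zero n)]
        exact (gi_tendsto (by simp)).comp t1
    · refine (gi_tendsto ?_).comp t1
      obtain ⟨j, rfl⟩ : ∃ j, N = j + 2 := ⟨N - 2, by omega⟩
      simp
  have t3 : ∑ n ∈ Finset.range (N + 1), (if n = 0 then (1 : ℝ) else 0) *
      (Polynomial.X ^ n * q).coeff N + 0 * c = q.coeff N := by
    simp
  rw [t3] at t2
  have h12 : (1 / 2 : ℝ) ∈ Ioo (0 : ℝ) 1 := by constructor <;> norm_num
  have hle : q.coeff N ≤ gi (List.replicate (N - 1) 0 ++ [1]) (1 / 2) := by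
    refine le_of_tendsto t2 ?_
    filter_upwards [Ioo_mem_nhdsLT (show (1 / 2 : ℝ) < 1 by norm_num)] with t ht
    have ht' : t ∈ Ioo (0 : ℝ) 1 := ⟨by linarith [ht.1], ht.2⟩
    rw [← key t ht']
    exact (gi_neg (N - 1)).2 h12 ht' ht.1.le
  rw [hl]
  exact (hle.trans_lt ((gi_neg (N - 1)).1 _ h12)).ne

end Vale.Agent.P029
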