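import Vale.Agent.P029.KPent

/-! Transfer to abstract algebras. -/

noncomputable section

namespace Vale.Agent.P029

open Set

/-- a nilpotent finitely generated algebra has a faithful normed model -/
theorem exists_model {A : Type} [Ring A] [Algebra ℝ A] {S : Set A} (hS : S.Finite) {N : ℕ}
    (hN : Nil ℝ N S) : ∃ (d : ℕ) (ρ : Algebra.adjoin ℝ S →ₐ[ℝ] ((Fin d → ℝ) →L[ℝ] (Fin d → ℝ))),
      Function.Injective ρ := by
  have := hS.to_subtype
  have h1 : (Submonoid.closure S : Set A).Finite := by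
    refine (((List.finite_length_le S N).image fun l => (l.map Subtype.val).prod).insert
      0).subset fun a ha => ?_
    obtain ⟨l, hl, rfl⟩ := Submonoid.exists_list_of_mem_closure ha
    rcases le_or_gt l.length N with h | h
    · lift l to List S using hl
      exact Or.inr ⟨l, by simpa using h, rfl⟩
    · refine Or.inl ?_
      rw [← List.take_append_drop (N + 1) l, List.prod_append, nil_iff_list.1 hN _
        (fun a ha => hl a (List.mem_of_mem_take ha)) (List.length_take_of_le h), zero_mul]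
  have : FiniteDimensional ℝ (Algebra.adjoin ℝ S) := by
    rw [← Subalgebra.finiteDimensional_toSubmodule, Algebra.adjoin_eq_span]
    exact FiniteDimensional.span_of_finite ℝ h1
  let e := ((Module.finBasis ℝ (Algebra.adjoin ℝ S)).equivFun.conjAlgEquiv ℝ).trans
    (Module.End.toContinuousLinearMap _)
  exact ⟨_, e.toAlgHom.comp Lm, e.injective.comp Lm_injective⟩

namespace KModAux

theorem model {A ι : Type} [Ring A] [Algebra ℝ A] [Finite ι] {f : ι → A} {N : ℕ}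
    (hN : Nil ℝ N (range f)) : ∃ (d : ℕ) (g : ι → (Fin d → ℝ) →L[ℝ] (Fin d → ℝ)),
      Nil ℝ N (range g) ∧ ∀ p q : FreeAlgebra ℝ ι, FreeAlgebra.lift ℝ g p = FreeAlgebra.lift ℝ g q ↔
        FreeAlgebra.lift ℝ f p = FreeAlgebra.lift ℝ f q := by
  obtain ⟨d, ρ, hρ⟩ := exists_model (finite_range f) hN
  let f' : ι → Algebra.adjoin ℝ (range f) := fun i => ⟨f i, Algebra.subset_adjoin ⟨i, rfl⟩⟩
  refine ⟨d, fun i => ρ (f' i), ?_, fun p q => ?_⟩
  · have h1 : Nil ℝ N (range f') := Nil.of_injective (Subalgebra.val _) Subtype.val_injective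
      (by rwa [← range_comp])
    have h2 := h1.map ρ
    rwa [← range_comp] at h2
  · rw [← map_lift, ← map_lift, hρ.eq_iff, ← Subtype.val_injective.eq_iff]
    exact (map_lift (Subalgebra.val _) f' p).congr (map_lift (Subalgebra.val _) f' q)

end KModAux

open KModAux

theorem KZ_const' {A : Type} [Ring A] [Algebra ℝ A] {N : ℕ} {a b : A} (h : Nil ℝ N {a, b}) {t : ℝ}
    (ht : t ∈ Ioo (0 : ℝ) 1) : ev b a (GT N (1 - t)) * ev a b (KZ N) = ev a b (GT N t) := by
  obtain ⟨d, g, h1, h2⟩ := model (f := ![a, b]) (h.mono le_rfl (range_subset_iff.2 fun i =>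
    Submodule.subset_span (by fin_cases i <;> simp)))
  have h3 := KZ_const (h1.mono le_rfl (pair_subset (Submodule.subset_span ⟨0, rfl⟩)
    (Submodule.subset_span ⟨1, rfl⟩))) ht
  have h4 := h2 (ev (FreeAlgebra.ι ℝ 1) (FreeAlgebra.ι ℝ 0) (GT N (1 - t)) *
    ev (FreeAlgebra.ι ℝ 0) (FreeAlgebra.ι ℝ 1) (KZ N))
    (ev (FreeAlgebra.ι ℝ 0) (FreeAlgebra.ι ℝ 1) (GT N t))
  simp only [map_mul, map_ev, FreeAlgebra.lift_ι_apply] at h4
  exact h4.1 h3

theorem KZ_good {N : ℕ} (hN : 1 ≤ N) : Good N (KZ N) := by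
  refine ⟨KZ_sub_one hN, fun A _ _ a1 b1 a2 b2 c1 c2 c3 c4 h => ?_, fun A _ _ t ht h => ?_⟩
  · obtain ⟨d, g, h1, h2⟩ := model (f := ![a1, b1, a2, b2]) (h.mono le_rfl
      (range_subset_iff.2 fun i => Submodule.subset_span (by fin_cases i <;> simp)))
    have c : ∀ i j, Commute (![a1, b1, a2, b2] i) (![a1, b1, a2, b2] j) → Commute (g i) (g j) :=
      fun i j hc => by
        have := h2 (FreeAlgebra.ι ℝ i * FreeAlgebra.ι ℝ j) (FreeAlgebra.ι ℝ j * FreeAlgebra.ι ℝ i)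
        simp only [map_mul, FreeAlgebra.lift_ι_apply] at this
        exact this.2 hc
    have h3 := KZ_grp (c 0 2 c1) (c 0 3 c2) (c 1 2 c3) (c 1 3 c4) (h1.mono le_rfl
      (Subset.trans (by simp [insert_subset_iff]) Submodule.subset_span))
    have h4 := h2 (ev (FreeAlgebra.ι ℝ 0 + FreeAlgebra.ι ℝ 2)
      (FreeAlgebra.ι ℝ 1 + FreeAlgebra.ι ℝ 3) (KZ N))
      (ev (FreeAlgebra.ι ℝ 2) (FreeAlgebra.ι ℝ 3) (KZ N) *
        ev (FreeAlgebra.ι ℝ 0) (FreeAlgebra.ι ℝ 1) (KZ N))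
    simp only [map_mul, map_ev, map_add, FreeAlgebra.lift_ι_apply] at h4
    exact h4.1 h3
  · obtain ⟨d, g, h1, h2⟩ := model h
    have h3 := KZ_pent (t := fun i j => g (i, j)) ⟨fun i j => ?_, fun i => ?_, fun i => ?_,
      fun i j k l a1 a2 a3 a4 => ?_⟩ h1
    · have h4 := h2 (ev (FreeAlgebra.ι ℝ (2, 3)) (FreeAlgebra.ι ℝ (3, 4)) (KZ N) *
        ev (FreeAlgebra.ι ℝ (4, 0)) (FreeAlgebra.ι ℝ (0, 1)) (KZ N) *
        ev (FreeAlgebra.ι ℝ (1, 2)) (FreeAlgebra.ι ℝ (2, 3)) (KZ N) *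
        ev (FreeAlgebra.ι ℝ (3, 4)) (FreeAlgebra.ι ℝ (4, 0)) (KZ N) *
        ev (FreeAlgebra.ι ℝ (0, 1)) (FreeAlgebra.ι ℝ (1, 2)) (KZ N)) 1
      simp only [map_mul, map_ev, map_one, FreeAlgebra.lift_ι_apply] at h4
      exact h4.1 h3
    · have := h2 (FreeAlgebra.ι ℝ (i, j)) (FreeAlgebra.ι ℝ (j, i))
      simp only [FreeAlgebra.lift_ι_apply] at this
      exact this.2 (ht.symm i j)
    · have := h2 (FreeAlgebra.ι ℝ (i, i)) 0
      simp only [map_zero, FreeAlgebra.lift_ι_apply] at this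
      exact this.2 (ht.diag i)
    · have := h2 (∑ j, FreeAlgebra.ι ℝ (i, j)) 0
      simp only [map_zero, map_sum, FreeAlgebra.lift_ι_apply] at this
      exact this.2 (ht.sum i)
    · have := h2 (FreeAlgebra.ι ℝ (i, j) * FreeAlgebra.ι ℝ (k, l))
        (FreeAlgebra.ι ℝ (k, l) * FreeAlgebra.ι ℝ (i, j))
      simp only [map_mul, FreeAlgebra.lift_ι_apply] at this
      exact this.2 (ht.comm i j k l a1 a2 a3 a4)

end Vale.Agent.P029
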