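import Vale.Agent.P029.KInt
import Vale.Agent.P029.KAsy

/-! The fundamental solution in one variable. -/

noncomputable section

namespace Vale.Agent.P029

open Set

namespace KOneAux

section wsum
variable {M M' : Type} [AddCommMonoid M] [AddCommMonoid M']

theorem wsum_map {Φ : Type} [FunLike Φ M M'] [AddHomClass Φ M M'] (f : Φ) (n : ℕ)
    (g : List (Fin 2) → M) : f (wsum n g) = wsum n fun w => f (g w) := by
  induction n generalizing g with
  | zero => rfl
  | succ n ih => rw [wsum, wsum, map_add, ih, ih]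

theorem wsum_rel {ι : Type} (P : (ι → M) → Prop)
    (hP : ∀ f g, P f → P g → P fun t => f t + g t) (n : ℕ) (g : List (Fin 2) → ι → M)
    (h : ∀ w, w.length = n → P (g w)) : P fun t => wsum n fun w => g w t := by
  induction n generalizing g with
  | zero => exact h [] rfl
  | succ n ih =>
    exact hP _ _ (ih _ fun w hw => h _ (congrArg (· + 1) hw))
      (ih _ fun w hw => h _ (congrArg (· + 1) hw))

theorem wsum_split (n : ℕ) (f : List (Fin 2) → M) : wsum n f =
    f (List.replicate n 0) + wsum n fun w => if ∀ j ∈ w, j = 0 then 0 else f w := by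
  induction n generalizing f with
  | zero => simp [wsum]
  | succ n ih =>
    rw [wsum, wsum, ih, add_assoc]
    simp [List.replicate_succ]

end wsum

theorem wsum_deriv {A : Type} [NormedRing A] [NormedAlgebra ℝ A] {t : ℝ} (n : ℕ)
    {g : List (Fin 2) → ℝ → A} {g' : List (Fin 2) → A} (h : ∀ w, HasDerivAt (g w) (g' w) t) :
    HasDerivAt (fun τ => wsum n fun w => g w τ) (wsum n g') t := by
  induction n generalizing g g' with
  | zero => exact h []
  | succ n ih => exact (ih fun w => h _).add (ih fun w => h _)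

theorem wd_zero (w : List (Fin 2)) : wd (0 :: w) = X ℝ * wd w := List.prod_cons

theorem wd_one (w : List (Fin 2)) : wd (1 :: w) = Y ℝ * wd w := List.prod_cons

theorem X_VT : X ℝ ∈ VT ℝ := Submodule.subset_span (by simp)

theorem Y_VT : Y ℝ ∈ VT ℝ := Submodule.subset_span (by simp)

theorem wd_mem (w : List (Fin 2)) : wd w ∈ VT ℝ ^ w.length := by
  induction w with
  | nil => exact Submodule.one_le.1 (pow_zero _).ge
  | cons i w ih =>
    rw [List.length_cons, pow_succ' _ _]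
    fin_cases i
    exacts [Submodule.mul_mem_mul X_VT ih, Submodule.mul_mem_mul Y_VT ih]

/-- the homogeneous components of the fundamental solution -/
def Hn (n : ℕ) (t : ℝ) : T ℝ := wsum n fun w => gi w t • wd w

theorem GT_eq (N : ℕ) (t : ℝ) : GT N t = ∑ n ∈ Finset.range (N + 1), Hn n t := rfl

theorem Hn_zero (t : ℝ) : Hn 0 t = 1 := one_smul _ _

theorem Hn_mem (n : ℕ) (t : ℝ) : Hn n t ∈ Fl (VT ℝ) n :=
  pow_le_Fl _ _ (wsum_rel (fun f : Unit → T ℝ => f () ∈ VT ℝ ^ n) (fun _ _ => add_mem) n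
    (fun w _ => gi w t • wd w) fun w hw => Submodule.smul_mem _ _ (hw ▸ wd_mem w))

theorem ev_Hn {A : Type} [Ring A] [Algebra ℝ A] (a b : A) (n : ℕ) (t : ℝ) :
    ev a b (Hn n t) = wsum n fun w => gi w t • ev a b (wd w) := by
  simp only [Hn, wsum_map, map_smul]

theorem pow_mem {m : T ℝ} (hm : m ∈ Fl (VT ℝ) 1) (n : ℕ) : m ^ n ∈ Fl (VT ℝ) n := by
  induction n with
  | zero => simp [Fl_zero]
  | succ n ih => exact pow_succ m n ▸ Fl_mul VT_gen ih hm

theorem nil_pow {A : Type} [Ring A] [Algebra ℝ A] {N : ℕ} {S : Set A} (h : Nil ℝ N S) {a : A}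
    (ha : a ∈ Submodule.span ℝ S) : a ^ (N + 1) = 0 :=
  (Submodule.mem_bot ℝ).1 (h ▸ Submodule.pow_mem_pow _ ha (N + 1))

theorem ev_invT_eq {A : Type} [Ring A] [Algebra ℝ A] (a b : A) (N : ℕ) (m : T ℝ) :
    ev a b (invT N m) = ∑ n ∈ Finset.range (N + 1), (1 - ev a b m) ^ n := by
  simp only [invT, map_sum, map_pow, map_sub, map_one]

end KOneAux

open KOneAux

theorem GT_sub_one (N : ℕ) (t : ℝ) : GT N t - 1 ∈ Fl (VT ℝ) 1 := by
  rw [GT_eq, Finset.sum_range_succ', Hn_zero, add_sub_cancel_right]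
  exact sum_mem fun n _ => Fl_anti _ (Nat.le_add_left 1 n) (Hn_mem _ t)

theorem ev_invT {A : Type} [Ring A] [Algebra ℝ A] {N : ℕ} {a b : A} (h : Nil ℝ N {a, b})
    {m : T ℝ} (hm : m - 1 ∈ Fl (VT ℝ) 1) :
    ev a b (invT N m) * ev a b m = 1 ∧ ev a b m * ev a b (invT N m) = 1 := by
  have h1 := ev_eq_zero_of_nil h (Submodule.subset_span (mem_insert a _))
    (Submodule.subset_span (mem_insert_of_mem a (mem_singleton b)))
    (pow_mem (neg_sub m 1 ▸ neg_mem hm) (N + 1))
  rw [map_pow, map_sub, map_one] at h1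
  have h2 := geom_sum_mul_neg (1 - ev a b m) (N + 1)
  have h3 := mul_neg_geom_sum (1 - ev a b m) (N + 1)
  rw [h1, sub_zero, sub_sub_cancel, ← ev_invT_eq] at h2 h3
  exact ⟨h2, h3⟩

theorem KZ_sub_one {N : ℕ} (hN : 1 ≤ N) : KZ N - 1 ∈ Fl (VT ℝ) 2 := by
  have h1 : GT N (1 / 2) - ev (Y ℝ) (X ℝ) (GT N (1 / 2)) ∈ Fl (VT ℝ) 2 := by
    rw [GT_eq, map_sum, ← Finset.sum_sub_distrib]
    refine sum_mem fun n _ => ?_
    rcases n with _ | _ | n
    · simp [Hn_zero]
    · have e0 : gi [0] (1 / 2) = Real.log (1 / 2) := by simpa using gi_replicate 1 (1 / 2)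
      have e1 : gi [1] (1 / 2) = Real.log (1 / 2) := by
        rw [gi_one ⟨by norm_num, by norm_num⟩]
        norm_num
      have e2 : wd [] = 1 := rfl
      simp only [Hn, wsum, zero_add, e0, e1, wd_zero, wd_one, e2, mul_one, map_add, map_smul, ev_X,
        ev_Y]
      rw [add_comm, sub_self]
      exact zero_mem _
    · exact Fl_anti _ (by omega) (sub_mem (Hn_mem _ _) (ev_mem_Fl Y_VT X_VT (Hn_mem _ _)))
  have h2 := ev_mem_Fl Y_VT X_VT (GT_sub_one N (1 / 2))
  rw [map_sub, map_one] at h2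
  have h3 := geom_sum_mul_neg (1 - ev (Y ℝ) (X ℝ) (GT N (1 / 2))) (N + 1)
  rw [sub_sub_cancel, ← invT] at h3
  have h4 := sub_mem (Fl_mul_left VT_gen (invT N (ev (Y ℝ) (X ℝ) (GT N (1 / 2)))) h1)
    (Fl_anti _ (by omega) (pow_mem (neg_sub _ (1 : T ℝ) ▸ neg_mem h2) (N + 1)))
  rwa [mul_sub, h3, sub_sub, sub_add_cancel] at h4

variable {A : Type} [NormedRing A] [NormedAlgebra ℝ A] [CompleteSpace A] {N : ℕ} {a b : A}

theorem G_deriv (h : Nil ℝ N {a, b}) {t : ℝ} (ht : t ∈ Ioo (0 : ℝ) 1) :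
    HasDerivAt (fun τ => ev a b (GT N τ)) ((t⁻¹ • a + (t - 1)⁻¹ • b) * ev a b (GT N t)) t := by
  have h1 : ∀ n, HasDerivAt (fun τ => ev a b (Hn (n + 1) τ))
      ((t⁻¹ • a + (t - 1)⁻¹ • b) * ev a b (Hn n t)) t := fun n => by
    have a1 := (wsum_deriv n fun w => (gi_deriv_zero w ht).smul_const (ev a b (wd (0 :: w)))).fun_add
      (wsum_deriv n fun w => (gi_deriv_one w ht).smul_const (ev a b (wd (1 :: w))))
    have a2 : ∀ (c : A) (r : ℝ), (r⁻¹ • c) * ev a b (Hn n t) =
        wsum n fun w => (gi w t / r) • (c * ev a b (wd w)) := fun c r => by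
      rw [ev_Hn]
      refine (wsum_map (AddMonoidHom.mulLeft (r⁻¹ • c)) n _).trans (congrArg _ (funext fun w => ?_))
      rw [AddMonoidHom.coe_mulLeft, smul_mul_smul_comm, div_eq_inv_mul]
    rw [add_mul, a2, a2]
    simpa only [ev_Hn, wsum, wd_zero, wd_one, map_mul, ev_X, ev_Y] using a1
  have ma := Submodule.subset_span (R := ℝ) (mem_insert a {b})
  have mb := Submodule.subset_span (R := ℝ) (mem_insert_of_mem a (mem_singleton b))
  have h2 := ev_mul_eq_zero_of_nil h ma mb ma mb (add_comm N 1).le (pow_le_Fl _ _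
    ((pow_one (VT ℝ)).ge (add_mem ((VT ℝ).smul_mem t⁻¹ X_VT) ((VT ℝ).smul_mem (t - 1)⁻¹ Y_VT))))
    (Hn_mem N t)
  rw [map_add, map_smul, map_smul, ev_X, ev_Y] at h2
  rw [GT_eq, map_sum, Finset.sum_range_succ, mul_add, h2, add_zero, Finset.mul_sum]
  simp only [GT_eq, map_sum, Finset.sum_range_succ', Hn_zero, map_add, map_one]
  exact (HasDerivAt.fun_sum fun n _ => h1 n).add_const _

theorem Ginv_deriv (h : Nil ℝ N {a, b}) {t : ℝ} (ht : t ∈ Ioo (0 : ℝ) 1) :
    HasDerivAt (fun τ => ev a b (invT N (GT N τ)))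
      (- (ev a b (invT N (GT N t)) * (t⁻¹ • a + (t - 1)⁻¹ • b))) t := by
  have h1 := G_deriv h ht
  have h2 : DifferentiableAt ℝ (fun τ => ev a b (invT N (GT N τ))) t := by
    have := h1.differentiableAt
    simp only [ev_invT_eq]
    fun_prop
  have h3 := h2.hasDerivAt
  have h4 := (h3.mul h1).unique ((hasDerivAt_const t (1 : A)).congr_of_eventuallyEq
    (.of_forall fun τ => (ev_invT h (GT_sub_one N τ)).1))
  have h5 := congrArg (· * ev a b (invT N (GT N t))) (eq_neg_of_add_eq_zero_left h4)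
  simp only [neg_mul, mul_assoc, (ev_invT h (GT_sub_one N t)).2, mul_one] at h5
  rwa [h5] at h3

theorem G_tiny (N : ℕ) (a b : A) : Tiny (fun t => ev a b (GT N t) - pw N a t) := by
  have h1 : ∀ n, ev a b (wd (List.replicate n 0)) = a ^ n := fun n => by
    rw [wd, List.map_replicate, List.prod_replicate, map_pow]
    exact congrArg (· ^ n) (ev_X a b)
  refine (Tiny.sum (Finset.range (N + 1)) fun n _ => wsum_rel Tiny (fun _ _ => Tiny.add) n
    (fun w t => if ∀ j ∈ w, j = 0 then 0 else gi w t • ev a b (wd w)) fun w _ => ?_).congr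
    fun t _ _ => ?_
  · split_ifs with hw
    · exact Tiny.zero
    · obtain ⟨C, hC⟩ := (gi_spec w).2.2 hw (1 / 2) (by norm_num)
      exact Tiny.smul_const ⟨C, 0, fun t h0 h1 => by simpa using hC t h0 h1⟩ _
  · rw [GT_eq, map_sum, pw, ← Finset.sum_sub_distrib]
    refine Finset.sum_congr rfl fun n _ => ?_
    rw [ev_Hn, wsum_split, gi_replicate, h1, add_sub_cancel_left]

theorem G_temp (N : ℕ) (a b : A) : Temp (fun t => ev a b (GT N t)) :=
  ((G_tiny N a b).temp.add (temp_pw N a)).congr fun _ _ _ => (sub_add_cancel _ _).symm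

theorem Ginv_temp (N : ℕ) (a b : A) : Temp (fun t => ev a b (invT N (GT N t))) :=
  (Temp.sum (Finset.range (N + 1)) fun n _ => ((Temp.const 1).sub (G_temp N a b)).pow n).congr
    fun _ _ _ => ev_invT_eq _ _ _ _

theorem Ginv_tiny (h : Nil ℝ N {a, b}) :
    Tiny (fun t => ev a b (invT N (GT N t)) - pw N (-a) t) := by
  refine (((G_tiny N a b).neg.temp_mul (Ginv_temp N a b)).mul_temp (temp_pw N (-a))).congr
    fun t _ _ => ?_
  rw [neg_sub, mul_sub, (ev_invT h (GT_sub_one N t)).1, sub_mul, one_mul, mul_assoc,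
    (pw_mul_neg (nil_pow h (Submodule.subset_span (mem_insert a _))) t).1, mul_one]

end Vale.Agent.P029
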