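import Vale.Agent.P029.KEdge
import Vale.Agent.P029.KFlat

/-! The pentagon equation for the truncated associator. -/

noncomputable section

namespace Vale.Agent.P029

open Set KOneAux KTwoAux KEdgeAux

variable {A : Type} [NormedRing A] [NormedAlgebra ℝ A] [CompleteSpace A] {N : ℕ}

namespace KPentAux

/-- the hypotheses that are preserved by the rotation -/
def Hyp (N : ℕ) (s : Fin 5 → A) (F : ℝ × ℝ → A) : Prop :=
  Nil ℝ N (range s) ∧ Flat s F ∧ ∀ i, Commute (s i) (s (i + 1))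

theorem Hyp.rot {s : Fin 5 → A} {F : ℝ × ℝ → A} (h : Hyp N s F) :
    Hyp N (fun i => s (i + 1)) fun p => F (rot p) :=
  ⟨h.1.mono le_rfl (range_subset_iff.2 fun _ => Submodule.subset_span ⟨_, rfl⟩), h.2.1.rot,
    fun _ => h.2.2 _⟩

theorem Hyp.step {s : Fin 5 → A} {F : ℝ × ℝ → A} (h : Hyp N s F) :
    ∃ Φ : ℝ → A, Near Φ (fun _ => ev (s 0) (s 2) (KZ N)) ∧ ∀ ε, 0 < ε → ε ≤ 1 / 2 →
      pw N (-(s 1 + s 2)) ε * F (P029.rot (ε, ε)) = Φ ε * (pw N (-(s 0 + s 1)) ε * F (ε, ε)) := by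
  obtain ⟨E, hE, e⟩ := edge h.1 h.2.1 (h.2.2 0).symm (h.2.2 1)
  refine ⟨_, Near.add _ hE, fun ε h0 h1 => ?_⟩
  rw [rot_diag h0 (by linarith), e ε h0 h1]
  simp only [← mul_assoc, (pw_mul_neg (nil_pow h.1 (add_mem (Submodule.subset_span ⟨1, rfl⟩)
    (Submodule.subset_span ⟨2, rfl⟩))) ε).2, one_mul]

theorem Hyp.pent {s : Fin 5 → A} {F : ℝ × ℝ → A} (h : Hyp N s F) :
    ev (s 4) (s 1) (KZ N) * ev (s 3) (s 0) (KZ N) * ev (s 2) (s 4) (KZ N) *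
      ev (s 1) (s 3) (KZ N) * ev (s 0) (s 2) (KZ N) = 1 := by
  obtain ⟨Φ0, n0, e0⟩ := h.step
  obtain ⟨Φ1, n1, e1⟩ := h.rot.step
  obtain ⟨Φ2, n2, e2⟩ := h.rot.rot.step
  obtain ⟨Φ3, n3, e3⟩ := h.rot.rot.rot.step
  obtain ⟨Φ4, n4, e4⟩ := h.rot.rot.rot.rot.step
  simp only [Fin.reduceAdd] at n1 n2 n3 n4 e1 e2 e3 e4
  refine (sub_eq_zero.1 (tiny_const (((((n4.mul n3).mul n2).mul n1).mul n0).2.congr
    fun ε h0 h1 => ?_))).symm
  have hp : (ε, ε) ∈ cell := ⟨⟨h0, by linarith⟩, h0, by linarith⟩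
  have u := pw_mul_neg (nil_pow h.1 (add_mem (Submodule.subset_span ⟨0, rfl⟩)
    (Submodule.subset_span ⟨1, rfl⟩))) ε
  have e := e4 ε h0 h1
  rw [rot_five hp, e3 ε h0 h1, e2 ε h0 h1, e1 ε h0 h1, e0 ε h0 h1] at e
  simp only [← mul_assoc] at e
  have e' := congrArg (· * pw N (s 0 + s 1) ε) ((h.2.1 _ hp).1.mul_right_cancel e)
  simp only [mul_assoc, u.2, mul_one] at e'
  simp only [mul_assoc, ← e']

end KPentAux

theorem KZ_pent [FiniteDimensional ℝ A] {t : Fin 5 → Fin 5 → A} (ht : Fam5 t)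
    (hN : Nil ℝ N (Set.range fun p : Fin 5 × Fin 5 => t p.1 p.2)) :
    ev (t 2 3) (t 3 4) (KZ N) * ev (t 4 0) (t 0 1) (KZ N) * ev (t 1 2) (t 2 3) (KZ N) *
      ev (t 3 4) (t 4 0) (KZ N) * ev (t 0 1) (t 1 2) (KZ N) = 1 := by
  have h1 : Nil ℝ N (range (sides t)) := hN.mono le_rfl (range_subset_iff.2 fun i => by
    fin_cases i <;> exact Submodule.subset_span ⟨(_, _), rfl⟩)
  obtain ⟨F, hF⟩ := exists_flat h1 fun p hp => cP_commute ht hp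
  refine KPentAux.Hyp.pent (s := sides t) ⟨h1, hF, fun i => ?_⟩
  fin_cases i <;> exact ht.comm _ _ _ _ (by decide) (by decide) (by decide) (by decide)

end Vale.Agent.P029
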