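import Vale.Agent.P029.KOne

/-! Uniqueness, the connection formula and multiplicativity. -/

noncomputable section

namespace Vale.Agent.P029

open Set

namespace KTwoAux

variable {A : Type} [NormedRing A] [NormedAlgebra ℝ A]

theorem const_of_deriv {W : ℝ → A} (hW : ∀ t ∈ Ioo (0 : ℝ) 1, HasDerivAt W 0 t) {s t : ℝ}
    (hs : s ∈ Ioo (0 : ℝ) 1) (ht : t ∈ Ioo (0 : ℝ) 1) : W s = W t :=
  isOpen_Ioo.is_const_of_deriv_eq_zero isPreconnected_Ioo
    (fun x hx => (hW x hx).differentiableAt.differentiableWithinAt) (fun x hx => (hW x hx).deriv)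
    hs ht

theorem tiny_const {c : A} (h : Tiny fun _ => c) : c = 0 :=
  tendsto_const_nhds_iff.1 h.tendsto

end KTwoAux

open KOneAux KTwoAux

variable {A : Type} [NormedRing A] [NormedAlgebra ℝ A] [CompleteSpace A] {N : ℕ} {a b : A}

/-- uniqueness of the normalised solution -/
theorem G_unique (h : Nil ℝ N {a, b}) {Z : ℝ → A}
    (hZ : ∀ t ∈ Ioo (0 : ℝ) 1, HasDerivAt Z ((t⁻¹ • a + (t - 1)⁻¹ • b) * Z t) t)
    (h0 : Tiny (fun t => Z t - pw N a t)) : ∀ t ∈ Ioo (0 : ℝ) 1, Z t = ev a b (GT N t) := by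
  intro t ht
  have h1 : ∀ s ∈ Ioo (0 : ℝ) 1, HasDerivAt (fun τ => ev a b (invT N (GT N τ)) * Z τ) 0 s :=
    fun s hs => ((Ginv_deriv h hs).fun_mul (hZ s hs)).congr_deriv
      (by rw [neg_mul, mul_assoc, neg_add_cancel])
  have ha := nil_pow h (Submodule.subset_span (mem_insert a {b}))
  have h2 : ev a b (invT N (GT N t)) * Z t - 1 = 0 := by
    refine tiny_const (((h0.temp_mul (Ginv_temp N a b)).add
      ((Ginv_tiny h).mul_temp (temp_pw N a))).congr fun s s0 s1 => ?_)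
    rw [const_of_deriv h1 ht (⟨s0, by linarith⟩ : s ∈ Ioo (0 : ℝ) 1), mul_sub, sub_mul,
      (pw_mul_neg ha s).2, sub_add_sub_cancel]
  rw [← one_mul (Z t), ← (ev_invT h (GT_sub_one N t)).2, mul_assoc, sub_eq_zero.1 h2, mul_one]

theorem KZ_const (h : Nil ℝ N {a, b}) {t : ℝ} (ht : t ∈ Ioo (0 : ℝ) 1) :
    ev b a (GT N (1 - t)) * ev a b (KZ N) = ev a b (GT N t) := by
  have h' : Nil ℝ N {b, a} := pair_comm a b ▸ h
  have h1 : ∀ s ∈ Ioo (0 : ℝ) 1,
      HasDerivAt (fun τ => ev b a (invT N (GT N (1 - τ))) * ev a b (GT N τ)) 0 s := fun s hs => by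
    have a1 := (Ginv_deriv h' (t := 1 - s) ⟨by linarith [hs.2], by linarith [hs.1]⟩).scomp s
      ((hasDerivAt_id' s).const_sub 1)
    refine (a1.fun_mul (G_deriv h hs)).congr_deriv ?_
    rw [neg_smul, one_smul, neg_neg, sub_sub_cancel_left, ← neg_sub s 1, inv_neg, inv_neg,
      neg_smul, neg_smul, ← neg_add, add_comm _ (s⁻¹ • a), mul_neg, neg_mul, mul_assoc, neg_sub]
    exact neg_add_cancel (_ : A)
  have h2 := const_of_deriv h1 ht (⟨by norm_num, by norm_num⟩ : 1 / 2 ∈ Ioo (0 : ℝ) 1)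
  have h3 : ev a b (KZ N) = ev b a (invT N (GT N (1 - 1 / 2))) * ev a b (GT N (1 / 2)) := by
    rw [KZ, map_mul, ev_invT_eq, ev_invT_eq, map_ev, ev_X, ev_Y, sub_half]
  rw [h3, ← h2, ← mul_assoc, (ev_invT h' (GT_sub_one N _)).2, one_mul]

namespace KTwoAux

theorem G_mul {a1 b1 a2 b2 : A} (h1 : Commute a1 a2) (h2 : Commute a1 b2) (h3 : Commute b1 a2)
    (h4 : Commute b1 b2) {S : Set A} (h : Nil ℝ N S) (m1 : a1 ∈ Submodule.span ℝ S)
    (n1 : b1 ∈ Submodule.span ℝ S) (m2 : a2 ∈ Submodule.span ℝ S) (n2 : b2 ∈ Submodule.span ℝ S)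
    {t : ℝ} (ht : t ∈ Ioo (0 : ℝ) 1) :
    ev (a1 + a2) (b1 + b2) (GT N t) = ev a2 b2 (GT N t) * ev a1 b1 (GT N t) := by
  refine (G_unique (Z := fun t => ev a2 b2 (GT N t) * ev a1 b1 (GT N t))
    (h.mono le_rfl (pair_subset (add_mem m1 m2) (add_mem n1 n2))) (fun s hs => ?_) ?_ t ht).symm
  · refine ((G_deriv (h.mono le_rfl (pair_subset m2 n2)) hs).fun_mul
      (G_deriv (h.mono le_rfl (pair_subset m1 n1)) hs)).congr_deriv ?_
    have c : Commute (s⁻¹ • a1 + (s - 1)⁻¹ • b1) (ev a2 b2 (GT N s)) :=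
      ((commute_ev h1 h2 _).smul_left _).add_left ((commute_ev h3 h4 _).smul_left _)
    rw [← mul_assoc _ (s⁻¹ • a1 + _), ← c.eq, mul_assoc, mul_assoc, ← add_mul, smul_add, smul_add]
    congr 1
    abel
  · refine (((G_tiny N a2 b2).mul_temp (G_temp N a1 b1)).add
      ((G_tiny N a1 b1).temp_mul (temp_pw N a2))).congr fun s _ _ => ?_
    rw [add_comm a1, pw_mul_of_commute h1.symm (nil_pow h m2) (nil_pow h m1)
      (nil_pow h (add_mem m2 m1)), sub_mul, mul_sub, sub_add_sub_cancel]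

end KTwoAux

theorem KZ_grp {a1 b1 a2 b2 : A} (h1 : Commute a1 a2) (h2 : Commute a1 b2) (h3 : Commute b1 a2)
    (h4 : Commute b1 b2) (h : Nil ℝ N {a1, b1, a2, b2}) :
    ev (a1 + a2) (b1 + b2) (KZ N) = ev a2 b2 (KZ N) * ev a1 b1 (KZ N) := by
  have m1 : a1 ∈ Submodule.span ℝ {a1, b1, a2, b2} := Submodule.subset_span (by simp)
  have n1 : b1 ∈ Submodule.span ℝ {a1, b1, a2, b2} := Submodule.subset_span (by simp)
  have m2 : a2 ∈ Submodule.span ℝ {a1, b1, a2, b2} := Submodule.subset_span (by simp)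
  have n2 : b2 ∈ Submodule.span ℝ {a1, b1, a2, b2} := Submodule.subset_span (by simp)
  have hh : 1 / 2 ∈ Ioo (0 : ℝ) 1 := ⟨by norm_num, by norm_num⟩
  have hh' : 1 - 1 / 2 ∈ Ioo (0 : ℝ) 1 := ⟨by norm_num, by norm_num⟩
  have e := KZ_const (h.mono le_rfl (pair_subset (add_mem m1 m2) (add_mem n1 n2))) hh
  have c : Commute (ev b1 a1 (GT N (1 - 1 / 2))) (ev a2 b2 (KZ N)) :=
    commute_ev (commute_ev h3.symm h1.symm _).symm (commute_ev h4.symm h2.symm _).symm _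
  rw [G_mul h1 h2 h3 h4 h m1 n1 m2 n2 hh, ← KZ_const (h.mono le_rfl (pair_subset m1 n1)) hh,
    ← KZ_const (h.mono le_rfl (pair_subset m2 n2)) hh, mul_assoc, ← mul_assoc (ev a2 b2 _),
    ← c.eq, mul_assoc, ← mul_assoc, ← G_mul h4 h3 h2 h1 h n1 m1 n2 m2 hh'] at e
  have u := (ev_invT (h.mono le_rfl (pair_subset (add_mem n1 n2) (add_mem m1 m2)))
    (GT_sub_one N (1 - 1 / 2))).1
  rw [← one_mul (ev _ _ (KZ N)), ← u, mul_assoc, e, ← mul_assoc, u, one_mul]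

end Vale.Agent.P029
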