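import Vale.Agent.P029.Core

/-! Potentials on the fifteen vertices. -/

noncomputable section

namespace Vale.Agent.P029

variable {K M : Type} [Field K] [CharZero K] [AddCommGroup M] [Module K M]

theorem d5_perm {i j k l m : Fin 5} (h : D5 i j k l m) (a b c d e : Fin 5) (h' : D5 a b c d e) :
    D5 (![i, j, k, l, m] a) (![i, j, k, l, m] b) (![i, j, k, l, m] c) (![i, j, k, l, m] d)
      (![i, j, k, l, m] e) := by
  have inj : Function.Injective ![i, j, k, l, m] := by
    obtain ⟨h1, h2, h3, h4, h5, h6, h7, h8, h9, h10⟩ := h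
    intro p q hpq
    fin_cases p <;> fin_cases q <;> simp_all [eq_comm]
  obtain ⟨h1, h2, h3, h4, h5, h6, h7, h8, h9, h10⟩ := h'
  exact ⟨inj.ne h1, inj.ne h2, inj.ne h3, inj.ne h4, inj.ne h5, inj.ne h6, inj.ne h7, inj.ne h8,
    inj.ne h9, inj.ne h10⟩

/-- the normalised potential -/
def pot (K : Type) [Field K] {M : Type} [AddCommGroup M] [Module K M]
    (E : Fin 5 → Fin 5 → Fin 5 → M) (i j k l m : Fin 5) : M :=
  (-1 / 15 : K) • E i j k + (-1 / 15 : K) • E i j l + (-5 / 15 : K) • E i j m + (2 / 15 : K) • E i k l + (2 / 15 : K) • E i l k + (-1 / 15 : K) • E j i k + (-1 / 15 : K) • E j i l + (-3 / 15 : K) • E j i m + (1 / 15 : K) • E j k l + (1 / 15 : K) • E j l k + (1 / 15 : K) • E k j m + (-3 / 15 : K) • E k l m + (1 / 15 : K) • E l j m + (-3 / 15 : K) • E l k m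

theorem tri_id (E : Fin 5 → Fin 5 → Fin 5 → M) (hA : ∀ i j k, E k j i = - E i j k)
    (hP : ∀ i j k l m, D5 i j k l m → E i j k + E l m i + E j k l + E m i j + E k l m = 0) :
    (E 1 0 2 + E 0 2 1 + E 2 1 0) + (E 3 0 4 + E 0 4 3 + E 4 3 0) =
      (E 4 0 1 + E 0 1 4 + E 1 4 0) + (E 2 0 3 + E 0 3 2 + E 3 2 0) := by
  linear_combination (norm := module) (-1 : ℤ) • hP 0 1 2 3 4 (by unfold D5; decide) +
    (-1 : ℤ) • hP 0 1 4 3 2 (by unfold D5; decide) +
    (1 : ℤ) • hP 0 2 1 4 3 (by unfold D5; decide) +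
    (-1 : ℤ) • hP 0 3 2 1 4 (by unfold D5; decide) +
    (1 : ℤ) • hA 0 1 2 +
    (1 : ℤ) • hA 0 4 3 +
    (1 : ℤ) • hA 1 0 2 +
    (1 : ℤ) • hA 1 2 3 +
    (-1 : ℤ) • hA 2 0 3 +
    (1 : ℤ) • hA 2 3 4 +
    (1 : ℤ) • hA 3 0 4

theorem exists_pot (E : Fin 5 → Fin 5 → Fin 5 → M) (hA : ∀ i j k, E k j i = - E i j k)
    (hP : ∀ i j k l m, D5 i j k l m → E i j k + E l m i + E j k l + E m i j + E k l m = 0)
    (hT : ∀ i j k l m, D5 i j k l m → E i j k + E j k i + E k i j = 0) :
    ∃ V : Fin 5 → Fin 5 → Fin 5 → Fin 5 → Fin 5 → M,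
      (∀ J : Submodule K M, (∀ i j l, E i j l ∈ J) → ∀ i j k l m, V i j k l m ∈ J) ∧
      ∀ i j k l m, D5 i j k l m → V j i k l m = V i j k l m ∧ V i j l k m = V i j k l m ∧
        V k l i j m = V i j k l m ∧ V j m k l i - V i j k l m = E i j m := by
  refine ⟨pot K E, fun J hJ i j k l m => ?_, fun i j k l m hd => ?_⟩
  · unfold pot
    repeat' first | exact J.smul_mem _ (hJ _ _ _) | refine J.add_mem ?_ ?_
  · refine ⟨?_, ?_, ?_, ?_⟩
    · have q0 := hP i k l j m (d5_perm hd 0 2 3 1 4 (by unfold D5; decide))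
      have q1 := hP i l k j m (d5_perm hd 0 3 2 1 4 (by unfold D5; decide))
      have q2 := hT i j m k l (d5_perm hd 0 1 4 2 3 (by unfold D5; decide))
      unfold pot
      linear_combination (norm := module) (-1 / 15 : K) • q0 +
        (-1 / 15 : K) • q1 +
        (2 / 15 : K) • q2 +
        (-2 / 15 : K) • hA j i m +
        (1 / 15 : K) • hA j k l +
        (1 / 15 : K) • hA j l k +
        (1 / 15 : K) • hA k i m +
        (1 / 15 : K) • hA l i m
    · unfold pot
      module
    · have q0 := hP i j k l m (d5_perm hd 0 1 2 3 4 (by unfold D5; decide))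
      have q1 := hP i k j l m (d5_perm hd 0 2 1 3 4 (by unfold D5; decide))
      have q2 := hP i k l j m (d5_perm hd 0 2 3 1 4 (by unfold D5; decide))
      have q3 := hP i l k j m (d5_perm hd 0 3 2 1 4 (by unfold D5; decide))
      have q4 := hT i j k l m (d5_perm hd 0 1 2 3 4 (by unfold D5; decide))
      have q5 := hT i j m k l (d5_perm hd 0 1 4 2 3 (by unfold D5; decide))
      have q6 := hT i l m j k (d5_perm hd 0 3 4 1 2 (by unfold D5; decide))
      have q7 := hT j k l i m (d5_perm hd 1 2 3 0 4 (by unfold D5; decide))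
      unfold pot
      linear_combination (norm := module) (-2 / 15 : K) • q0 +
        (1 / 15 : K) • q1 +
        (-1 / 15 : K) • q2 +
        (-1 / 15 : K) • q3 +
        (1 / 15 : K) • q4 +
        (2 / 15 : K) • q5 +
        (1 / 15 : K) • q6 +
        (1 / 15 : K) • q7 +
        (2 / 15 : K) • hA i j k +
        (1 / 15 : K) • hA i j l +
        (-1 / 15 : K) • hA i k j +
        (-1 / 15 : K) • hA i k l +
        (-1 / 15 : K) • hA i l k +
        (1 / 15 : K) • hA j i k +
        (1 / 15 : K) • hA j i l +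
        (-1 / 15 : K) • hA j l k +
        (-1 / 15 : K) • hA k j l
    · have q0 := hP i j k l m (d5_perm hd 0 1 2 3 4 (by unfold D5; decide))
      have q1 := hP i j l k m (d5_perm hd 0 1 3 2 4 (by unfold D5; decide))
      have q2 := hP i j l m k (d5_perm hd 0 1 3 4 2 (by unfold D5; decide))
      have q3 := hP i j m k l (d5_perm hd 0 1 4 2 3 (by unfold D5; decide))
      have q4 := hP i j m l k (d5_perm hd 0 1 4 3 2 (by unfold D5; decide))
      have q5 := hP i k j l m (d5_perm hd 0 2 1 3 4 (by unfold D5; decide))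
      have q6 := hP i k j m l (d5_perm hd 0 2 1 4 3 (by unfold D5; decide))
      have q7 := hP i k l j m (d5_perm hd 0 2 3 1 4 (by unfold D5; decide))
      have q8 := hP i k m j l (d5_perm hd 0 2 4 1 3 (by unfold D5; decide))
      have q9 := hP i l j k m (d5_perm hd 0 3 1 2 4 (by unfold D5; decide))
      have q10 := hP i l k j m (d5_perm hd 0 3 2 1 4 (by unfold D5; decide))
      have q11 := hT i j k l m (d5_perm hd 0 1 2 3 4 (by unfold D5; decide))
      have q12 := hT i j l k m (d5_perm hd 0 1 3 2 4 (by unfold D5; decide))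
      have q13 := hT i j m k l (d5_perm hd 0 1 4 2 3 (by unfold D5; decide))
      have q14 := hT i k l j m (d5_perm hd 0 2 3 1 4 (by unfold D5; decide))
      have q15 := hT i k m j l (d5_perm hd 0 2 4 1 3 (by unfold D5; decide))
      have q16 := hT i l m j k (d5_perm hd 0 3 4 1 2 (by unfold D5; decide))
      have q17 := hT j k l i m (d5_perm hd 1 2 3 0 4 (by unfold D5; decide))
      have q18 := hT j k m i l (d5_perm hd 1 2 4 0 3 (by unfold D5; decide))
      have q19 := hT k l m i j (d5_perm hd 2 3 4 0 1 (by unfold D5; decide))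
      unfold pot
      linear_combination (norm := module) (-1 / 15 : K) • q0 +
        (1 / 5 : K) • q1 +
        (-4 / 15 : K) • q2 +
        (-1 / 5 : K) • q3 +
        (1 / 15 : K) • q4 +
        (4 / 15 : K) • q5 +
        (-2 / 15 : K) • q6 +
        (-1 / 15 : K) • q7 +
        (-1 / 15 : K) • q8 +
        (1 / 15 : K) • q9 +
        (1 / 15 : K) • q10 +
        (2 / 15 : K) • q11 +
        (2 / 15 : K) • q12 +
        (-1 / 3 : K) • q13 +
        (1 / 5 : K) • q14 +
        (-1 / 5 : K) • q15 +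
        (-2 / 15 : K) • q16 +
        (1 / 5 : K) • q17 +
        (-1 / 15 : K) • q18 +
        (4 / 15 : K) • q19 +
        (-1 / 5 : K) • hA i j m +
        (-2 / 15 : K) • hA i k j +
        (-4 / 15 : K) • hA i k l +
        (4 / 15 : K) • hA i k m +
        (-1 / 15 : K) • hA i l j +
        (-1 / 5 : K) • hA i l k +
        (2 / 15 : K) • hA i l m +
        (1 / 15 : K) • hA j i k +
        (1 / 15 : K) • hA j i l +
        (1 / 5 : K) • hA j i m +
        (-1 / 15 : K) • hA j k l +
        (-2 / 15 : K) • hA j l k +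
        (2 / 15 : K) • hA j m k +
        (-4 / 15 : K) • hA k j l

end Vale.Agent.P029
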