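import Vale.Agent.P029.Fam
import Vale.Agent.P029.Func
import Vale.Agent.P029.Pot

/-! Consequences of the pentagon: three-cycle and special relations, deformation of families. -/

noncomputable section

namespace Vale.Agent.P029

variable {K : Type} [Field K] [CharZero K] {A : Type} [Ring A] [Algebra K A]

namespace KeyAux

theorem neg_mem1 : -X K - Y K ∈ HT K 1 := sub_mem (neg_mem X_mem) Y_mem

theorem tri_eq (K : Type) [Field K] [CharZero K] [Algebra K A] {t : Fin 5 → Fin 5 → A} 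
    (ht : Fam5 t) {i j k l m : Fin 5} (hd : D5 i j k l m) :
    t i k = -t i j - t j k + t l m ∧ Commute (t i j) (t l m) ∧ Commute (t j k) (t l m) := by
  refine ⟨by rw [← ht.tri (K := K) hd]; abel, ?_, ?_⟩ <;>
    obtain ⟨h1, h2, h3, h4, h5, h6, h7, h8, h9, h10⟩ := hd <;> apply ht.comm <;> assumption

theorem shift_r {ψ : T K} {n : ℕ} (hn : 2 ≤ n) (hψ : ψ ∈ HT K n) {a b v : A} (h1 : Commute a v)
    (h2 : Commute b v) : ev a (b + v) ψ = ev a b ψ := by
  simpa using ev_shift (Commute.zero_right a) h1 (Commute.zero_right b) h2 (Commute.zero_left v) hn hψ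

theorem shift_l {ψ : T K} {n : ℕ} (hn : 2 ≤ n) (hψ : ψ ∈ HT K n) {a b v : A} (h1 : Commute a v)
    (h2 : Commute b v) : ev (a + v) b ψ = ev a b ψ := by
  simpa using ev_shift h1 (Commute.zero_right a) h2 (Commute.zero_right b) (Commute.zero_right v) hn hψ

theorem three {ψ : T K} {n : ℕ} (hn : 2 ≤ n) (hψ : ψ ∈ HT K n) {t : Fin 5 → Fin 5 → A}
    (ht : Fam5 t) {i j k l m : Fin 5} (hd : D5 i j k l m) :
    ev (t i j) (t j k) ψ + ev (t j k) (t k i) ψ + ev (t k i) (t i j) ψ =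
      ev (t i j) (t j k) ψ + ev (t j k) (-t i j - t j k) ψ + ev (-t i j - t j k) (t i j) ψ := by
  obtain ⟨e, c1, c2⟩ := tri_eq K ht hd
  rw [ht.symm k i, e, shift_r hn hψ c2 (c1.neg_left.sub_left c2),
    shift_l hn hψ (c1.neg_left.sub_left c2) c1]

theorem of_fam (p : T K) (s : Fin 4 → K)
    (h : ∀ (A : Type) [Ring A] [Algebra K A] (t : Fin 5 → Fin 5 → A), Fam5 t →
      ev (t 0 1) (t 0 2) p + s 0 • ev (t 0 3) (t 0 4) p + s 1 • ev (t 0 4) (t 0 1) p +
        s 2 • ev (t 0 2) (t 0 3) p = 0) (a b c d : A) (e : a + b + c + d = 0) :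
      ev a b p + s 0 • ev c d p + s 1 • ev d a p + s 2 • ev b c p = 0 := by
  let x : Fin 3 → FreeAlgebra K (Fin 3) := FreeAlgebra.ι K
  have := congrArg (FreeAlgebra.lift K ![a, b, c]) (free_fibre (ev (x 0) (x 1) p +
    s 0 • ev (x 2) (-(x 0 + x 1 + x 2)) p + s 1 • ev (-(x 0 + x 1 + x 2)) (x 0) p +
      s 2 • ev (x 1) (x 2) p) fun A _ _ t ht => by
    have := h A t ht
    rw [← neg_eq_of_add_eq_zero_right (ht.row (i := 0) (j := 1) (k := 2) (l := 3) (m := 4)
      (by unfold D5; decide))] at this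
    simpa [map_ev, x] using this)
  rw [← neg_eq_of_add_eq_zero_right e]
  simpa [map_ev, x] using this

theorem anti_fam {ψ : T K} (h : Anti ψ) {t : Fin 5 → Fin 5 → A} (ht : Fam5 t) (i j k : Fin 5) :
    ev (t k j) (t j i) ψ = -ev (t i j) (t j k) ψ := by rw [h, ht.symm j i, ht.symm k j]

theorem d5_cases {i j k l m r : Fin 5} (hd : D5 i j k l m) (h1 : i ≠ r) (h2 : j ≠ r) :
    r = k ∨ r = l ∨ r = m := by
  obtain ⟨s, hs⟩ := Finite.injective_iff_surjective.1 hd.injective r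
  fin_cases s <;> simp_all

theorem d5_swap {i j k l m : Fin 5} (hd : D5 i j k l m) : D5 j i k l m := by
  obtain ⟨h1, h2, h3, h4, h5, h6, h7, h8, h9, h10⟩ := hd
  exact ⟨h1.symm, h5, h6, h7, h2, h3, h4, h8, h9, h10⟩

theorem d5_rot {i j k l m : Fin 5} (hd : D5 i j k l m) : D5 j k l m i := by
  obtain ⟨h1, h2, h3, h4, h5, h6, h7, h8, h9, h10⟩ := hd
  exact ⟨h5, h6, h7, h1.symm, h8, h9, h2.symm, h10, h3.symm, h4.symm⟩

theorem d5_rot3 {i j k l m : Fin 5} (hd : D5 i j k l m) : D5 i j l m k := by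
  obtain ⟨h1, h2, h3, h4, h5, h6, h7, h8, h9, h10⟩ := hd
  exact ⟨h1, h3, h4, h2, h6, h7, h5, h10, h8.symm, h9.symm⟩

end KeyAux

open KeyAux

theorem Pent.cyc {ψ : T K} {n : ℕ} (hn : 3 ≤ n) (hψ : ψ ∈ HT K n) (h : Pent ψ) : Cyc ψ := by
  have an := h.anti (by omega) hψ
  set η := ψ + ev (Y K) (-X K - Y K) ψ + ev (-X K - Y K) (X K) ψ with hη
  have e : ∀ (A : Type) [Ring A] [Algebra K A] (a b : A),
      ev a b η = ev a b ψ + ev b (-a - b) ψ + ev (-a - b) a ψ := fun A _ _ a b => by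
    simp [hη, map_ev]
  have : η = 0 := func_anti hn
    (add_mem (add_mem hψ (ev_mem_HT Y_mem neg_mem1 hψ)) (ev_mem_HT neg_mem1 X_mem hψ))
    (fun A _ _ a b => by
      rw [e, e, an A a b, an A (-b - a) a, an A b (-b - a), show -b - a = -a - b by abel]; abel)
    fun A _ _ a b c d e' => by
      have := of_fam η ![1, -1, -1, 0] (fun A _ _ t ht => by
        have := tri_id (fun i j k => ev (t i j) (t j k) ψ) (anti_fam an ht)
          fun i j k l m hd => h.perm ht hd
        beta_reduce at this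
        rw [three (by omega) hψ ht (i := 1) (j := 0) (k := 2) (l := 3) (m := 4) (by unfold D5; decide),
          three (by omega) hψ ht (i := 3) (j := 0) (k := 4) (l := 1) (m := 2) (by unfold D5; decide),
          three (by omega) hψ ht (i := 4) (j := 0) (k := 1) (l := 2) (m := 3) (by unfold D5; decide),
          three (by omega) hψ ht (i := 2) (j := 0) (k := 3) (l := 1) (m := 4) (by unfold D5; decide),
          ← e, ← e, ← e, ← e, ht.symm 1 0, ht.symm 3 0, ht.symm 4 0, ht.symm 2 0] at this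
        simp only [Matrix.cons_val_zero, Matrix.cons_val_one, Matrix.cons_val, one_smul, neg_smul]
        linear_combination (norm := abel) this) a b c d e'
      simp only [Matrix.cons_val_zero, Matrix.cons_val_one, Matrix.cons_val, one_smul,
        neg_smul] at this
      linear_combination (norm := abel) this
  intro A _ _ a b
  rw [← e, this, map_zero]

/-- potentials and the infinitesimal conjugates of the generators -/
theorem exists_tau {ψ : T K} {n : ℕ} (hn : 3 ≤ n) (hψ : ψ ∈ HT K n) (h : Pent ψ)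
    {t : Fin 5 → Fin 5 → A} (ht : Fam5 t) :
    ∃ (V : Fin 5 → Fin 5 → Fin 5 → Fin 5 → Fin 5 → A) (τ : Fin 5 → Fin 5 → A),
      (∀ J : Submodule K A, (∀ i j l, ev (t i j) (t j l) ψ ∈ J) → ∀ i j k l m, V i j k l m ∈ J) ∧
      (∀ i, τ i i = 0) ∧ (∀ i j, τ i j = τ j i) ∧
      ∀ i j k l m, D5 i j k l m → V j i k l m = V i j k l m ∧ V i j l k m = V i j k l m ∧
        V k l i j m = V i j k l m ∧ V j m k l i - V i j k l m = ev (t i j) (t j m) ψ ∧
        τ i j = ⁅t i j, V i j k l m⁆ ∧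
        τ i j + τ j k + τ i k - τ l m = ⁅t j k, ev (t i j) (t j k) ψ⁆ +
          ⁅-t i j - t j k, ev (t i j) (-t i j - t j k) ψ⁆ := by
  have n2 : 2 ≤ n := by omega
  obtain ⟨V, hJ, hV⟩ := exists_pot (K := K) (fun i j k => ev (t i j) (t j k) ψ)
    (anti_fam (h.anti n2 hψ) ht) (fun i j k l m hd => h.perm ht hd) fun i j k l m hd => by
      rw [three n2 hψ ht hd]; exact h.cyc hn hψ A _ _
  have sw : ∀ i j k l m, D5 i j k l m → ⁅t i j, V i j l k m⁆ = ⁅t i j, V i j k l m⁆ :=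
    fun i j k l m hd => by rw [(hV i j k l m hd).2.1]
  have rot : ∀ i j k l m, D5 i j k l m → ⁅t i j, V i j l m k⁆ = ⁅t i j, V i j k l m⁆ :=
    fun i j k l m hd => by
      have d1 : D5 k l i j m := d5_rot3 (d5_rot (d5_rot hd))
      have d2 : D5 l m i j k := d5_rot (d5_rot (d5_rot hd))
      have c : Commute (t i j) (ev (t k l) (t l m) ψ) := by
        obtain ⟨h1, h2, h3, h4, h5, h6, h7, h8, h9, h10⟩ := hd
        refine commute_ev ?_ ?_ ψ <;> apply ht.comm <;> assumption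
      rw [(hV l m i j k d2).2.2.1, (hV k l i j m d1).2.2.1,
        eq_add_of_sub_eq (hV k l i j m d1).2.2.2]
      simp only [Ring.lie_def, mul_add, add_mul, c.eq]
      abel
  have all : ∀ i j k l m k' l' m', D5 i j k l m → D5 i j k' l' m' →
      ⁅t i j, V i j k' l' m'⁆ = ⁅t i j, V i j k l m⁆ := fun i j k l m k' l' m' hd hd' => by
    have d1 : D5 i j l m k := d5_rot3 hd
    have d2 : D5 i j m k l := d5_rot3 d1
    have r1 := rot _ _ _ _ _ hd
    have r2 := (rot _ _ _ _ _ d1).trans r1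
    obtain ⟨h1, h2, h3, h4, h5, h6, h7, h8, h9, h10⟩ := hd'
    rcases d5_cases hd h2 h5 with rfl | rfl | rfl <;> rcases d5_cases hd h3 h6 with rfl | rfl | rfl <;>
      rcases d5_cases hd h4 h7 with rfl | rfl | rfl <;>
      first
      | contradiction
      | rfl
      | exact r1
      | exact r2
      | exact sw _ _ _ _ _ hd
      | exact (sw _ _ _ _ _ d1).trans r1
      | exact (sw _ _ _ _ _ d2).trans r2
  have ex : ∀ i j : Fin 5, ∃ k l m, i ≠ j → D5 i j k l m := by unfold D5; decide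
  choose k l m hk using ex
  let τ : Fin 5 → Fin 5 → A := fun i j => if i = j then 0 else ⁅t i j, V i j (k i j) (l i j) (m i j)⁆
  have hτ : ∀ i j k l m, D5 i j k l m → τ i j = ⁅t i j, V i j k l m⁆ := fun i j k l m hd =>
    (if_neg hd.1).trans (all _ _ _ _ _ _ _ _ hd (hk i j hd.1))
  refine ⟨V, τ, hJ, fun i => if_pos rfl, fun i j => ?_, fun i j k l m hd =>
    ⟨(hV i j k l m hd).1, (hV i j k l m hd).2.1, (hV i j k l m hd).2.2.1, (hV i j k l m hd).2.2.2,
      hτ i j k l m hd, ?_⟩⟩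
  · rcases eq_or_ne i j with rfl | e
    · rfl
    have d := hk i j e
    rw [hτ _ _ _ _ _ d, hτ j i (k i j) (l i j) (m i j) (d5_swap d),
      (hV _ _ _ _ _ d).1, ht.symm j i]
  · have d1 : D5 i j l m k := d5_rot3 hd
    have d2 : D5 j i l m k := d5_swap d1
    obtain ⟨e, c1, c2⟩ := tri_eq K ht hd
    have c3 := c1.neg_left.sub_left c2
    have c4 := commute_ev c1.symm c3.symm ψ
    rw [hτ _ _ _ _ _ d1, hτ j k l m i (d5_rot hd),
      hτ i k l m j (d5_rot (d5_swap hd)), hτ l m i j k (d5_rot (d5_rot (d5_rot hd))),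
      (hV _ _ _ _ _ d1).2.2.1, eq_add_of_sub_eq (hV _ _ _ _ _ d1).2.2.2,
      eq_add_of_sub_eq (hV _ _ _ _ _ d2).2.2.2, (hV _ _ _ _ _ d1).1, ht.symm j i, e,
      shift_r n2 hψ c1 c3]
    simp only [Ring.lie_def, mul_add, add_mul, c4.eq]
    noncomm_ring

end Vale.Agent.P029
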