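import Vale.Agent.P029.Sigma
import Vale.Agent.P029.Iface

/-! The isomorphism. -/

noncomputable section

namespace Vale.Agent.P029

attribute [local instance 100] LieRing.ofAssociativeRing

/-- the action of the free Lie algebra, applied to the unit -/
def Th (σ : ℕ → T ℤ) : F →ₗ[ℚ] T ℚ :=
  LinearMap.applyₗ (1 : T ℚ) ∘ₗ
    (FreeLieAlgebra.lift ℚ (fun k => act (bc ℚ (σ k))) : F →ₗ⁅ℚ⁆ Module.End ℚ (T ℚ)).toLinearMap

variable {σ : ℕ → T ℤ}

namespace MainAux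

/-- the action of the free Lie algebra -/
def Theta (σ : ℕ → T ℤ) : F →ₗ⁅ℚ⁆ Module.End ℚ (T ℚ) :=
  FreeLieAlgebra.lift ℚ (fun k => act (bc ℚ (σ k)))

theorem Th_eq (a : F) : Th σ a = Theta σ a 1 := rfl

theorem Theta_e (k : ℕ) : Theta σ (e k) = act (bc ℚ (σ k)) := FreeLieAlgebra.lift_of_apply _ _

theorem act_zero : act (0 : T ℚ) = 0 := by
  rw [← zero_smul ℚ (0 : T ℚ), act_smul, zero_smul]

theorem exists_act (a : F) : ∃ p, Theta σ a = act p := by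
  obtain ⟨N, c, hc, rfl⟩ := exists_sum_H (fun _ => 1) a
  have h0 : ∃ p, Theta σ 0 = act p := ⟨0, by rw [map_zero, act_zero]⟩
  have hadd : ∀ a b : F, (∃ p, Theta σ a = act p) → (∃ p, Theta σ b = act p) →
      ∃ p, Theta σ (a + b) = act p := by
    rintro a b ⟨p, hp⟩ ⟨q, hq⟩
    exact ⟨p + q, by rw [map_add, hp, hq, act_add]⟩
  refine Finset.sum_induction c (fun a => ∃ p, Theta σ a = act p) hadd h0 fun n hn => ?_
  clear hn
  have h := hc n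
  generalize c n = a at h
  induction h using Submodule.span_induction with
  | mem a ha =>
    have ha' : Mon (FreeLieAlgebra.of ℚ) (fun _ : ℕ => 1) n a := ha
    clear ha
    induction ha' with
    | of i => exact ⟨_, Theta_e i⟩
    | br _ _ h1 h2 =>
      obtain ⟨p, hp⟩ := h1
      obtain ⟨q, hq⟩ := h2
      exact ⟨ih p q, by rw [LieHom.map_lie, hp, hq, act_ih]⟩
  | zero => exact h0
  | add a b _ _ h1 h2 => exact hadd a b h1 h2
  | smul r a _ h1 =>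
    obtain ⟨p, hp⟩ := h1
    exact ⟨r • p, by rw [map_smul, hp, act_smul]⟩

theorem Theta_eq (a : F) : Theta σ a = act (Th σ a) := by
  obtain ⟨p, hp⟩ := exists_act (σ := σ) a
  rw [Th_eq, hp, act_one]

theorem rep_lift {s c : ℕ → T K2} (h : ∀ k, Rep (s k) (c k)) (g : FreeAlgebra K2 ℕ) :
    ∀ m φ : T K2, Rep m φ →
      Rep ((FreeAlgebra.lift K2 (fun k => act (s k)) g : Module.End K2 (T K2)) m)
        (FreeAlgebra.lift K2 c g * φ) := by
  induction g using FreeAlgebra.induction with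
  | grade0 r =>
    intro m φ hm
    rw [AlgHom.commutes, AlgHom.commutes, Module.algebraMap_end_apply, ← Algebra.smul_def]
    exact hm.smul r
  | grade1 i =>
    intro m φ hm
    rw [FreeAlgebra.lift_ι_apply, FreeAlgebra.lift_ι_apply]
    exact (h i).act hm
  | mul a b h1 h2 =>
    intro m φ hm
    rw [map_mul, map_mul, Module.End.mul_apply, mul_assoc]
    exact h1 _ _ (h2 m φ hm)
  | add a b h1 h2 =>
    intro m φ hm
    rw [map_add, map_add, LinearMap.add_apply, add_mul]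
    exact (h1 m φ hm).add (h2 m φ hm)

theorem three_le {n : ℕ} {a : F} (h : Mon e (fun k => 2 * k + 3) n a) : 3 ≤ n := by
  induction h with
  | of i => omega
  | br _ _ h1 h2 => omega

theorem Fw_low {n : ℕ} (hn : n ≤ 2) {a : F} (ha : a ∈ Fw n) : a = 0 := by
  have : Fw n ≤ ⊥ := Submodule.span_le.2 fun a ha => absurd (three_le ha) (by omega)
  exact this ha

end MainAux

open MainAux

theorem Th_e (k : ℕ) : Th σ (e k) = bc ℚ (σ k) := by
  rw [Th_eq, Theta_e, act_one]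

theorem Th_br (a b : F) : Th σ ⁅a, b⁆ = ih (Th σ a) (Th σ b) := by
  rw [Th_eq, LieHom.map_lie, Theta_eq, Theta_eq, ← act_ih, act_one]

theorem Th_injective (h : ∀ k, Rep (bc K2 (σ k)) (ak K2 k)) : Function.Injective (Th σ) := by
  rw [injective_iff_map_eq_zero]
  intro a ha
  by_contra h0
  have hp : jG ℕ a ≠ 0 := fun e => h0 (jG_injective (e.trans (map_zero _).symm))
  obtain ⟨q, -, g, h1, h2⟩ := exists_primitive hp
  have h3 := liftZ_intertwine (bc ℚ : T ℤ →+* T ℚ).toAddMonoidHom (fun k => act (σ k))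
    (fun k => act (bc ℚ (σ k))) (fun i m => bc_act _ _) g 1
  have h4 := liftZ_intertwine (bc K2 : T ℤ →+* T K2).toAddMonoidHom (fun k => act (σ k))
    (fun k => act (bc K2 (σ k))) (fun i m => bc_act _ _) g 1
  simp only [RingHom.toAddMonoidHom_eq_coe, AddMonoidHom.coe_coe, map_one] at h3 h4
  rw [← lift_bc (k := ℚ) (fun k => act (bc ℚ (σ k))), h1, map_smul, lift_jG,
    LinearMap.smul_apply] at h3
  have h5 : bc ℚ (liftZ (fun k => act (σ k)) g 1) = bc ℚ 0 := by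
    rw [h3, map_zero]
    change q • Th σ a = 0
    rw [ha, smul_zero]
  rw [bc_injective h5, map_zero, ← lift_bc (k := K2)] at h4
  have h6 := rep_lift h (bc K2 g) 1 1 fun A _ _ a b _ => by rw [map_one, map_one]
  rw [← h4, mul_one] at h6
  exact h2 (ak_free ((h6.unique Rep.zero).trans (map_zero _).symm))

theorem Th_mem (h : ∀ k, σ k ∈ Lam (2 * k + 3)) {n : ℕ} {a : F} (ha : a ∈ Fw n) :
    Th σ a ∈ HT ℚ n ∧ Pent (Th σ a) := by
  induction ha using Submodule.span_induction with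
  | mem a ha =>
    have ha' : Mon e (fun k => 2 * k + 3) n a := ha
    clear ha
    induction ha' with
    | of i =>
      rw [Th_e]
      exact ⟨bc_mem (h i).1, (h i).2⟩
    | br g1 g2 h1 h2 =>
      rw [Th_br]
      exact ⟨ih_mem h1.1 h2.1, Pent.ih (three_le g1) (three_le g2) h1.1 h2.1 h1.2 h2.2⟩
  | zero =>
    rw [map_zero]
    exact ⟨zero_mem _, Pent.zero⟩
  | add a b _ _ h1 h2 =>
    rw [map_add]
    exact ⟨add_mem h1.1 h2.1, h1.2.add h2.2⟩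
  | smul r a _ h1 =>
    rw [map_smul]
    exact ⟨Submodule.smul_mem _ r h1.1, h1.2.smul r⟩

theorem MainAux.mon_range {n : ℕ} {ψ : Ih} (h : Mon (G := Ih) σ (fun k => 2 * k + 3) n ψ) :
    ∃ a, Mon e (fun k => 2 * k + 3) n a ∧ Th σ a = bc ℚ (show T ℤ from ψ) := by
  induction h with
  | of i => exact ⟨e i, Mon.of i, Th_e i⟩
  | @br m n p q _ _ h1 h2 =>
    obtain ⟨a, a1, a2⟩ := h1
    obtain ⟨b, b1, b2⟩ := h2
    refine ⟨⁅a, b⁆, Mon.br a1 b1, ?_⟩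
    rw [Th_br, a2, b2]
    exact (bc_ih (k := ℚ) p q).symm

theorem MainAux.Dn_range {n : ℕ} {ψ : T ℤ} (h : ψ ∈ Dn σ (fun k => 2 * k + 3) n) :
    ∃ a ∈ Fw n, Th σ a = bc ℚ ψ := by
  induction h using Submodule.span_induction with
  | mem ψ h =>
    obtain ⟨a, h1, h2⟩ := MainAux.mon_range h
    exact ⟨a, Submodule.subset_span h1, h2⟩
  | zero => exact ⟨0, zero_mem _, by rw [map_zero, map_zero]⟩
  | add p q _ _ h1 h2 =>
    obtain ⟨a, a1, a2⟩ := h1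
    obtain ⟨b, b1, b2⟩ := h2
    exact ⟨a + b, add_mem a1 b1, by rw [map_add, map_add, a2, b2]⟩
  | smul r p _ h1 =>
    obtain ⟨a, a1, a2⟩ := h1
    exact ⟨(r : ℚ) • a, Submodule.smul_mem _ _ a1, by rw [map_smul, a2, SigmaAux.bc_zsmul]⟩

theorem Th_surj (h : ∀ k, σ k ∈ Lam (2 * k + 3) ∧ Rep (bc K2 (σ k)) (ak K2 k)) {n : ℕ}
    (hn : 3 ≤ n) {p : T ℚ} (hp : p ∈ HT ℚ n) (hP : Pent p) : ∃ a ∈ Fw n, Th σ a = p := by
  obtain ⟨c, hc, g, h1, h2⟩ := exists_int_H hp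
  have h3 : g ∈ Lam n := ⟨h1, by rw [h2]; exact hP.smul _⟩
  obtain ⟨r, hr, h4⟩ := Lam_nak (wt := fun k => 2 * k + 3) (fun i => by omega)
    (fun k => (h k).1) (fun k => (h k).2) hn fun ψ hψ => Lam_rep hn hψ
  obtain ⟨a, h5, h6⟩ := MainAux.Dn_range (h4 g h3)
  refine ⟨((r : ℚ) * c)⁻¹ • a, Submodule.smul_mem _ _ h5, ?_⟩
  rw [map_smul, h6, SigmaAux.bc_zsmul, h2, smul_smul, smul_smul, mul_assoc, inv_mul_cancel₀
    (mul_ne_zero (Int.cast_ne_zero.2 hr) (Int.cast_ne_zero.2 hc)), one_smul]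

theorem main : ∃ D : L → LieDerivation ℚ L L, (∀ ψ, D ψ x = 0 ∧ D ψ y = ⁅y, ψ⁆) ∧
    (∀ ψ ∈ W, ∀ φ ∈ W, D ψ φ - D φ ψ + ⁅ψ, φ⁆ ∈ W) ∧
    ∃ Φ : F →ₗ[ℚ] L, (∀ k, Φ (e k) ∈ W ∧ Φ (e k) ∈ Lw (2 * k + 3)) ∧
      (∀ a b, Φ ⁅a, b⁆ = D (Φ a) (Φ b) - D (Φ b) (Φ a) + ⁅Φ a, Φ b⁆) ∧
      Function.Injective Φ ∧ Set.range Φ = W ∧ ∀ n, Φ '' Fw n = W ∩ Lw n := by
  obtain ⟨D, hD⟩ := exists_D
  obtain ⟨σ, hσ⟩ := exists_sigma
  have hm : ∀ n, ∀ a ∈ Fw n, Th σ a ∈ HT ℚ n ∧ Pent (Th σ a) := fun n a ha =>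
    Th_mem (fun k => (hσ k).1) ha
  have hsum : ∀ a : F, ∃ (N : ℕ) (c : ℕ → F), (∀ n, c n ∈ Fw n) ∧ a = ∑ n ∈ Finset.range N, c n :=
    fun a => exists_sum_H (fun k => 2 * k + 3) a
  have hex : ∀ a : F, ∃ χ, jL χ = Th σ a := by
    intro a
    obtain ⟨N, c, hc, rfl⟩ := hsum a
    choose d _ hd using fun n => jL_surj (hm n _ (hc n)).1
    exact ⟨∑ n ∈ Finset.range N, d n, by simp only [map_sum, hd]⟩
  choose Φ0 hΦ0 using hex
  let Φ : F →ₗ[ℚ] L :=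
    { toFun := Φ0
      map_add' := fun a b => jL_injective (by rw [map_add, hΦ0, hΦ0, hΦ0, map_add])
      map_smul' := fun c a => jL_injective (by
        rw [RingHom.id_apply, map_smul, hΦ0, hΦ0, map_smul]) }
  have hΦ : ∀ a, jL (Φ a) = Th σ a := hΦ0
  have h1 : ∀ n, ∀ a ∈ Fw n, Φ a ∈ W ∧ Φ a ∈ Lw n := by
    intro n a ha
    obtain ⟨ψ, h2, h3⟩ := jL_surj (hm n a ha).1
    have h4 : Φ a ∈ Lw n := by rwa [jL_injective ((hΦ a).trans h3.symm)]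
    refine ⟨?_, h4⟩
    rcases le_or_gt n 2 with hn | hn
    · rw [Fw_low hn ha, map_zero]
      exact W_zero
    · rw [W_iff hn h4, hΦ]
      exact (hm n a ha).2
  have h2 : ∀ n, ∀ ψ ∈ W, ψ ∈ Lw n → ∃ a ∈ Fw n, Φ a = ψ := by
    intro n ψ hW hψ
    rcases le_or_gt n 2 with hn | hn
    · exact ⟨0, zero_mem _, by rw [W_low hn hψ hW, map_zero]⟩
    · obtain ⟨a, h3, h4⟩ := Th_surj hσ hn (jL_mem hψ) ((W_iff hn hψ).1 hW)
      exact ⟨a, h3, jL_injective ((hΦ a).trans h4)⟩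
  have h3 : ∀ a, Φ a ∈ W := by
    intro a
    obtain ⟨N, c, hc, rfl⟩ := hsum a
    rw [map_sum]
    exact Finset.sum_induction _ (· ∈ W) (fun _ _ => W_add) W_zero fun n _ => (h1 n _ (hc n)).1
  have h4 : ∀ ψ ∈ W, ∃ a, Φ a = ψ := by
    intro ψ hW
    obtain ⟨N, c, hc, rfl⟩ := W_graded hW
    choose d _ hd using fun n => h2 n _ (hc n).2 (hc n).1
    exact ⟨∑ n ∈ Finset.range N, d n, by simp only [map_sum, hd]⟩
  have h5 : ∀ a b, Φ ⁅a, b⁆ = D (Φ a) (Φ b) - D (Φ b) (Φ a) + ⁅Φ a, Φ b⁆ := by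
    intro a b
    apply jL_injective
    rw [map_add, map_sub, (hD _).2.2, (hD _).2.2, LieHom.map_lie, hΦ, hΦ, hΦ, Th_br]
    rfl
  refine ⟨D, fun ψ => ⟨(hD ψ).1, (hD ψ).2.1⟩, fun ψ hψ φ hφ => ?_, Φ,
    fun k => h1 _ _ (Submodule.subset_span (Mon.of k)), h5, fun a b hab => ?_, ?_, fun n => ?_⟩
  · obtain ⟨a, rfl⟩ := h4 ψ hψ
    obtain ⟨b, rfl⟩ := h4 φ hφ
    rw [← h5]
    exact h3 _
  · exact Th_injective (fun k => (hσ k).2) (by rw [← hΦ, ← hΦ, hab])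
  · exact Set.Subset.antisymm (Set.range_subset_iff.2 h3) h4
  · refine Set.Subset.antisymm ?_ fun ψ hψ => h2 n ψ hψ.1 hψ.2
    rintro _ ⟨a, ha, rfl⟩
    exact h1 n a ha

end Vale.Agent.P029
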