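import Vale.Agent.P029.Phi
import Vale.Agent.P029.Fil

/-! The structure of solutions modulo two. -/

noncomputable section

namespace Vale.Agent.P029

variable {n : ℕ} {ψ : T K2}

namespace Mod2Aux

open PhiAux

theorem lift3 {A B : Type} [Ring A] [Algebra K2 A] [Ring B] [Algebra K2 B] (f : A →ₐ[K2] B)
    (a b c : A) (φ : F3) :
    f (FreeAlgebra.lift K2 ![a, b, c] φ) = FreeAlgebra.lift K2 ![f a, f b, f c] φ := by
  rw [map_lift]
  congr 2
  funext i
  fin_cases i <;> rfl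

theorem lift_self (φ : F3) : FreeAlgebra.lift K2 ![g3 0, g3 1, g3 2] φ = φ := by
  have : FreeAlgebra.lift K2 ![g3 0, g3 1, g3 2] = AlgHom.id K2 F3 := by
    refine FreeAlgebra.hom_ext ?_
    funext i
    fin_cases i <;> simp [g3]
  rw [this]
  rfl

theorem lift_fst {A : Type} [Ring A] [Algebra K2 A] {n : ℕ} (hn : 3 ≤ n) {φ : F3} (h : φ ∈ Hn n)
    (a : A) : FreeAlgebra.lift K2 ![a, 0, 0] φ = 0 := by
  refine lift_eq_zero_of_H (fun i j => ?_) (fun i hi => ?_) h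
  · fin_cases i <;> fin_cases j <;> simp
  · fin_cases i
    · exact absurd hi (by change ¬ 2 = n; omega)
    · rfl
    · rfl

theorem lift_snd {A : Type} [Ring A] [Algebra K2 A] {n : ℕ} (hn : 3 ≤ n) {φ : F3} (h : φ ∈ Hn n)
    (a : A) : FreeAlgebra.lift K2 ![0, a, 0] φ = 0 := by
  refine lift_eq_zero_of_H (fun i j => ?_) (fun i hi => ?_) h
  · fin_cases i <;> fin_cases j <;> simp
  · fin_cases i
    · rfl
    · exact absurd hi (by change ¬ 2 = n; omega)
    · rfl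

theorem add_add_cancel {A : Type} [AddCommGroup A] [Module K2 A] (a b : A) : a + (a + b) = b := by
  rw [← add_assoc, add_self_two, zero_add]

/-- the fibre equation in characteristic two -/
theorem fib {ψ : T K2} (hA : Anti ψ) (hF : FibEq ψ) {R : Type} [Ring R] [Algebra K2 R]
    {α β γ : R} {d12 d23 : Module.End K2 R} (h : Fibre α β γ d12 d23) :
    ev α (α + β) ψ + (ev (Lm β + d12) d23 ψ : Module.End K2 R) 1 + ev (α + β + γ) α ψ +
      ev (α + β) (α + β + γ) ψ = 0 := by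
  have := hF R α β γ d12 d23 h
  rwa [hA _ (Lm β + d12) d23, neg_eq_two, neg_eq_two, neg_eq_two, sub_eq_add_neg, neg_eq_two]
    at this

abbrev F5 : Type := FreeAlgebra K2 (Fin 5)

def g5 (i : Fin 5) : F5 := FreeAlgebra.ι K2 i

theorem lift_g5 {A : Type} [Ring A] [Algebra K2 A] (f : Fin 5 → A) (i : Fin 5) :
    FreeAlgebra.lift K2 f (g5 i) = f i := FreeAlgebra.lift_ι_apply f i

/-- the relation between the two quotients, in the free algebra on five generators -/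
theorem five {n : ℕ} {ψ : T K2} (hn : 3 ≤ n) (hA : Anti ψ) (hF : FibEq ψ) {φ θ : F3}
    (hφ : φ ∈ Hn n) (hθ : θ ∈ Hn n) (h1 : Q ψ φ) (h2 : Q (ev (X K2) (X K2 + Y K2) ψ) θ) :
    FreeAlgebra.lift K2 ![g5 0, g5 2, g5 3] φ + FreeAlgebra.lift K2 ![g5 1, g5 2, g5 3] φ +
      FreeAlgebra.lift K2 ![g5 0, g5 0 + g5 1, g5 4] θ = 0 := by
  obtain ⟨R, _, _, g, d12, d23, hf, hsq, hg, hl⟩ := exists_quot Set.univ
  obtain ⟨E, _, _, α, β, γ, ha, hb, hc, hinj⟩ := model_R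
  obtain ⟨Φ, hΦ⟩ := hl E ![α, β, γ] (fun i _ => by fin_cases i <;> assumption)
  have q0 := hsq 0 trivial
  have q1 := hsq 1 trivial
  have q2 := hsq 2 trivial
  have t2 : ∀ a z : R, z * z = 0 → ev a (a + z) ψ =
      FreeAlgebra.lift K2 ![a * a, ⁅a, z⁆, ⁅z, a * a⁆] θ := by
    intro a z hz
    rw [← h2 R a z hz, map_ev, map_add, ev_X, ev_Y]
  have e := fib hA hF hf
  rw [t2 _ _ q1, t2 _ _ q2, h1 _ _ _ q0, h1 _ _ _ (d23_sq hf hg q1 q2),
    U_term hf hg q0 q1 q2 hn hφ, q0, br_zero, lift_snd hn hθ, zero_add] at e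
  have e' := congrArg Φ e
  have p0 : Φ (g 0) = α := hΦ 0
  have p1 : Φ (g 1) = β := hΦ 1
  have p2 : Φ (g 2) = γ := hΦ 2
  simp only [map_add, map_zero, lift3, map_br, map_mul, p0, p1, p2] at e'
  have s1 : (α + β) * (α + β) = ⁅α, β⁆ := by
    rw [br_two, add_mul, mul_add, mul_add, ha, hb, zero_add, add_zero]
  have s2 : ⁅α + β, γ⁆ = ⁅α, β⁆ + (α + β + γ) * (α + β + γ) := by
    rw [sq_sum ha hb hc, add_br, add_assoc ⁅α, β⁆, add_add_cancel]
  rw [s1, s2] at e'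
  apply hinj
  simp only [map_add, map_zero, lift3, lift_g5]
  exact e'

end Mod2Aux

open PhiAux Mod2Aux

/-- a solution vanishes modulo the square of the sum, and is a Lie polynomial in two
elements of weights two and three modulo the square of the second variable -/
theorem step_one (hn : 3 ≤ n) (hψ : ψ ∈ HT K2 n) (hA : Anti ψ) (hF : FibEq ψ) :
    (∀ (A : Type) [Ring A] [Algebra K2 A] (a b : A), (a + b) * (a + b) = 0 → ev a b ψ = 0) ∧
      ∃ φ ∈ H23 K2 n, Rep ψ φ := by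
  obtain ⟨φ, hφ, h1⟩ := exists_phi (by omega) hψ
  obtain ⟨θ, hθ, h2⟩ := exists_phi (by omega)
    (ev_mem_HT X_mem (add_mem X_mem Y_mem) hψ)
  have e := five hn hA hF hφ hθ h1 h2
  have θ0 : θ = 0 := by
    have e' := congrArg (FreeAlgebra.lift K2 ![g3 0, g3 0 + g3 1, 0, 0, g3 2]) e
    simp only [map_add, map_zero, lift3, lift_g5] at e'
    change FreeAlgebra.lift K2 ![g3 0, 0, 0] φ + FreeAlgebra.lift K2 ![g3 0 + g3 1, 0, 0] φ +
      FreeAlgebra.lift K2 ![g3 0, g3 0 + (g3 0 + g3 1), g3 2] θ = 0 at e'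
    rwa [lift_fst hn hφ, lift_fst hn hφ, add_add_cancel, lift_self, zero_add, zero_add] at e'
  refine ⟨fun A _ _ a b hab => ?_, FreeAlgebra.lift K2 ![0, X K2, Y K2] φ, ?_,
    fun A _ _ a b hb => ?_⟩
  · have := h2 A a (a + b) hab
    rwa [θ0, map_zero, map_ev, map_add, ev_X, ev_Y, add_add_cancel] at this
  · refine H_map _ (fun i => ?_) hφ
    rw [FreeAlgebra.lift_ι_apply]
    fin_cases i
    · exact zero_mem _
    · exact H_of (g := FreeAlgebra.ι K2) (wt := ![2, 3]) 0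
    · exact H_of (g := FreeAlgebra.ι K2) (wt := ![2, 3]) 1
  · rw [θ0, map_zero, add_zero] at e
    have e' := congrArg (FreeAlgebra.lift K2 ![a * a, 0, ⁅a, b⁆, ⁅b, a * a⁆, 0]) e
    simp only [map_add, map_zero, lift3, lift_g5] at e'
    change FreeAlgebra.lift K2 ![a * a, ⁅a, b⁆, ⁅b, a * a⁆] φ +
      FreeAlgebra.lift K2 ![0, ⁅a, b⁆, ⁅b, a * a⁆] φ = 0 at e'
    rw [h1 A a b hb, lift3, map_zero, ev_X, ev_Y, eq_neg_of_add_eq_zero_left e', neg_eq_two]

theorem step_two (hn : 3 ≤ n) (hψ : ψ ∈ HT K2 n) (hA : Anti ψ) (hF : FibEq ψ) (h : Rep ψ 0) :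
    ψ = 0 := by
  have hT := (step_one hn hψ hA hF).1
  obtain ⟨R, _, _, g, d12, d23, hf, hsq, hg, hl⟩ := exists_quot {1, 2}
  obtain ⟨E, _, _, α, β, γ, hb, hc, hinj⟩ := model_R'
  obtain ⟨Φ, hΦ⟩ := hl E ![α, β, γ] (fun i hi => by
    rcases hi with rfl | rfl
    · exact hb
    · exact hc)
  have q1 := hsq 1 (Or.inl rfl)
  have q2 := hsq 2 (Or.inr rfl)
  have e := fib hA hF hf
  rw [hT R (g 0) (g 0 + g 1) (by rw [add_add_cancel, q1]),
    hT R (g 0 + g 1) (g 0 + g 1 + g 2) (by rw [add_add_cancel, q2]),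
    h _ _ _ (d23_sq hf hg q1 q2), map_zero, LinearMap.zero_apply, zero_add, zero_add,
    add_zero] at e
  have e' := congrArg Φ e
  have p0 : Φ (g 0) = α := hΦ 0
  have p1 : Φ (g 1) = β := hΦ 1
  have p2 : Φ (g 2) = γ := hΦ 2
  rw [map_ev, map_add, map_add, p0, p1, p2, map_zero] at e'
  exact hinj (e'.trans (map_zero _).symm)

theorem Rep.unique {φ φ' : T K2} (h : Rep ψ φ) (h' : Rep ψ φ') : φ = φ' := by
  obtain ⟨E, _, _, a, b, hb, hinj⟩ := model_B
  exact hinj ((h E a b hb).symm.trans (h' E a b hb))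

theorem Rep.add {ψ' φ φ' : T K2} (h : Rep ψ φ) (h' : Rep ψ' φ') : Rep (ψ + ψ') (φ + φ') := by
  intro A _ _ a b hb
  rw [map_add, map_add, h A a b hb, h' A a b hb]

theorem Rep.smul {φ : T K2} (c : K2) (h : Rep ψ φ) : Rep (c • ψ) (c • φ) := by
  intro A _ _ a b hb
  rw [map_smul, map_smul, h A a b hb]

theorem Rep.zero : Rep (0 : T K2) 0 := by
  intro A _ _ a b hb
  rw [map_zero, map_zero]

theorem Rep.ev_DT {φ : T K2} (h : Rep ψ φ) {A : Type} [Ring A] [Algebra K2 A] {a b : A}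
    (hb : b * b = 0) (m : T K2) : ev a b (DT ψ m) = 0 := by
  have c : ∀ z : A, ⁅b, z⁆ = 0 → Commute b z := fun z hz => sub_eq_zero.1 hz
  have e : ⁅b, ev a b ψ⁆ = 0 := by
    rw [h A a b hb]
    refine sub_eq_zero.2 (commute_ev (c _ ?_) (c _ ?_) φ).eq
    · rw [br_comm a b, br_br, hb, zero_br]
    · rw [br_br, hb, zero_br]
  rw [Vale.Agent.P029.ev_DT, e]
  have h2 := dv_add (k := K2) a b 0 0 0 0 m
  rw [add_zero] at h2
  exact left_eq_add.1 h2

theorem Rep.act {φ m φ' : T K2} (h : Rep ψ φ) (h' : Rep m φ') : Rep (act ψ m) (φ * φ') := by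
  intro A _ _ a b hb
  rw [act_apply, map_add, h.ev_DT hb, zero_add, map_mul, map_mul, h A a b hb, h' A a b hb]

theorem Rep.ih {ψ' φ φ' : T K2} (h : Rep ψ φ) (h' : Rep ψ' φ') : Rep (ih ψ ψ') ⁅φ, φ'⁆ := by
  intro A _ _ a b hb
  rw [Vale.Agent.P029.ih, map_add, map_sub, h.ev_DT hb, h'.ev_DT hb, sub_zero, zero_add, map_br,
    map_br, h A a b hb, h' A a b hb]

end Vale.Agent.P029
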