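import Vale.Agent.P029.Basic

/-! A weak form of the Poincare-Birkhoff-Witt theorem. -/

noncomputable section

namespace Vale.Agent.P029

attribute [local instance 100] LieRing.ofAssociativeRing

variable {K G : Type} [Field K] [LieRing G] [LieAlgebra K G]

/-- `g` is seen by a representation of the subalgebra `P` -/
def Det (P : LieSubalgebra K G) (g : G) : Prop :=
  ∃ hg : g ∈ P, UniversalEnvelopingAlgebra.ι K (⟨g, hg⟩ : P) ≠ 0

theorem det_of_hom {P : LieSubalgebra K G} {g : G} (hg : g ∈ P) {A : Type} [Ring A] [Algebra K A]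
    (ρ : P →ₗ⁅K⁆ A) (h : ρ ⟨g, hg⟩ ≠ 0) : Det P g := by
  refine ⟨hg, fun e => h ?_⟩
  rw [← UniversalEnvelopingAlgebra.lift_ι_apply K ρ, e, map_zero]

/-- derivations extend to the enveloping algebra -/
theorem PBWAux.exists_der {L : Type} [LieRing L] [LieAlgebra K L] (D : L →ₗ[K] L)
    (hD : ∀ a b, D ⁅a, b⁆ = ⁅D a, b⁆ + ⁅a, D b⁆) :
    ∃ δ : Module.End K (UniversalEnvelopingAlgebra K L), Der δ ∧
      ∀ a, δ (UniversalEnvelopingAlgebra.ι K a) = UniversalEnvelopingAlgebra.ι K (D a) := by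
  let φ : L →ₗ⁅K⁆ DualNumber (UniversalEnvelopingAlgebra K L) :=
    { toFun := fun a => du (UniversalEnvelopingAlgebra.ι K a) (UniversalEnvelopingAlgebra.ι K (D a))
      map_add' := fun a b => by rw [du_add, map_add, map_add, map_add]
      map_smul' := fun r a => by ext <;> simp
      map_lie' := fun {a b} => by
        show du _ _ = du _ _ * du _ _ - du _ _ * du _ _
        rw [du_mul, du_mul, sub_eq_add_neg, du_neg, du_add, hD, map_add, LieHom.map_lie,
          LieHom.map_lie, LieHom.map_lie]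
        simp only [Ring.lie_def]
        congr 1 <;> noncomm_ring }
  let Φ := UniversalEnvelopingAlgebra.lift K φ
  have h1 : (TrivSqZeroExt.fstHom K _ _).comp Φ = AlgHom.id K _ :=
    UniversalEnvelopingAlgebra.hom_ext K (LieHom.ext fun a => by
      show (Φ (UniversalEnvelopingAlgebra.ι K a)).fst = _
      rw [UniversalEnvelopingAlgebra.lift_ι_apply]
      exact fst_du _ _)
  have h2 : ∀ m, (Φ m).fst = m := fun m => DFunLike.congr_fun h1 m
  refine ⟨(TrivSqZeroExt.sndHom _ _).restrictScalars K ∘ₗ Φ.toLinearMap, fun m n => ?_, fun a => ?_⟩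
  · show (Φ (m * n)).snd = (Φ m).snd * n + m * (Φ n).snd
    rw [map_mul, DualNumber.snd_mul, h2, h2, add_comm]
  · show (Φ _).snd = _
    rw [UniversalEnvelopingAlgebra.lift_ι_apply]
    exact snd_du _ _

/-- extension by one element that normalises the subalgebra -/
theorem det_step {P P' : LieSubalgebra K G} {g c : G} (hle : P ≤ P')
    (hP' : ∀ a ∈ P', ∃ r : K, a - r • c ∈ P) (hc : ∀ a ∈ P, ⁅c, a⁆ ∈ P) (hc' : c ∈ P')
    (h : Det P g) : Det P' g := by
  by_cases hcP : c ∈ P
  · obtain rfl : P = P' := le_antisymm hle fun a ha => by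
      obtain ⟨r, hr⟩ := hP' a ha
      simpa using P.add_mem hr (P.smul_mem r hcP)
    exact h
  obtain ⟨r, r1, r2⟩ : ∃ r : G →ₗ[K] K, r c = 1 ∧ ∀ a ∈ P, r a = 0 := by
    obtain ⟨f, f1, f2⟩ := Submodule.exists_le_ker_of_notMem (p := P.toSubmodule) hcP
    exact ⟨(f c)⁻¹ • f, by simp [f1], fun a ha => by simp [LinearMap.mem_ker.1 (f2 ha)]⟩
  have hπ : ∀ a ∈ P', a - r a • c ∈ P := fun a ha => by
    obtain ⟨s, hs⟩ := hP' a ha
    have := r2 _ hs
    rw [map_sub, map_smul, r1, smul_eq_mul, mul_one, sub_eq_zero] at this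
    rwa [this]
  let D : P →ₗ[K] P := (LieAlgebra.ad K G c).restrict (p := P.toSubmodule) (q := P.toSubmodule) hc
  have hD : ∀ a : P, (D a : G) = ⁅c, (a : G)⁆ := fun _ => rfl
  obtain ⟨δ, d1, d2⟩ := PBWAux.exists_der D fun a b => Subtype.ext (by
    simp only [hD, LieSubalgebra.coe_bracket, AddMemClass.coe_add]
    exact leibniz_lie _ _ _)
  let π : P' →ₗ[K] P := LinearMap.codRestrict P.toSubmodule
    (P'.toSubmodule.subtype - (r ∘ₗ P'.toSubmodule.subtype).smulRight c) fun a => hπ a a.2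
  have hπ' : ∀ a : P', (π a : G) = a - r a • c := fun _ => rfl
  have hbr : ∀ a b : P', (⁅(a : G), (b : G)⁆ : G) =
      ((⁅π a, π b⁆ + r a • D (π b) - r b • D (π a) : P) : G) := fun a b => by
    have : ((⁅π a, π b⁆ + r a • D (π b) - r b • D (π a) : P) : G) =
        ⁅(π a : G), (π b : G)⁆ + r a • ⁅c, (π b : G)⁆ - r b • ⁅c, (π a : G)⁆ := rfl
    rw [this, hπ', hπ']
    simp only [lie_sub, sub_lie, lie_smul, smul_lie, lie_self, smul_zero, sub_zero]
    rw [← lie_skew (a : G) c]
    module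
  let ρ : P' →ₗ⁅K⁆ Module.End K (UniversalEnvelopingAlgebra K P) :=
    { toLinearMap := Lm.toLinearMap ∘ₗ (UniversalEnvelopingAlgebra.ι K).toLinearMap ∘ₗ π +
        (r ∘ₗ P'.toSubmodule.subtype).smulRight δ
      map_lie' := fun {a b} => by
        have h0 : r (⁅(a : G), (b : G)⁆ : G) = 0 := by rw [hbr]; exact r2 _ (Subtype.prop _)
        have h1 : π ⁅a, b⁆ = ⁅π a, π b⁆ + r a • D (π b) - r b • D (π a) := Subtype.ext (by
          rw [hπ', LieSubalgebra.coe_bracket, h0, zero_smul, sub_zero, hbr])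
        show Lm (UniversalEnvelopingAlgebra.ι K (π ⁅a, b⁆)) + r (⁅(a : G), (b : G)⁆ : G) • δ =
          ⁅Lm (UniversalEnvelopingAlgebra.ι K (π a)) + r a • δ,
            Lm (UniversalEnvelopingAlgebra.ι K (π b)) + r b • δ⁆
        rw [h0, h1, map_sub, map_add, map_smul, map_smul, LieHom.map_lie, ← d2, ← d2, map_sub,
          map_add, map_smul, map_smul, map_br, ← d1.lie_Lm, ← d1.lie_Lm]
        simp only [Ring.lie_def, mul_add, add_mul, smul_mul_assoc, mul_smul_comm]
        module }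
  obtain ⟨hg, h⟩ := h
  refine det_of_hom (hle hg) ρ fun e => h ?_
  have e1 : π ⟨g, hle hg⟩ = ⟨g, hg⟩ := Subtype.ext (by rw [hπ', r2 g hg, zero_smul, sub_zero])
  have := LinearMap.congr_fun e 1
  change UniversalEnvelopingAlgebra.ι K (π ⟨g, hle hg⟩) * 1 + r g • δ 1 = 0 at this
  rwa [d1.one, smul_zero, add_zero, mul_one, e1] at this

theorem pbw_filtered (Γ : ℕ → Submodule K G) (h1 : Γ 1 = ⊤) (ha : Antitone Γ)
    (hb : ∀ j, ∀ a : G, ∀ b ∈ Γ j, ⁅a, b⁆ ∈ Γ (j + 1))
    (hf : ∀ j, ∃ S : Finset G, Γ j ≤ Γ (j + 1) ⊔ Submodule.span K (S : Set G) ∧ ∀ c ∈ S, c ∈ Γ j)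
    {n : ℕ} (hn : 1 ≤ n) {g : G} (hg : g ∈ Γ n) (hg' : g ∉ Γ (n + 1)) :
    UniversalEnvelopingAlgebra.ι K g ≠ 0 := by
  classical
  have key : ∀ P : LieSubalgebra K G, P.toSubmodule = Γ 1 → Det P g := by
    refine Nat.decreasingInduction'
      (P := fun j => ∀ P : LieSubalgebra K G, P.toSubmodule = Γ j → Det P g) (fun j _ _ ih => ?_)
      hn fun P hP => ?_
    · have : ∀ S : Finset G, (∀ c ∈ S, c ∈ Γ j) → ∀ P : LieSubalgebra K G,
          P.toSubmodule = Γ (j + 1) ⊔ Submodule.span K (S : Set G) → Det P g := by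
        intro S
        induction S using Finset.induction_on with
        | empty => exact fun _ P hP => ih P (by simpa using hP)
        | insert c S _ ihS =>
          intro hS P hP
          have hS' : ∀ c ∈ S, c ∈ Γ j := fun c hc => hS c (Finset.mem_insert_of_mem hc)
          have hle : Γ (j + 1) ⊔ Submodule.span K (S : Set G) ≤ Γ j :=
            sup_le (ha (Nat.le_succ j)) (Submodule.span_le.2 hS')
          rw [Finset.coe_insert, Submodule.span_insert, sup_left_comm] at hP
          refine det_step (c := c) (P := ⟨Γ (j + 1) ⊔ Submodule.span K (S : Set G),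
            fun _ h => Submodule.mem_sup_left (hb j _ _ (hle h))⟩)
            (fun a h => show a ∈ P.toSubmodule from hP ▸ Submodule.mem_sup_right h) (fun a h => ?_)
            (fun a h => Submodule.mem_sup_left (hb j _ _ (hle h)))
            (show c ∈ P.toSubmodule from
              hP ▸ Submodule.mem_sup_left (Submodule.mem_span_singleton_self c)) (ihS hS' _ rfl)
          obtain ⟨x, hx, y, hy, rfl⟩ := Submodule.mem_sup.1 (hP.le h)
          obtain ⟨r, rfl⟩ := Submodule.mem_span_singleton.1 hx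
          exact ⟨r, by rw [add_sub_cancel_left]; exact hy⟩
      obtain ⟨S, s1, s2⟩ := hf j
      exact fun P hP => this S s2 P (hP.trans (le_antisymm s1
        (sup_le (ha (Nat.le_succ j)) (Submodule.span_le.2 s2))))
    · obtain ⟨f, f1, f2⟩ := Submodule.exists_le_ker_of_notMem hg'
      refine det_of_hom (show g ∈ P.toSubmodule from hP ▸ hg) (A := K)
        ⟨f ∘ₗ P.toSubmodule.subtype, fun {a b} => ?_⟩ f1
      exact (f2 (hb n a b (hP.le b.2))).trans
        (sub_eq_zero.2 (mul_comm _ _)).symm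
  obtain ⟨hg, h⟩ := key ⊤ h1.symm
  refine fun e => h ?_
  have := UniversalEnvelopingAlgebra.lift_ι_apply K ((UniversalEnvelopingAlgebra.ι K).comp
    (LieSubalgebra.topEquiv (R := K) (L := G)).symm.toLieHom) g
  rw [e, map_zero] at this
  exact this.symm

end Vale.Agent.P029
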