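import Vale.Agent.P029.Two
import Vale.Agent.P029.Fam

/-! The fibre modulo squares. -/

noncomputable section

namespace Vale.Agent.P029

namespace PhiAux

/-- the squares of the chosen generators -/
def rel (S : Set (Fin 3)) (p q : FreeAlgebra K2 (Fin 3)) : Prop :=
  q = 0 ∧ ∃ i ∈ S, p = FreeAlgebra.ι K2 i * FreeAlgebra.ι K2 i

def gn (S : Set (Fin 3)) (i : Fin 3) : RingQuot (rel S) :=
  RingQuot.mkAlgHom K2 (rel S) (FreeAlgebra.ι K2 i)

theorem gn_sq {S : Set (Fin 3)} {i : Fin 3} (hi : i ∈ S) : gn S i * gn S i = 0 := by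
  unfold gn
  rw [← map_mul, RingQuot.mkAlgHom_rel K2 (s := rel S) ⟨rfl, i, hi, rfl⟩, map_zero]

theorem q_lift (S : Set (Fin 3)) (E : Type) [Ring E] [Algebra K2 E] (f : Fin 3 → E)
    (h : ∀ i ∈ S, f i * f i = 0) : ∃ Φ : RingQuot (rel S) →ₐ[K2] E, ∀ i, Φ (gn S i) = f i := by
  refine ⟨RingQuot.liftAlgHom K2 ⟨FreeAlgebra.lift K2 f, ?_⟩, fun i => ?_⟩
  · rintro p q ⟨rfl, i, hi, rfl⟩
    simpa using h i hi
  · unfold gn
    rw [RingQuot.liftAlgHom_mkAlgHom_apply, FreeAlgebra.lift_ι_apply]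

theorem q_ext {S : Set (Fin 3)} {E : Type} [Ring E] [Algebra K2 E]
    {f g : RingQuot (rel S) →ₐ[K2] E} (h : ∀ i, f (gn S i) = g (gn S i)) : f = g := by
  refine RingQuot.ringQuot_ext' K2 f g (FreeAlgebra.hom_ext ?_)
  funext i
  exact h i

theorem q_der (S : Set (Fin 3)) (τ : Fin 3 → RingQuot (rel S))
    (h : ∀ i ∈ S, τ i * gn S i + gn S i * τ i = 0) :
    ∃ d : Module.End K2 (RingQuot (rel S)), Der d ∧ ∀ i, d (gn S i) = τ i := by
  obtain ⟨Φ, hΦ⟩ := q_lift S (DualNumber (RingQuot (rel S))) (fun i => du (gn S i) (τ i))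
    (fun i hi => by rw [du_mul, gn_sq hi, h i hi, du_zero])
  have h1 : (TrivSqZeroExt.fstHom K2 _ _).comp Φ = AlgHom.id K2 _ := q_ext fun i => by simp [hΦ]
  have h2 : ∀ m, (Φ m).fst = m := fun m => DFunLike.congr_fun h1 m
  refine ⟨(TrivSqZeroExt.sndHom _ _).restrictScalars K2 ∘ₗ Φ.toLinearMap, fun m n => ?_,
    fun i => by simp [hΦ]⟩
  simp [h2, add_comm]

theorem sq_br {R : Type} [Ring R] [Algebra K2 R] {a : R} (h : a * a = 0) (b : R) :
    ⁅a, b⁆ * a + a * ⁅a, b⁆ = 0 := by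
  rw [br_two]
  have e : (a * b + b * a) * a + a * (a * b + b * a) =
      (a * b * a + a * b * a) + (b * (a * a) + (a * a) * b) := by noncomm_ring
  rw [e, add_self_two, h]
  simp

theorem br_comm {R : Type} [Ring R] [Algebra K2 R] (a b : R) : ⁅a, b⁆ = ⁅b, a⁆ := by
  rw [br_two, br_two, add_comm]

theorem br_br {R : Type} [Ring R] [Algebra K2 R] (a b : R) : ⁅a, ⁅a, b⁆⁆ = ⁅a * a, b⁆ := by
  simp only [br_two]
  have e : a * (a * b + b * a) + (a * b + b * a) * a =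
      (a * b * a + a * b * a) + (a * a * b + b * (a * a)) := by noncomm_ring
  rw [e, add_self_two, zero_add]

theorem jac {R : Type} [Ring R] [Algebra K2 R] (a b c : R) :
    ⁅a, ⁅b, c⁆⁆ = ⁅⁅a, b⁆, c⁆ + ⁅b, ⁅a, c⁆⁆ := by
  simp only [Ring.lie_def]
  noncomm_ring

theorem br_add {R : Type} [Ring R] (a b c : R) : ⁅a, b + c⁆ = ⁅a, b⁆ + ⁅a, c⁆ := by
  simp only [Ring.lie_def]
  noncomm_ring

theorem add_br {R : Type} [Ring R] (a b c : R) : ⁅a + b, c⁆ = ⁅a, c⁆ + ⁅b, c⁆ := by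
  simp only [Ring.lie_def]
  noncomm_ring

theorem br_self {R : Type} [Ring R] (a : R) : ⁅a, a⁆ = 0 := by simp [Ring.lie_def]

theorem br_zero {R : Type} [Ring R] (a : R) : ⁅a, (0 : R)⁆ = 0 := by simp [Ring.lie_def]

theorem zero_br {R : Type} [Ring R] (a : R) : ⁅(0 : R), a⁆ = 0 := by simp [Ring.lie_def]

theorem der_ad {k R : Type} [CommRing k] [Ring R] [Algebra k R] (a : R) :
    Der (LinearMap.mulLeft k a - LinearMap.mulRight k a : Module.End k R) := by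
  intro m n
  simp only [LinearMap.sub_apply, LinearMap.mulLeft_apply, LinearMap.mulRight_apply]
  noncomm_ring

theorem der_zero {k R : Type} [CommRing k] [Ring R] [Algebra k R] : Der (0 : Module.End k R) := by
  intro m n
  simp

theorem sq_sum {R : Type} [Ring R] [Algebra K2 R] {a b c : R} (ha : a * a = 0) (hb : b * b = 0)
    (hc : c * c = 0) : (a + b + c) * (a + b + c) = ⁅a, b⁆ + ⁅a, c⁆ + ⁅b, c⁆ := by
  simp only [br_two]
  have e : (a + b + c) * (a + b + c) = a * b + b * a + (a * c + c * a) + (b * c + c * b) +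
      (a * a + b * b + c * c) := by noncomm_ring
  rw [e, ha, hb, hc]
  simp

/-- bracket with an element that acts on the generators like a derivation -/
theorem br_lift {ι A : Type} [Ring A] [Algebra K2 A] (f : ι → A) (a : A)
    (τ : ι → FreeAlgebra K2 ι) (h : ∀ i, ⁅a, f i⁆ = FreeAlgebra.lift K2 f (τ i))
    (φ : FreeAlgebra K2 ι) :
    ⁅a, FreeAlgebra.lift K2 f φ⁆ = FreeAlgebra.lift K2 f (dvG (FreeAlgebra.ι K2) τ φ) := by
  have : (LinearMap.mulLeft K2 a - LinearMap.mulRight K2 a) ∘ₗ (FreeAlgebra.lift K2 f).toLinearMap =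
      (FreeAlgebra.lift K2 f).toLinearMap ∘ₗ dvG (FreeAlgebra.ι K2) τ := by
    refine derAl_ext (f := FreeAlgebra.lift K2 f) (fun m n => ?_) (fun m n => ?_) fun i => ?_
    · simp only [LinearMap.comp_apply, AlgHom.toLinearMap_apply, map_mul, der_ad a _ _]
    · simp only [LinearMap.comp_apply, AlgHom.toLinearMap_apply, dvG_self_der τ m n, map_add,
        map_mul]
    · simpa [Ring.lie_def] using h i
  exact DFunLike.congr_fun this φ

end PhiAux

open PhiAux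

/-- the free algebra on three generators modulo the squares of some generators carries the two
derivations; it maps to every algebra with three elements with the same relations -/
theorem exists_quot (S : Set (Fin 3)) : ∃ (R : Type) (_ : Ring R) (_ : Algebra K2 R)
    (g : Fin 3 → R) (d12 d23 : Module.End K2 R), Fibre (g 0) (g 1) (g 2) d12 d23 ∧
      (∀ i ∈ S, g i * g i = 0) ∧ Algebra.adjoin K2 (Set.range g) = ⊤ ∧
      ∀ (E : Type) [Ring E] [Algebra K2 E] (f : Fin 3 → E), (∀ i ∈ S, f i * f i = 0) →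
        ∃ Φ : R →ₐ[K2] E, ∀ i, Φ (g i) = f i := by
  obtain ⟨d12, h12, e12⟩ := q_der S ![⁅gn S 0, gn S 1⁆, ⁅gn S 1, gn S 0⁆, 0] (fun i hi => by
    fin_cases i
    · exact sq_br (gn_sq hi) _
    · exact sq_br (gn_sq hi) _
    · simp)
  obtain ⟨d23, h23, e23⟩ := q_der S ![0, ⁅gn S 1, gn S 2⁆, ⁅gn S 2, gn S 1⁆] (fun i hi => by
    fin_cases i
    · simp
    · exact sq_br (gn_sq hi) _
    · exact sq_br (gn_sq hi) _)
  refine ⟨RingQuot (rel S), inferInstance, inferInstance, gn S, d12, d23,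
    ⟨h12, h23, e12 0, e12 1, e12 2, e23 0, e23 1, e23 2⟩, fun i hi => gn_sq hi, ?_,
    fun E _ _ f hf => q_lift S E f hf⟩
  rw [Algebra.adjoin_range_eq_range_freeAlgebra_lift, eq_top_iff]
  rintro m -
  obtain ⟨p, rfl⟩ := RingQuot.mkAlgHom_surjective K2 (rel S) m
  refine ⟨p, ?_⟩
  have : FreeAlgebra.lift K2 (gn S) = RingQuot.mkAlgHom K2 (rel S) := by
    refine FreeAlgebra.hom_ext ?_
    funext i
    simp [gn]
  exact DFunLike.congr_fun this p

theorem der_ext_adjoin {k R : Type} [CommRing k] [Ring R] [Algebra k R] {ι : Type} {g : ι → R}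
    (hg : Algebra.adjoin k (Set.range g) = ⊤) {d d' : Module.End k R} (h : Der d) (h' : Der d')
    (hi : ∀ i, d (g i) = d' (g i)) : d = d' := by
  ext m
  have hm : m ∈ Algebra.adjoin k (Set.range g) := by rw [hg]; trivial
  induction hm using Algebra.adjoin_induction with
  | mem a ha => obtain ⟨i, rfl⟩ := ha; exact hi i
  | algebraMap r => rw [Algebra.algebraMap_eq_smul_one, map_smul, map_smul, h.one, h'.one]
  | add a b _ _ h1 h2 => rw [map_add, map_add, h1, h2]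
  | mul a b _ _ h1 h2 => rw [h, h', h1, h2]

theorem Der.sq_two {R : Type} [Ring R] [Algebra K2 R] {d : Module.End K2 R} (h : Der d) :
    Der (d * d) := by
  intro m n
  simp only [Module.End.mul_apply, h m n, map_add, h (d m) n, h m (d n)]
  have := add_self_two (d m * d n)
  linear_combination (norm := noncomm_ring) this

namespace PhiAux

abbrev F3 : Type := FreeAlgebra K2 (Fin 3)

def Hn (n : ℕ) : Submodule K2 F3 := H K2 (FreeAlgebra.ι K2) ![2, 2, 3] n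

def g3 (i : Fin 3) : F3 := FreeAlgebra.ι K2 i

theorem g0 : g3 0 ∈ Hn 2 := H_of (g := FreeAlgebra.ι K2) (wt := ![2, 2, 3]) 0

theorem g1 : g3 1 ∈ Hn 2 := H_of (g := FreeAlgebra.ι K2) (wt := ![2, 2, 3]) 1

theorem g2 : g3 2 ∈ Hn 3 := H_of (g := FreeAlgebra.ι K2) (wt := ![2, 2, 3]) 2

@[simp] theorem lift_g3 {A : Type} [Ring A] [Algebra K2 A] (f : Fin 3 → A) (i : Fin 3) :
    FreeAlgebra.lift K2 f (g3 i) = f i := FreeAlgebra.lift_ι_apply f i

def Q (ψ : T K2) (φ : F3) : Prop :=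
  ∀ (A : Type) [Ring A] [Algebra K2 A] (a b : A), b * b = 0 →
    ev a b ψ = FreeAlgebra.lift K2 ![a * a, ⁅a, b⁆, ⁅b, a * a⁆] φ

def PP (n : ℕ) : Submodule K2 (T K2) where
  carrier := {ψ | ∃ φ ∈ Hn n, Q ψ φ}
  add_mem' := by
    rintro ψ ψ' ⟨φ, h1, h2⟩ ⟨φ', h1', h2'⟩
    exact ⟨φ + φ', add_mem h1 h1', fun A _ _ a b hb => by
      rw [map_add, map_add, h2 A a b hb, h2' A a b hb]⟩
  zero_mem' := ⟨0, zero_mem _, fun A _ _ a b hb => by rw [map_zero, map_zero]⟩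
  smul_mem' := by
    rintro c ψ ⟨φ, h1, h2⟩
    exact ⟨c • φ, Submodule.smul_mem _ c h1, fun A _ _ a b hb => by
      rw [map_smul, map_smul, h2 A a b hb]⟩

theorem hX (n : ℕ) : ∀ ψ ∈ PP n, ⁅X K2, ψ⁆ ∈ PP (1 + n) := by
  rintro ψ ⟨φ, h1, h2⟩
  refine ⟨dvG (FreeAlgebra.ι K2) ![0, g3 2, ⁅g3 0, g3 1⁆] φ,
    H_der (dvG_self_der _) (fun i => ?_) h1, fun A _ _ a b hb => ?_⟩
  · rw [dvG_of]
    fin_cases i
    · exact zero_mem _
    · exact g2
    · exact (H_br g0 g1 : _ ∈ Hn (2 + 2))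
  · rw [map_br, ev_X, h2 A a b hb]
    refine br_lift _ _ _ (fun i => ?_) φ
    have e : ⁅a, a * a⁆ = 0 := by rw [Ring.lie_def, mul_assoc, sub_self]
    fin_cases i
    · exact e.trans (map_zero _).symm
    · change ⁅a, ⁅a, b⁆⁆ = FreeAlgebra.lift K2 _ (g3 2)
      rw [lift_g3, br_br, br_comm]
      rfl
    · change ⁅a, ⁅b, a * a⁆⁆ = FreeAlgebra.lift K2 _ ⁅g3 0, g3 1⁆
      rw [map_br, lift_g3, lift_g3, jac, e, br_zero, add_zero, br_comm]
      rfl

theorem hY (n : ℕ) : ∀ ψ ∈ PP n, ⁅Y K2, ψ⁆ ∈ PP (1 + n) := by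
  rintro ψ ⟨φ, h1, h2⟩
  refine ⟨dvG (FreeAlgebra.ι K2) ![g3 2, 0, 0] φ,
    H_der (dvG_self_der _) (fun i => ?_) h1, fun A _ _ a b hb => ?_⟩
  · rw [dvG_of]
    fin_cases i
    · exact g2
    · exact zero_mem _
    · exact zero_mem _
  · rw [map_br, ev_Y, h2 A a b hb]
    refine br_lift _ _ _ (fun i => ?_) φ
    fin_cases i
    · change ⁅b, a * a⁆ = FreeAlgebra.lift K2 _ (g3 2)
      rw [lift_g3]
      rfl
    · change ⁅b, ⁅a, b⁆⁆ = FreeAlgebra.lift K2 _ 0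
      rw [map_zero, br_comm a b, br_br, hb, zero_br]
    · change ⁅b, ⁅b, a * a⁆⁆ = FreeAlgebra.lift K2 _ 0
      rw [map_zero, br_br, hb, zero_br]

theorem h1 (n : ℕ) : ∀ a ∈ HT K2 1, ∀ ψ ∈ PP n, ⁅a, ψ⁆ ∈ PP (1 + n) := by
  intro a ha ψ hψ
  obtain ⟨p, q, rfl⟩ := HT_one ha
  have : ⁅p • X K2 + q • Y K2, ψ⁆ = p • ⁅X K2, ψ⁆ + q • ⁅Y K2, ψ⁆ := by
    simp only [Ring.lie_def, add_mul, mul_add, smul_mul_assoc, mul_smul_comm]
    module
  rw [this]
  exact add_mem (Submodule.smul_mem _ p (hX n ψ hψ)) (Submodule.smul_mem _ q (hY n ψ hψ))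

theorem h11 : ⁅X K2, Y K2⁆ ∈ PP 2 := ⟨g3 1, g1, fun A _ _ a b _ => by
  rw [map_br, ev_X, ev_Y, lift_g3]
  rfl⟩

theorem hbr {m n : ℕ} {a b : T K2} (ha : a ∈ PP m) (hb : b ∈ PP n) : ⁅a, b⁆ ∈ PP (m + n) := by
  obtain ⟨φ, e1, e2⟩ := ha
  obtain ⟨φ', e1', e2'⟩ := hb
  exact ⟨⁅φ, φ'⁆, H_br e1 e1', fun A _ _ a b hb => by
    rw [map_br, map_br, e2 A a b hb, e2' A a b hb]⟩

theorem key (n : ℕ) : HT K2 n ≤ if n = 1 then ⊤ else PP n := by
  refine H_le (fun n => if n = 1 then ⊤ else PP n) (fun i => by simp)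
    (fun m n a b ha hb ha' hb' => ?_) n
  rcases Nat.eq_zero_or_pos m with rfl | hm
  · rw [H_zero (fun _ => le_rfl), Submodule.mem_bot] at ha
    rw [ha, zero_br]
    exact zero_mem _
  rcases Nat.eq_zero_or_pos n with rfl | hn
  · rw [H_zero (fun _ => le_rfl), Submodule.mem_bot] at hb
    rw [hb, br_zero]
    exact zero_mem _
  rw [if_neg (by omega)]
  by_cases m1 : m = 1 <;> by_cases n1 : n = 1
  · subst m1 n1
    have hab : ⁅a, b⁆ ∈ HT K2 2 := by
      unfold HT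
      exact H_br (m := 1) (n := 1) ha hb
    obtain ⟨p, e⟩ := HT_two hab
    rw [e]
    exact Submodule.smul_mem _ p h11
  · subst m1
    rw [if_neg n1] at hb'
    exact h1 n a ha b hb'
  · subst n1
    rw [if_neg m1] at ha'
    rw [br_comm, add_comm]
    exact h1 m b hb a ha'
  · rw [if_neg m1] at ha'
    rw [if_neg n1] at hb'
    exact hbr ha' hb'

end PhiAux

/-- a Lie polynomial modulo the square of the second variable -/
theorem exists_phi {n : ℕ} (hn : 2 ≤ n) {ψ : T K2} (hψ : ψ ∈ HT K2 n) :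
    ∃ φ ∈ H K2 (FreeAlgebra.ι K2) (![2, 2, 3] : Fin 3 → ℕ) n,
      ∀ (A : Type) [Ring A] [Algebra K2 A] (a b : A), b * b = 0 →
        ev a b ψ = FreeAlgebra.lift K2 ![a * a, ⁅a, b⁆, ⁅b, a * a⁆] φ := by
  have := key n hψ
  rw [if_neg (by omega)] at this
  exact this

section ops
variable {R : Type} [Ring R] [Algebra K2 R] {g : Fin 3 → R} {d12 d23 : Module.End K2 R}

theorem d23_sq (h : Fibre (g 0) (g 1) (g 2) d12 d23) (hg : Algebra.adjoin K2 (Set.range g) = ⊤)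
    (h1 : g 1 * g 1 = 0) (h2 : g 2 * g 2 = 0) : d23 * d23 = 0 := by
  refine der_ext_adjoin hg h.der23.sq_two der_zero fun i => ?_
  have e : d23 ⁅g 1, g 2⁆ = 0 := by
    rw [h.der23.br, h.b23, h.c23, br_comm _ (g 2), br_comm (g 1) (g 2), br_br, h2, zero_br,
      br_comm (g 2) (g 1), br_br, h1, zero_br, add_zero]
  fin_cases i
  · change d23 (d23 (g 0)) = 0
    rw [h.a23, map_zero]
  · change d23 (d23 (g 1)) = 0
    rw [h.b23, e]
  · change d23 (d23 (g 2)) = 0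
    rw [h.c23, br_comm, e]

/-- the operator term in the fibre modulo all three squares -/
theorem U_term (h : Fibre (g 0) (g 1) (g 2) d12 d23) (hg : Algebra.adjoin K2 (Set.range g) = ⊤)
    (h0 : g 0 * g 0 = 0) (h1 : g 1 * g 1 = 0) (h2 : g 2 * g 2 = 0) {n : ℕ} (hn : 3 ≤ n)
    {φ : FreeAlgebra K2 (Fin 3)} (hφ : φ ∈ H K2 (FreeAlgebra.ι K2) (![2, 2, 3] : Fin 3 → ℕ) n) :
    (FreeAlgebra.lift K2 ![(Lm (g 1) + d12) * (Lm (g 1) + d12), ⁅Lm (g 1) + d12, d23⁆,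
      ⁅d23, (Lm (g 1) + d12) * (Lm (g 1) + d12)⁆] φ : Module.End K2 R) 1 =
      FreeAlgebra.lift K2 ![⁅g 0, g 1⁆, ⁅g 0 + g 1 + g 2, g 0⁆,
        ⁅g 0, (g 0 + g 1 + g 2) * (g 0 + g 1 + g 2)⁆] φ := by
  set s := g 0 + g 1 + g 2 with hs
  have z : ∀ {a : R} (b : R), a * a = 0 → ⁅a, ⁅a, b⁆⁆ = 0 := fun b ha => by
    rw [br_br, ha, zero_br]
  have hS : s * s = ⁅g 0, g 1⁆ + ⁅g 0, g 2⁆ + ⁅g 1, g 2⁆ := sq_sum h0 h1 h2
  have d12sq : d12 * d12 = 0 := by
    refine der_ext_adjoin hg h.der12.sq_two der_zero fun i => ?_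
    have e : d12 ⁅g 0, g 1⁆ = 0 := by
      rw [h.der12.br, h.a12, h.b12, br_comm _ (g 1), br_comm (g 0) (g 1), z _ h1,
        br_comm (g 1) (g 0), z _ h0, add_zero]
    fin_cases i
    · change d12 (d12 (g 0)) = 0
      rw [h.a12, e]
    · change d12 (d12 (g 1)) = 0
      rw [h.b12, br_comm, e]
    · change d12 (d12 (g 2)) = 0
      rw [h.c12, map_zero]
  have e1 : (Lm (g 1) + d12) * (Lm (g 1) + d12) = (Lm ⁅g 0, g 1⁆ : Module.End K2 R) := by
    have e := h.der12.lie_Lm (g 1)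
    rw [h.b12, br_two, br_comm (g 1)] at e
    rw [← e, add_mul, mul_add, mul_add, d12sq, ← map_mul, h1, map_zero]
    abel
  have hA : ⁅g 0, s * s⁆ = ⁅g 0, ⁅g 1, g 2⁆⁆ := by
    rw [hS, br_add, br_add, z _ h0, z _ h0, zero_add, zero_add]
  have e2 : ⁅d12, d23⁆ = LinearMap.mulLeft K2 (s * s) - LinearMap.mulRight K2 (s * s) := by
    refine der_ext_adjoin hg (h.der12.lie h.der23) (der_ad _) fun i => ?_
    have r : ∀ m, (LinearMap.mulLeft K2 (s * s) - LinearMap.mulRight K2 (s * s) :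
        Module.End K2 R) m = ⁅m, s * s⁆ := fun m => br_comm (s * s) m
    rw [r, br_two]
    fin_cases i
    · change d12 (d23 (g 0)) + d23 (d12 (g 0)) = ⁅g 0, s * s⁆
      rw [hA, h.a23, map_zero, zero_add, h.a12, h.der23.br, h.a23, h.b23, zero_br, zero_add]
    · change d12 (d23 (g 1)) + d23 (d12 (g 1)) = ⁅g 1, s * s⁆
      rw [h.b23, h.b12, h.der12.br, h.der23.br, h.b12, h.c12, h.a23, h.b23, br_zero, add_zero,
        add_zero, hS, br_add, br_add, z _ h1, br_comm (g 0) (g 1), z _ h1, zero_add, add_zero,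
        jac (g 1) (g 0) (g 2), br_comm (g 0) ⁅g 1, g 2⁆]
    · change d12 (d23 (g 2)) + d23 (d12 (g 2)) = ⁅g 2, s * s⁆
      rw [h.c12, map_zero, add_zero, h.c23, h.der12.br, h.c12, h.b12, zero_br, zero_add, hS,
        br_add, br_add, br_comm (g 0) (g 2), z _ h2, br_comm (g 1) (g 2), z _ h2, add_zero,
        add_zero, br_comm (g 1) (g 0)]
  have e3 : ⁅(Lm (g 1) + d12 : Module.End K2 R), d23⁆ =
      Lm ⁅s, g 0⁆ + LinearMap.mulRight K2 (s * s) := by
    have e := h.der23.lie_Lm (g 1)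
    have w : ⁅s, g 0⁆ = ⁅g 1, g 2⁆ + s * s := by
      rw [hS, hs, add_br, add_br, br_self, zero_add, br_comm (g 1) (g 0), br_comm (g 2) (g 0),
        add_comm ⁅g 1, g 2⁆, add_assoc _ ⁅g 1, g 2⁆, add_self_two, add_zero]
    rw [add_br, br_comm _ d23, e, h.b23, e2, w, map_add, sub_eq_add_neg, neg_eq_two, add_assoc]
    rfl
  have e4 : ⁅d23, (Lm ⁅g 0, g 1⁆ : Module.End K2 R)⁆ = Lm ⁅g 0, s * s⁆ := by
    rw [h.der23.lie_Lm, hA, h.der23.br, h.a23, h.b23, zero_br, zero_add]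
  rw [e1, e3, e4]
  have e5 := lift_add_of_H (k := K2) (A := Module.End K2 R)
    (f := fun i => Lm (![⁅g 0, g 1⁆, ⁅s, g 0⁆, ⁅g 0, s * s⁆] i))
    (f' := ![0, LinearMap.mulRight K2 (s * s), 0]) (fun i j => by
      fin_cases j
      · exact Commute.zero_right _
      · exact LinearMap.ext fun m => (mul_assoc _ _ _).symm
      · exact Commute.zero_right _) hφ
  have e6 := lift_eq_zero_of_H (k := K2) (A := Module.End K2 R)
    (f := ![0, LinearMap.mulRight K2 (s * s), 0]) (fun i j => by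
      fin_cases i <;> fin_cases j <;> simp) (fun i hi => by
      fin_cases i
      · rfl
      · exact absurd hi (by change ¬ 2 = n; omega)
      · rfl) hφ
  rw [e6, add_zero, ← map_lift] at e5
  have e7 : (![Lm ⁅g 0, g 1⁆, Lm ⁅s, g 0⁆ + LinearMap.mulRight K2 (s * s), Lm ⁅g 0, s * s⁆] :
      Fin 3 → Module.End K2 R) = fun i => Lm (![⁅g 0, g 1⁆, ⁅s, g 0⁆, ⁅g 0, s * s⁆] i) +
        (![0, LinearMap.mulRight K2 (s * s), 0] : Fin 3 → Module.End K2 R) i := by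
    funext i
    fin_cases i <;> simp
  rw [e7, e5, Lm_apply, mul_one]

end ops

end Vale.Agent.P029
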