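import Vale.Agent.P029.PBW
import Vale.Agent.P029.Basic

/-! The lattice of integral Lie polynomials is saturated at two. -/

noncomputable section

namespace Vale.Agent.P029

open scoped TensorProduct

attribute [local instance 100] LieRing.ofAssociativeRing

/-- projection to the homogeneous part of degree `n` -/
theorem exists_proj (k : Type) [CommRing k] (n : ℕ) : ∃ π : T k →ₗ[k] T k,
    (∀ m ∈ VT k ^ n, π m = m) ∧ ∀ i, i ≠ n → ∀ m ∈ VT k ^ i, π m = 0 := by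
  have key : ∀ i, ∀ m ∈ VT k ^ i, (ev (Polynomial.X * Polynomial.C (X k))
      (Polynomial.X * Polynomial.C (Y k)) m).coeff n = if n = i then m else 0 := fun i m hm => by
    have := map_ev (Polynomial.CAlgHom : T k →ₐ[k] Polynomial (T k)) (X k) (Y k) m
    rw [ev_self, Polynomial.CAlgHom_apply, Polynomial.CAlgHom_apply, Polynomial.CAlgHom_apply]
      at this
    rw [ev_central (Polynomial.commute_X _) (Polynomial.commute_X _) hm, ← this,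
      Polynomial.X_pow_mul, Polynomial.coeff_C_mul_X_pow]
  refine ⟨(Polynomial.lcoeff (T k) n).restrictScalars k ∘ₗ (ev (Polynomial.X * Polynomial.C (X k))
    (Polynomial.X * Polynomial.C (Y k))).toLinearMap, fun m hm => (key n m hm).trans (if_pos rfl),
    fun i hi m hm => (key i m hm).trans (if_neg hi.symm)⟩

namespace SatAux

/-- bracket monomials in two letters -/
abbrev M (i : ℕ) (a : T ℤ) : Prop := Mon (FreeAlgebra.ι ℤ) (fun _ : Fin 2 => 1) i a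

/-- integral Lie polynomials -/
def LZ : LieSubalgebra ℤ (T ℤ) where
  toSubmodule := Submodule.span ℤ {a | ∃ i, M i a}
  lie_mem' := fun {a b} ha hb => LinearMap.BilinMap.apply_apply_mem_of_mem_span _ _ _
    (LieAlgebra.ad ℤ (T ℤ)).toLinearMap
    (by rintro _ ⟨_, h⟩ _ ⟨_, h'⟩; exact Submodule.subset_span ⟨_, h.br h'⟩) a b ha hb

theorem mem_LZ {i : ℕ} {a : T ℤ} (h : M i a) : a ∈ LZ := Submodule.subset_span ⟨i, h⟩

theorem ind {p : LZ → Prop} {s : Set (T ℤ)} (hs : ∀ a ∈ s, a ∈ LZ) (h1 : ∀ l : LZ, l.1 ∈ s → p l)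
    (h2 : p 0) (h3 : ∀ a b, p a → p b → p (a + b)) (h4 : ∀ (r : ℤ) a, p a → p (r • a)) (l : LZ)
    (hl : l.1 ∈ Submodule.span ℤ s) : p l := by
  have hle : Submodule.span ℤ s ≤ LZ.toSubmodule := Submodule.span_le.2 hs
  obtain ⟨a, ha⟩ := l
  change a ∈ _ at hl
  induction hl using Submodule.span_induction with
  | mem a h => exact h1 _ h
  | zero => exact h2
  | add a b h5 h6 h7 h8 => exact h3 _ _ (h7 (hle h5)) (h8 (hle h6))
  | smul r a h5 h6 => exact h4 r _ (h6 (hle h5))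

/-- the filtration of the reduction modulo two -/
def Γ (j : ℕ) : Submodule (ZMod 2) (ZMod 2 ⊗[ℤ] LZ) :=
  Submodule.span (ZMod 2) {z | ∃ (l : LZ) (i : ℕ), j ≤ i ∧ M i l.1 ∧ z = 1 ⊗ₜ l}

theorem mem_Γ {j : ℕ} {s : Set (T ℤ)} (hs : ∀ a ∈ s, ∃ i, j ≤ i ∧ M i a) (l : LZ)
    (hl : l.1 ∈ Submodule.span ℤ s) : (1 : ZMod 2) ⊗ₜ[ℤ] l ∈ Γ j := by
  refine ind (p := fun l => (1 : ZMod 2) ⊗ₜ[ℤ] l ∈ Γ j)
    (fun a ha => (hs a ha).elim fun _ h => mem_LZ h.2) (fun l h => ?_) (by simp)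
    (fun a b h1 h2 => ?_) (fun r a h => ?_) l hl
  · obtain ⟨i, h1, h2⟩ := hs _ h
    exact Submodule.subset_span ⟨l, i, h1, h2, rfl⟩
  · rw [TensorProduct.tmul_add]
    exact add_mem h1 h2
  · rw [TensorProduct.tmul_smul]
    exact zsmul_mem h r

theorem Γ_one : Γ 1 = ⊤ := by
  refine eq_top_iff.2 fun z _ => ?_
  induction z using TensorProduct.induction_on with
  | zero => exact zero_mem _
  | tmul a l =>
    rw [← mul_one a, ← smul_eq_mul, ← TensorProduct.smul_tmul']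
    exact Submodule.smul_mem _ _ (mem_Γ (s := {a | ∃ i, M i a})
      (fun a ⟨i, h⟩ => ⟨i, h.pos fun _ => le_rfl, h⟩) l l.2)
  | add a b h1 h2 => exact add_mem (h1 trivial) (h2 trivial)

theorem Γ_anti : Antitone Γ := fun _ _ h =>
  Submodule.span_mono fun _ ⟨l, i, h1, h2⟩ => ⟨l, i, h.trans h1, h2⟩

theorem Γ_br (j : ℕ) (a : ZMod 2 ⊗[ℤ] LZ) : ∀ b ∈ Γ j, ⁅a, b⁆ ∈ Γ (j + 1) := by
  intro b hb
  have ha : a ∈ Γ 1 := Γ_one ▸ trivial
  refine LinearMap.BilinMap.apply_apply_mem_of_mem_span _ _ _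
    (LieAlgebra.ad (ZMod 2) (ZMod 2 ⊗[ℤ] LZ)).toLinearMap ?_ a b ha hb
  rintro _ ⟨l, i, h1, h2, rfl⟩ _ ⟨l', i', h3, h4, rfl⟩
  refine Submodule.subset_span ⟨⁅l, l'⁆, i + i', by omega, h2.br h4, ?_⟩
  show ⁅(1 : ZMod 2) ⊗ₜ[ℤ] l, (1 : ZMod 2) ⊗ₜ[ℤ] l'⁆ = _
  rw [LieAlgebra.ExtendScalars.bracket_tmul, one_mul]

theorem Γ_fin (j : ℕ) : ∃ S : Finset (ZMod 2 ⊗[ℤ] LZ),
    Γ j ≤ Γ (j + 1) ⊔ Submodule.span (ZMod 2) (S : Set (ZMod 2 ⊗[ℤ] LZ)) ∧ ∀ c ∈ S, c ∈ Γ j := by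
  have h : ((fun l : LZ => (1 : ZMod 2) ⊗ₜ[ℤ] l) '' {l | M j l.1}).Finite :=
    (Set.Finite.preimage Subtype.val_injective.injOn (Mon.finite (fun _ => le_rfl) j)).image _
  refine ⟨h.toFinset, Submodule.span_le.2 ?_, fun c hc => ?_⟩
  · rintro _ ⟨l, i, h1, h2, rfl⟩
    rcases h1.eq_or_lt with rfl | h1
    · exact Submodule.mem_sup_right (Submodule.subset_span (h.mem_toFinset.2 ⟨l, h2, rfl⟩))
    · exact Submodule.mem_sup_left (Submodule.subset_span ⟨l, i, h1, h2, rfl⟩)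
  · obtain ⟨l, h1, rfl⟩ := h.mem_toFinset.1 hc
    exact Submodule.subset_span ⟨l, j, le_rfl, h1, rfl⟩

theorem exists_hom : ∃ f : T ℤ →+* UniversalEnvelopingAlgebra (ZMod 2) (ZMod 2 ⊗[ℤ] LZ),
    ∀ l : LZ, f l.1 = UniversalEnvelopingAlgebra.ι (ZMod 2) ((1 : ZMod 2) ⊗ₜ[ℤ] l) := by
  let f : T ℤ →+* UniversalEnvelopingAlgebra (ZMod 2) (ZMod 2 ⊗[ℤ] LZ) :=
    liftZ fun i => UniversalEnvelopingAlgebra.ι (ZMod 2)
      ((1 : ZMod 2) ⊗ₜ[ℤ] (⟨FreeAlgebra.ι ℤ i, mem_LZ (Mon.of i)⟩ : LZ))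
  have key : ∀ i a (h : M i a),
      f a = UniversalEnvelopingAlgebra.ι (ZMod 2) ((1 : ZMod 2) ⊗ₜ[ℤ] (⟨a, mem_LZ h⟩ : LZ)) := by
    intro i a h
    induction h with
    | of i => exact FreeAlgebra.lift_ι_apply _ _
    | br h1 h2 h3 h4 =>
      rw [map_br, h3, h4, ← LieHom.map_lie, LieAlgebra.ExtendScalars.bracket_tmul, one_mul]
      rfl
  refine ⟨f, fun l => ind (p := fun l => f l.1 = UniversalEnvelopingAlgebra.ι (ZMod 2)
    ((1 : ZMod 2) ⊗ₜ[ℤ] l)) (s := {a | ∃ i, M i a}) (fun a ⟨_, h⟩ => mem_LZ h) (fun l ⟨i, h⟩ => key i _ h) (by simp)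
    (fun a b h1 h2 => ?_) (fun r a h => ?_) l l.2⟩
  · rw [TensorProduct.tmul_add, map_add, ← h1, ← h2, ← map_add]
    rfl
  · rw [TensorProduct.tmul_smul, map_zsmul, ← h, ← map_zsmul]
    rfl

end SatAux

open SatAux in
theorem saturated {n : ℕ} {ψ m : T ℤ} (h : ψ ∈ HT ℤ n) (h2 : ψ = (2 : ℤ) • m) : m ∈ HT ℤ n := by
  have hinj : ∀ a : T ℤ, ψ = (2 : ℤ) • a → m = a := fun a ha =>
    smul_right_injective (T ℤ) two_ne_zero (h2.symm.trans ha)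
  rcases Nat.eq_zero_or_pos n with rfl | hn
  · have : ψ = 0 := by rwa [HT, H_zero fun _ => le_rfl] at h
    rw [hinj 0 (by rw [this, smul_zero])]
    exact zero_mem _
  have hψ : ψ ∈ LZ := (Submodule.span_le (p := LZ.toSubmodule)).2 (fun a ha => mem_LZ ha) h
  have h3 : (1 : ZMod 2) ⊗ₜ[ℤ] (⟨ψ, hψ⟩ : LZ) ∈ Γ (n + 1) := by
    by_contra h3
    refine pbw_filtered Γ Γ_one Γ_anti Γ_br Γ_fin hn
      (mem_Γ (fun a ha => ⟨n, le_rfl, ha⟩) ⟨ψ, hψ⟩ h) h3 ?_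
    obtain ⟨f, hf⟩ := exists_hom
    rw [← hf]
    show f ψ = 0
    rw [h2, map_zsmul, ← Int.cast_smul_eq_zsmul (ZMod 2)]
    exact zero_smul _ _
  obtain ⟨π, p1, p2⟩ := exists_proj ℤ n
  have p3 : ∀ i a, M i a → i ≠ n → π a = 0 := fun i a ha hi =>
    p2 i hi a (HT_le_pow i (Submodule.subset_span ha))
  have p4 : ∀ l : LZ, π l.1 ∈ HT ℤ n := fun l => by
    refine (Submodule.span_le (p := (HT ℤ n).comap π)).2 ?_ l.2
    rintro a ⟨i, ha⟩
    show π a ∈ HT ℤ n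
    by_cases hi : i = n
    · subst hi
      have : a ∈ HT ℤ i := Submodule.subset_span ha
      exact (p1 a (HT_le_pow i this)).symm ▸ this
    · exact (p3 i a ha hi).symm ▸ zero_mem _
  let N : Submodule ℤ (HT ℤ n) := LinearMap.range ((2 : ℤ) • LinearMap.id)
  let q : LZ →ₗ[ℤ] HT ℤ n ⧸ N :=
    N.mkQ ∘ₗ LinearMap.codRestrict _ (π ∘ₗ LZ.toSubmodule.subtype) p4
  have hq : zmultiplesHom _ q ((2 : ℕ) : ℤ) = 0 := LinearMap.ext fun l =>
    (Submodule.Quotient.mk_eq_zero N).2 ⟨_, rfl⟩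
  let θ : ZMod 2 ⊗[ℤ] LZ →ₗ[ℤ] HT ℤ n ⧸ N :=
    TensorProduct.lift (ZMod.lift 2 ⟨zmultiplesHom _ q, hq⟩).toIntLinearMap
  have hθ : ∀ l, θ (1 ⊗ₜ l) = q l := fun l => by
    have := ZMod.lift_coe 2 ⟨zmultiplesHom _ q, hq⟩ 1
    rw [Int.cast_one] at this
    show ZMod.lift 2 ⟨zmultiplesHom _ q, hq⟩ 1 l = q l
    rw [this]
    simp
  have h4 : ∀ z ∈ Γ (n + 1), θ z = 0 := fun z hz => by
    induction hz using Submodule.span_induction with
    | mem z hz =>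
      obtain ⟨l, i, h5, h6, rfl⟩ := hz
      rw [hθ]
      exact (congrArg N.mkQ (Subtype.ext (p3 i _ h6 (by omega)))).trans (map_zero _)
    | zero => exact map_zero _
    | add a b _ _ h5 h6 => rw [map_add, h5, h6, add_zero]
    | smul r a _ h5 =>
      obtain ⟨r, rfl⟩ := ZMod.intCast_surjective r
      rw [Int.cast_smul_eq_zsmul, map_smul, h5, smul_zero]
  obtain ⟨l, hl⟩ := (Submodule.Quotient.mk_eq_zero N).1 ((hθ _).symm.trans (h4 _ h3))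
  rw [hinj l.1 ((p1 ψ (HT_le_pow n h)).symm.trans (congrArg Subtype.val hl).symm)]
  exact l.2

end Vale.Agent.P029
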