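import Vale.Agent.P029.Int
import Vale.Agent.P029.Sat
import Vale.Agent.P029.Mod2
import Vale.Agent.P029.KFin

/-! The lattice of integral solutions and the generators. -/

noncomputable section

namespace Vale.Agent.P029

/-- integral solutions of weight `n` -/
def Lam (n : ℕ) : Submodule ℤ (T ℤ) where
  carrier := {ψ | ψ ∈ HT ℤ n ∧ Pent (bc ℚ ψ)}
  add_mem' h h' := ⟨add_mem h.1 h'.1, by rw [map_add]; exact h.2.add h'.2⟩
  zero_mem' := ⟨zero_mem _, by rw [map_zero]; exact Pent.zero⟩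
  smul_mem' c ψ h := ⟨Submodule.smul_mem _ c h.1, by
    rw [map_zsmul, ← Int.cast_smul_eq_zsmul ℚ]; exact h.2.smul _⟩

/-- integer polynomials with the Ihara bracket -/
def Ih : Type := T ℤ

instance : AddCommGroup Ih := inferInstanceAs (AddCommGroup (T ℤ))

instance : Bracket Ih Ih := ⟨fun a b => ih (k := ℤ) a b⟩

/-- the span of the Ihara monomials of weight `n` in the elements `σ i` -/
def Dn {ι : Type} (σ : ι → T ℤ) (wt : ι → ℕ) (n : ℕ) : Submodule ℤ (T ℤ) :=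
  Submodule.span ℤ {a : T ℤ | Mon (G := Ih) σ wt n a}

namespace SigmaAux

theorem two_data {n : ℕ} (hn : 3 ≤ n) {ψ : T ℤ} (h : ψ ∈ Lam n) :
    bc K2 ψ ∈ HT K2 n ∧ Anti (bc K2 ψ) ∧ FibEq (bc K2 ψ) :=
  have hQ : bc ℚ ψ ∈ HT ℚ n := bc_mem h.1
  ⟨bc_mem h.1, anti_bc (h.2.anti (by omega) hQ), fibEq_bc (h.2.fibEq (by omega) hQ)⟩

theorem bc_zsmul {k : Type} [CommRing k] (z : ℤ) (ψ : T ℤ) :
    bc k (z • ψ) = (z : k) • bc k ψ := by
  rw [map_zsmul, Int.cast_smul_eq_zsmul]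

theorem dep_zsmul (z : ℤ) (ψ : T ℤ) : dep (z • ψ) = z * dep ψ :=
  map_zsmul (AddMonoidHom.mk' dep dep_add) z ψ

theorem mon_Lam {ι : Type} {σ : ι → T ℤ} {wt : ι → ℕ} (hw : ∀ i, 3 ≤ wt i)
    (hσ : ∀ i, σ i ∈ Lam (wt i)) {n : ℕ} {a : Ih} (h : Mon (G := Ih) σ wt n a) :
    3 ≤ n ∧ (show T ℤ from a) ∈ Lam n := by
  induction h with
  | of i => exact ⟨hw i, hσ i⟩
  | @br m n a b _ _ h1 h2 =>
    refine ⟨by omega, ih_mem h1.2.1 h2.2.1, ?_⟩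
    exact (bc_ih (k := ℚ) a b).symm ▸
      Pent.ih h1.1 h2.1 (bc_mem h1.2.1) (bc_mem h2.2.1) h1.2.2 h2.2.2

theorem mon_surj {ι : Type} {σ : ι → T ℤ} {wt : ι → ℕ} {c : ι → T K2}
    (hc : ∀ i, Rep (bc K2 (σ i)) (c i)) {n : ℕ} {φ : T K2} (h : Mon c wt n φ) :
    ∃ ψ : T ℤ, Mon (G := Ih) σ wt n ψ ∧ Rep (bc K2 ψ) φ := by
  induction h with
  | of i => exact ⟨σ i, Mon.of (G := Ih) i, hc i⟩
  | br _ _ h1 h2 =>
    obtain ⟨a, a1, a2⟩ := h1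
    obtain ⟨b, b1, b2⟩ := h2
    refine ⟨ih a b, Mon.br (G := Ih) a1 b1, ?_⟩
    rw [bc_ih]
    exact a2.ih b2

theorem mon_dep {ι : Type} {σ : ι → T ℤ} {wt : ι → ℕ} (hw : ∀ i, 3 ≤ wt i)
    (hσ : ∀ i, σ i ∈ Lam (wt i)) {n : ℕ} {a : Ih} (h : Mon (G := Ih) σ wt n a)
    (hn : ∀ i, wt i ≠ n) : dep (show T ℤ from a) = 0 := by
  cases h with
  | of i => exact absurd rfl (hn i)
  | br h1 h2 =>
    have g1 := mon_Lam hw hσ h1
    have g2 := mon_Lam hw hσ h2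
    exact dep_ih g1.2.1 g2.2.1 (by omega) (by omega)

theorem mon_lt (k : ℕ) {n : ℕ} {a : T K2} (h : Mon (ak K2) (fun i => 2 * i + 3) n a)
    (hn : n < 2 * k + 3) : Mon (fun i : Fin k => ak K2 i) (fun i => 2 * i.val + 3) n a := by
  induction h with
  | of i =>
    have hi : i < k := by omega
    exact Mon.of (g := fun i : Fin k => ak K2 i) (wt := fun i => 2 * i.val + 3) ⟨i, hi⟩
  | br _ _ h1 h2 => exact Mon.br (h1 (by omega)) (h2 (by omega))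

theorem mon_eq (k : ℕ) {n : ℕ} {a : T K2} (h : Mon (ak K2) (fun i => 2 * i + 3) n a)
    (hn : n = 2 * k + 3) :
    a = ak K2 k ∨ Mon (fun i : Fin k => ak K2 i) (fun i => 2 * i.val + 3) n a := by
  cases h with
  | of i =>
    have hi : i = k := by omega
    exact Or.inl (by rw [hi])
  | br h1 h2 =>
    have g1 := h1.pos fun i => by omega
    have g2 := h2.pos fun i => by omega
    exact Or.inr (Mon.br (mon_lt k h1 (by omega)) (mon_lt k h2 (by omega)))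

end SigmaAux

open SigmaAux

theorem Lam_rep {n : ℕ} (hn : 3 ≤ n) {ψ : T ℤ} (h : ψ ∈ Lam n) :
    ∃ φ ∈ H K2 (ak K2) (fun i => 2 * i + 3) n, Rep (bc K2 ψ) φ := by
  obtain ⟨h1, h2, h3⟩ := two_data hn h
  obtain ⟨φ, hφ, hr⟩ := (step_one hn h1 h2 h3).2
  exact ⟨φ, H23_le (by omega) hφ, hr⟩

theorem Lam_half {n : ℕ} (hn : 3 ≤ n) {ψ : T ℤ} (h : ψ ∈ Lam n) (h0 : Rep (bc K2 ψ) 0) :
    ∃ ψ' ∈ Lam n, ψ = (2 : ℤ) • ψ' := by
  obtain ⟨h1, h2, h3⟩ := two_data hn h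
  obtain ⟨g, hg⟩ := bc_two_ker (step_two hn h1 h2 h3 h0)
  refine ⟨g, ⟨saturated h.1 hg, ?_⟩, hg⟩
  have e : bc ℚ g = (2 : ℚ)⁻¹ • bc ℚ ψ := by
    rw [hg, bc_zsmul, smul_smul]
    norm_num
  rw [e]
  exact h.2.smul _

section
variable {ι : Type} {σ : ι → T ℤ} {wt : ι → ℕ} {c : ι → T K2}

theorem Dn_le (hw : ∀ i, 3 ≤ wt i) (hσ : ∀ i, σ i ∈ Lam (wt i)) (n : ℕ) : Dn σ wt n ≤ Lam n := by
  exact Submodule.span_le.2 fun a ha => (mon_Lam hw hσ ha).2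

theorem Dn_surj (hc : ∀ i, Rep (bc K2 (σ i)) (c i)) {n : ℕ} {φ : T K2} (hφ : φ ∈ H K2 c wt n) :
    ∃ ψ ∈ Dn σ wt n, Rep (bc K2 ψ) φ := by
  induction hφ using Submodule.span_induction with
  | mem φ h =>
    obtain ⟨ψ, h1, h2⟩ := mon_surj hc h
    exact ⟨ψ, Submodule.subset_span h1, h2⟩
  | zero => exact ⟨0, zero_mem _, by rw [map_zero]; exact Rep.zero⟩
  | add a b _ _ h1 h2 =>
    obtain ⟨p, p1, p2⟩ := h1
    obtain ⟨q, q1, q2⟩ := h2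
    exact ⟨p + q, add_mem p1 q1, by rw [map_add]; exact p2.add q2⟩
  | smul r a _ h1 =>
    obtain ⟨p, p1, p2⟩ := h1
    obtain ⟨z, rfl⟩ := ZMod.intCast_surjective r
    exact ⟨z • p, Submodule.smul_mem _ z p1, by rw [bc_zsmul]; exact p2.smul _⟩

theorem Dn_dep (hw : ∀ i, 3 ≤ wt i) (hσ : ∀ i, σ i ∈ Lam (wt i)) {n : ℕ} (hn : ∀ i, wt i ≠ n)
    {ψ : T ℤ} (h : ψ ∈ Dn σ wt n) : dep ψ = 0 := by
  induction h using Submodule.span_induction with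
  | mem a h => exact mon_dep hw hσ h hn
  | zero => rw [← zero_smul ℤ (0 : T ℤ), dep_zsmul, zero_mul]
  | add a b _ _ h1 h2 => rw [dep_add, h1, h2, add_zero]
  | smul r a _ h1 => rw [dep_zsmul, h1, mul_zero]

/-- Nakayama's lemma -/
theorem Lam_nak (hw : ∀ i, 3 ≤ wt i) (hσ : ∀ i, σ i ∈ Lam (wt i))
    (hc : ∀ i, Rep (bc K2 (σ i)) (c i)) {n : ℕ} (hn : 3 ≤ n)
    (h : ∀ ψ ∈ Lam n, ∃ φ ∈ H K2 c wt n, Rep (bc K2 ψ) φ) :
    ∃ r : ℤ, r ≠ 0 ∧ ∀ ψ ∈ Lam n, r • ψ ∈ Dn σ wt n := by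
  have hfg : (Lam n).FG := Submodule.FG.of_le (HT_fg n) fun ψ hψ => hψ.1
  have hle : Lam n ≤ Dn σ wt n ⊔ Ideal.span {(2 : ℤ)} • Lam n := by
    intro ψ hψ
    obtain ⟨φ, h1, h2⟩ := h ψ hψ
    obtain ⟨ψ', h3, h4⟩ := Dn_surj hc h1
    have h5 := h2.add h4
    rw [add_self_two, ← map_add] at h5
    obtain ⟨χ, h6, h7⟩ := Lam_half hn (add_mem hψ (Dn_le hw hσ n h3)) h5
    rw [show ψ = -ψ' + (2 : ℤ) • χ by rw [← h7]; abel]
    exact Submodule.add_mem_sup (neg_mem h3)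
      (Submodule.smul_mem_smul (Ideal.mem_span_singleton_self _) h6)
  obtain ⟨r, h1, h2⟩ := Submodule.exists_sub_one_mem_and_smul_le_of_fg_of_le_sup hfg le_rfl hle
  refine ⟨r, ?_, fun ψ hψ => h2 (Submodule.smul_mem_pointwise_smul ψ r _ hψ)⟩
  rw [Ideal.mem_span_singleton] at h1
  omega

end

theorem H_ak_split (k : ℕ) {φ : T K2} (h : φ ∈ H K2 (ak K2) (fun i => 2 * i + 3) (2 * k + 3)) :
    ∃ r : K2, φ - r • ak K2 k ∈
      H K2 (fun i : Fin k => ak K2 i) (fun i => 2 * i.val + 3) (2 * k + 3) := by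
  induction h using Submodule.span_induction with
  | mem a h =>
    rcases mon_eq k h rfl with rfl | h1
    · exact ⟨1, by rw [one_smul, sub_self]; exact zero_mem _⟩
    · exact ⟨0, by rw [zero_smul, sub_zero]; exact Submodule.subset_span h1⟩
  | zero => exact ⟨0, by rw [zero_smul, sub_zero]; exact zero_mem _⟩
  | add a b _ _ h1 h2 =>
    obtain ⟨r, hr⟩ := h1
    obtain ⟨s, hs⟩ := h2
    refine ⟨r + s, ?_⟩
    rw [add_smul, ← sub_add_sub_comm]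
    exact add_mem hr hs
  | smul s a _ h1 =>
    obtain ⟨r, hr⟩ := h1
    refine ⟨s * r, ?_⟩
    rw [mul_smul, ← smul_sub]
    exact Submodule.smul_mem _ s hr

theorem exists_sigma : ∃ σ : ℕ → T ℤ, ∀ k, σ k ∈ Lam (2 * k + 3) ∧ Rep (bc K2 (σ k)) (ak K2 k) := by
  suffices h : ∀ k, ∃ s : T ℤ, s ∈ Lam (2 * k + 3) ∧ Rep (bc K2 s) (ak K2 k) by
    choose σ hσ using h
    exact ⟨σ, hσ⟩
  intro k
  induction k using Nat.strong_induction_on with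
  | _ k hk =>
    choose σ hσ hc using fun i : Fin k => hk i i.2
    by_contra hcon
    have hw : ∀ i : Fin k, 3 ≤ 2 * i.val + 3 := fun i => by omega
    have hn : 3 ≤ 2 * k + 3 := by omega
    obtain ⟨r, hr, h1⟩ := Lam_nak hw hσ hc hn fun ψ hψ => by
      obtain ⟨φ, h1, h2⟩ := Lam_rep hn hψ
      obtain ⟨r, h3⟩ := H_ak_split k h1
      have h01 : ∀ r : K2, r = 0 ∨ r = 1 := by decide
      rcases h01 r with rfl | rfl
      · rw [zero_smul, sub_zero] at h3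
        exact ⟨φ, h3, h2⟩
      · obtain ⟨ψ', h4, h5⟩ := Dn_surj hc h3
        have h6 := h2.add h5
        rw [one_smul, ← map_add, sub_eq_add_neg, ← add_assoc, add_self_two, zero_add,
          neg_eq_two] at h6
        exact absurd ⟨ψ + ψ', add_mem hψ (Dn_le hw hσ _ h4), h6⟩ hcon
    obtain ⟨φ, h2, h3, h4⟩ := exists_depth_one hn ⟨k + 1, by omega⟩
    obtain ⟨c, hc0, g, h5, h6⟩ := exists_int_H h2
    have h7 : g ∈ Lam (2 * k + 3) := ⟨h5, by rw [h6]; exact h3.smul _⟩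
    have h8 := Dn_dep hw hσ (fun i => by have := i.2; omega) (h1 g h7)
    rw [dep_zsmul] at h8
    have h9 := dep_bc (k := ℚ) g
    rw [h6, dep_smul, (mul_eq_zero.1 h8).resolve_left hr, Int.cast_zero] at h9
    exact h4 ((mul_eq_zero.1 h9).resolve_left (Int.cast_ne_zero.2 hc0))

end Vale.Agent.P029
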