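import Vale.Agent.P029.Basic

/-! Extensions of rank two in characteristic two, and free generators. -/

noncomputable section

namespace Vale.Agent.P029

abbrev K2 : Type := ZMod 2

theorem add_self_two {A : Type} [AddCommGroup A] [Module K2 A] (a : A) : a + a = 0 := by
  rw [← two_smul K2 a]
  exact zero_smul K2 a

theorem neg_eq_two {A : Type} [AddCommGroup A] [Module K2 A] (a : A) : -a = a :=
  neg_eq_of_add_eq_zero_left (add_self_two a)

theorem br_two {A : Type} [Ring A] [Algebra K2 A] (a b : A) : ⁅a, b⁆ = a * b + b * a := by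
  rw [Ring.lie_def, sub_eq_add_neg, neg_eq_two]

/-- adjoining an element `c` with `⁅c, m⁆ = d m` and `c * c = h` -/
theorem rank_two {R : Type} [Ring R] [Algebra K2 R] {d : Module.End K2 R} (hd : Der d) {h : R}
    (h1 : d h = 0) (h2 : ∀ m, d (d m) = ⁅h, m⁆) :
    ∃ (E : Type) (_ : Ring E) (_ : Algebra K2 E) (f : R →ₐ[K2] E) (c : E),
      Function.Injective f ∧ c * c = f h ∧ ∀ m, ⁅c, f m⁆ = f (d m) := by
  let c : Module.End K2 (R × R) :=
    (d ∘ₗ LinearMap.fst K2 R R + LinearMap.mulRight K2 h ∘ₗ LinearMap.snd K2 R R).prod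
      (LinearMap.fst K2 R R + d ∘ₗ LinearMap.snd K2 R R)
  have hc : ∀ x, c x = (d x.1 + x.2 * h, x.1 + d x.2) := fun _ => rfl
  have hf : ∀ (m : R) (x : R × R), Algebra.lsmul K2 K2 (R × R) m x = (m * x.1, m * x.2) :=
    fun _ _ => rfl
  refine ⟨Module.End K2 (R × R), inferInstance, inferInstance, Algebra.lsmul K2 K2 (R × R), c,
    fun a b e => ?_, LinearMap.ext fun x => ?_, fun m => LinearMap.ext fun x => ?_⟩
  · have := congrArg Prod.fst (LinearMap.congr_fun e (1, 0))
    simpa only [hf, mul_one] using this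
  · rw [Module.End.mul_apply, hc, hc, hf]
    simp only [map_add, h2, hd _ _, h1, br_two]
    refine Prod.ext ?_ ?_
    · linear_combination (norm := noncomm_ring) add_self_two (x.1 * h + d x.2 * h)
    · linear_combination (norm := noncomm_ring) add_self_two (x.2 * h + d x.1)
  · rw [Ring.lie_def, LinearMap.sub_apply, Module.End.mul_apply, Module.End.mul_apply, hf, hc, hc,
      hf, hf]
    simp only [hd _ _, Prod.mk_sub_mk]
    refine Prod.ext ?_ ?_ <;> noncomm_ring

/-- the square of a derivation of a free algebra is determined on the generators -/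
theorem sq_der {ι : Type} {d : Module.End K2 (FreeAlgebra K2 ι)} (hd : Der d)
    {h : FreeAlgebra K2 ι} (h2 : ∀ i, d (d (FreeAlgebra.ι K2 i)) = ⁅h, FreeAlgebra.ι K2 i⁆) :
    ∀ m, d (d m) = ⁅h, m⁆ := by
  have := derAl_ext (f := AlgHom.id K2 _) (d := d ∘ₗ d)
    (d' := LinearMap.mulLeft K2 h - LinearMap.mulRight K2 h)
    (fun m n => by
      simp only [LinearMap.comp_apply, hd _ _, map_add, AlgHom.id_apply]
      linear_combination (norm := noncomm_ring) add_self_two (d m * d n))
    (fun m n => by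
      simp only [LinearMap.sub_apply, LinearMap.mulLeft_apply, LinearMap.mulRight_apply,
        AlgHom.id_apply]
      noncomm_ring) h2
  exact fun m => LinearMap.congr_fun this m

namespace TwoAux

/-- the derivation with given values on the generators -/
abbrev D {k ι : Type} [CommRing k] (v : ι → FreeAlgebra k ι) : Module.End k (FreeAlgebra k ι) :=
  dvG (FreeAlgebra.ι k) v

theorem step {ι : Type} (v : ι → FreeAlgebra K2 ι) (h : FreeAlgebra K2 ι) (h1 : D v h = 0)
    (h2 : ∀ i, D v (v i) = ⁅h, FreeAlgebra.ι K2 i⁆) :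
    ∃ (E : Type) (_ : Ring E) (_ : Algebra K2 E) (f : FreeAlgebra K2 ι →ₐ[K2] E) (c : E),
      Function.Injective f ∧ c * c = f h ∧ ∀ i, c * f (FreeAlgebra.ι K2 i) =
        f (FreeAlgebra.ι K2 i) * c + f (v i) := by
  obtain ⟨E, _, _, f, c, f1, f2, f3⟩ := rank_two (dvG_self_der v) h1
    (sq_der (dvG_self_der v) fun i => by rw [dvG_of]; exact h2 i)
  refine ⟨E, _, _, f, c, f1, f2, fun i => ?_⟩
  have := f3 (FreeAlgebra.ι K2 i)
  rw [dvG_of, Ring.lie_def] at this
  rw [← this, add_sub_cancel]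

theorem inj {k ι A E : Type} [CommRing k] [Ring A] [Algebra k A] [Ring E] [Algebra k E]
    {w : ι → A} (u : A →ₐ[k] E) {f : FreeAlgebra k ι →ₐ[k] E} (hf : Function.Injective f)
    (h : ∀ i, u (w i) = f (FreeAlgebra.ι k i)) : Function.Injective (FreeAlgebra.lift k w) := by
  have : u.comp (FreeAlgebra.lift k w) = f := FreeAlgebra.hom_ext (funext fun i => by simp [h])
  exact Function.Injective.of_comp (f := u) (by rw [← this] at hf; exact hf)

theorem inj' {k ι A E : Type} [CommRing k] [Ring A] [Algebra k A] [Ring E] [Algebra k E]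
    {w : ι → A} {w' : ι → E} {u : A →ₐ[k] E} (hu : Function.Injective u)
    (hw : Function.Injective (FreeAlgebra.lift k w)) (h : ∀ i, w' i = u (w i)) :
    Function.Injective (FreeAlgebra.lift k w') := by
  have : FreeAlgebra.lift k w' = u.comp (FreeAlgebra.lift k w) :=
    FreeAlgebra.hom_ext (funext fun i => by simp [h])
  rw [this]
  exact hu.comp hw

end TwoAux

open TwoAux

/-- the elements `ad(X) ^ i Y` -/
def ak (k : Type) [CommRing k] (i : ℕ) : T k := (fun z => ⁅X k, z⁆)^[i] (Y k)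

theorem TwoAux.ak_succ (k : Type) [CommRing k] (i : ℕ) : ak k (i + 1) = ⁅X k, ak k i⁆ :=
  Function.iterate_succ_apply' _ _ _

theorem ak_free {k : Type} [CommRing k] : Function.Injective (FreeAlgebra.lift k (ak k)) := by
  refine inj (ev (D fun i : ℕ => FreeAlgebra.ι k (i + 1)) (Lm (FreeAlgebra.ι k 0))) Lm_injective
    fun i => ?_
  induction i with
  | zero => exact ev_Y _ _
  | succ i ih => rw [ak_succ, map_br, ih, ev_X, (dvG_self_der _).lie_Lm, dvG_of]

theorem model_B : ∃ (E : Type) (_ : Ring E) (_ : Algebra K2 E) (a b : E), b * b = 0 ∧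
    Function.Injective (ev ⁅a, b⁆ ⁅b, a * a⁆ : T K2 →ₐ[K2] E) := by
  obtain ⟨E, _, _, f, c, f1, f2, f3⟩ := step (ι := Fin 2) ![Y K2, 0] 0 (map_zero _) fun i => by
    fin_cases i <;> simp [Y, Ring.lie_def]
  have h0 : c * f (X K2) = f (X K2) * c + f (Y K2) := f3 0
  have h1 : Function.Injective (FreeAlgebra.lift K2 ![FreeAlgebra.ι K2 (0 : ℕ), FreeAlgebra.ι K2 1]) :=
    inj (FreeAlgebra.lift K2 fun i : ℕ => if i = 0 then X K2 else Y K2) (f := AlgHom.id K2 _)
      Function.injective_id fun i => by fin_cases i <;> simp [X, Y]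
  refine ⟨E, _, _, f (X K2), c, f2.trans (map_zero _), inj' (f1.comp ak_free)
    (u := f.comp (FreeAlgebra.lift K2 (ak K2))) h1 fun i => ?_⟩
  have a0 : ak K2 0 = Y K2 := rfl
  fin_cases i
  · simp only [Fin.zero_eta, Matrix.cons_val_zero, AlgHom.comp_apply, FreeAlgebra.lift_ι_apply, a0,
      br_two]
    linear_combination (norm := noncomm_ring) h0 + add_self_two (f (X K2) * c)
  · simp only [Fin.mk_one, Matrix.cons_val_one, Matrix.cons_val_zero, AlgHom.comp_apply,
      FreeAlgebra.lift_ι_apply, ak_succ, a0, br_two, map_add, map_mul]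
    linear_combination (norm := noncomm_ring) h0 * f (X K2) + f (X K2) * h0 +
      add_self_two (f (X K2) * f (X K2) * c)

theorem TwoAux.free_A : Function.Injective
    (FreeAlgebra.lift K2 ![X K2, Y K2 * X K2 + X K2 * Y K2, Y K2 * Y K2]) := by
  obtain ⟨E, _, _, f, c, f1, f2, f3⟩ := step (ι := Fin 3)
    ![FreeAlgebra.ι K2 1, ⁅FreeAlgebra.ι K2 (2 : Fin 3), FreeAlgebra.ι K2 (0 : Fin 3)⁆, 0] (FreeAlgebra.ι K2 2)
    (by simp) fun i => by
      fin_cases i <;> simp [(dvG_self_der _).br, Ring.lie_def (0 : FreeAlgebra K2 (Fin 3)),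
        Ring.lie_def (FreeAlgebra.ι K2 (2 : Fin 3)) (FreeAlgebra.ι K2 2)]
  refine inj (ev (f (FreeAlgebra.ι K2 0)) c) f1 fun i => ?_
  have h0 : c * f (FreeAlgebra.ι K2 0) = f (FreeAlgebra.ι K2 0) * c + f (FreeAlgebra.ι K2 1) := f3 0
  fin_cases i
  · simp
  · simp only [Fin.mk_one, Matrix.cons_val_one, Matrix.cons_val_zero, map_add, map_mul, ev_X, ev_Y]
    linear_combination (norm := noncomm_ring) h0 + add_self_two (f (FreeAlgebra.ι K2 0) * c)
  · simpa using f2

theorem TwoAux.free_B : Function.Injective (FreeAlgebra.lift K2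
    ![FreeAlgebra.ι K2 (0 : Fin 3) * FreeAlgebra.ι K2 0, FreeAlgebra.ι K2 1,
      FreeAlgebra.ι K2 0 * FreeAlgebra.ι K2 1 + FreeAlgebra.ι K2 1 * FreeAlgebra.ι K2 0,
      FreeAlgebra.ι K2 2,
      FreeAlgebra.ι K2 0 * FreeAlgebra.ι K2 2 + FreeAlgebra.ι K2 2 * FreeAlgebra.ι K2 0]) := by
  obtain ⟨E, _, _, f, c, f1, f2, f3⟩ := step (ι := Fin 5)
    ![0, FreeAlgebra.ι K2 2, ⁅FreeAlgebra.ι K2 (0 : Fin 5), FreeAlgebra.ι K2 (1 : Fin 5)⁆,
      FreeAlgebra.ι K2 4, ⁅FreeAlgebra.ι K2 (0 : Fin 5), FreeAlgebra.ι K2 (3 : Fin 5)⁆] (FreeAlgebra.ι K2 0)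
    (by simp) fun i => by
      fin_cases i <;> simp [(dvG_self_der _).br, Ring.lie_def (0 : FreeAlgebra K2 (Fin 5)),
        Ring.lie_def (FreeAlgebra.ι K2 (0 : Fin 5)) (FreeAlgebra.ι K2 0)]
  refine inj (FreeAlgebra.lift K2 ![c, f (FreeAlgebra.ι K2 1), f (FreeAlgebra.ι K2 3)]) f1
    fun i => ?_
  have h1 : c * f (FreeAlgebra.ι K2 1) = f (FreeAlgebra.ι K2 1) * c + f (FreeAlgebra.ι K2 2) := f3 1
  have h3 : c * f (FreeAlgebra.ι K2 3) = f (FreeAlgebra.ι K2 3) * c + f (FreeAlgebra.ι K2 4) := f3 3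
  fin_cases i
  · simpa using f2
  · simp
  · simp
    linear_combination (norm := noncomm_ring) h1 + add_self_two (f (FreeAlgebra.ι K2 1) * c)
  · simp
  · simp
    linear_combination (norm := noncomm_ring) h3 + add_self_two (f (FreeAlgebra.ι K2 3) * c)

theorem TwoAux.free_C : Function.Injective (FreeAlgebra.lift K2
    ![FreeAlgebra.ι K2 (0 : Fin 5), FreeAlgebra.ι K2 1, FreeAlgebra.ι K2 1 + FreeAlgebra.ι K2 3,
      FreeAlgebra.ι K2 4, FreeAlgebra.ι K2 2]) :=
  inj (FreeAlgebra.lift K2 ![FreeAlgebra.ι K2 (0 : Fin 5), FreeAlgebra.ι K2 1, FreeAlgebra.ι K2 4,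
    FreeAlgebra.ι K2 2 - FreeAlgebra.ι K2 1, FreeAlgebra.ι K2 3]) (f := AlgHom.id K2 _)
    Function.injective_id fun i => by fin_cases i <;> simp

theorem model_R : ∃ (E : Type) (_ : Ring E) (_ : Algebra K2 E) (α β γ : E),
    α * α = 0 ∧ β * β = 0 ∧ γ * γ = 0 ∧ Function.Injective (FreeAlgebra.lift K2
      ![⁅α, β⁆, (α + β + γ) * (α + β + γ), ⁅α + β + γ, α⁆, ⁅α, (α + β + γ) * (α + β + γ)⁆,
        ⁅γ, ⁅α, β⁆⁆] : FreeAlgebra K2 (Fin 5) →ₐ[K2] E) := by
  obtain ⟨E, _, _, f, c, f1, f2, f3⟩ := step (ι := Fin 2) ![X K2 * X K2, Y K2 * Y K2] 0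
    (map_zero _) fun i => by
      fin_cases i <;> simp [X, Y, Ring.lie_def, dvG_self_der _ _ _, mul_assoc, add_self_two]
  have hx : c * f (X K2) = f (X K2) * c + f (X K2) * f (X K2) := (f3 0).trans (by simp [X])
  have hy : c * f (Y K2) = f (Y K2) * c + f (Y K2) * f (Y K2) := (f3 1).trans (by simp [Y])
  rw [map_zero] at f2
  have e1 : ⁅f (X K2) + c, c⁆ = f (X K2) * f (X K2) := by
    rw [br_two]
    linear_combination (norm := noncomm_ring) hx + add_self_two (f (X K2) * c + c * c)
  have e2 : (f (X K2) + c + c + (f (Y K2) + c)) * (f (X K2) + c + c + (f (Y K2) + c)) =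
      f (Y K2) * f (X K2) + f (X K2) * f (Y K2) := by
    rw [add_assoc _ c c, add_self_two, add_zero]
    linear_combination (norm := noncomm_ring) hx + hy + f2 + add_self_two (f (X K2) * c +
      f (Y K2) * c + f (X K2) * f (X K2) + f (Y K2) * f (Y K2))
  refine ⟨E, _, _, f (X K2) + c, c, f (Y K2) + c, ?_, f2, ?_,
    inj' ((f1.comp free_A).comp free_B) (u := (f.comp _).comp _) free_C fun i => ?_⟩
  · linear_combination (norm := noncomm_ring) hx + f2 +
      add_self_two (f (X K2) * c + f (X K2) * f (X K2))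
  · linear_combination (norm := noncomm_ring) hy + f2 +
      add_self_two (f (Y K2) * c + f (Y K2) * f (Y K2))
  rw [e1, e2, add_assoc _ c c, add_self_two, add_zero]
  generalize hX : f (X K2) = x at *
  generalize hY : f (Y K2) = y at *
  fin_cases i
  · simp [hX]
  · simp [hX, hY]
  · simp [hX, hY, br_two]
    linear_combination (norm := noncomm_ring) hy + (2 : E) * hx +
      add_self_two (x * x + x * c + y * c + c * c + x * c + x * x)
  · simp [hX, hY, br_two]
    linear_combination (norm := noncomm_ring) hy * x + y * hx + hx * y + x * hy +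
      add_self_two (y * x * c + x * y * c + x * y * x + x * x * y + y * x * x)
  · simp [hX, hY, br_two]
    linear_combination (norm := noncomm_ring) hx * x + x * hx +
      add_self_two (x * x * c + x * x * x) - add_self_two (x * y * x)

theorem model_R' : ∃ (E : Type) (_ : Ring E) (_ : Algebra K2 E) (α β γ : E),
    β * β = 0 ∧ γ * γ = 0 ∧ Function.Injective (ev (α + β + γ) α : T K2 →ₐ[K2] E) := by
  obtain ⟨E, _, _, f, c, f1, f2, f3⟩ := step (ι := Fin 2) ![0, Y K2 * Y K2] 0
    (map_zero _) fun i => by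
      fin_cases i <;> simp [Y, Ring.lie_def, dvG_self_der _ _ _, mul_assoc, add_self_two]
  have hy : c * f (Y K2) = f (Y K2) * c + f (Y K2) * f (Y K2) := (f3 1).trans (by simp [Y])
  rw [map_zero] at f2
  refine ⟨E, _, _, f (X K2), c, f (Y K2) + c, f2, ?_, inj' f1 (w := ![X K2 + Y K2, X K2])
    (inj (ev (Y K2) (X K2 - Y K2)) (f := AlgHom.id K2 _) Function.injective_id fun i => ?_)
    fun i => ?_⟩
  · linear_combination (norm := noncomm_ring) hy + f2 +
      add_self_two (f (Y K2) * c + f (Y K2) * f (Y K2))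
  · fin_cases i
    · simp; rfl
    · simp; rfl
  · fin_cases i
    · simp
      linear_combination (norm := noncomm_ring) add_self_two c
    · simp

theorem H23_le {k : Type} [CommRing k] {n : ℕ} (hn : n ≠ 2) :
    H23 k n ≤ H k (ak k) (fun i => 2 * i + 3) n := by
  have h0 : ∀ m, m < 3 → ∀ a ∈ H k (ak k) (fun i => 2 * i + 3) m, a = 0 := fun m hm a ha => by
    have : ∀ n a, Mon (ak k) (fun i => 2 * i + 3) n a → 3 ≤ n := fun n a h => by
      induction h with
      | of i => omega
      | br _ _ h1 h2 => omega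
    exact Submodule.span_eq_bot.2 (fun a ha => absurd (this _ a ha) (by omega)) |>.le ha
  have h1 : ∀ m, ∀ a ∈ Submodule.span k {X k}, ∀ b ∈ H k (ak k) (fun i => 2 * i + 3) m,
      ⁅a, b⁆ ∈ H k (ak k) (fun i => 2 * i + 3) (2 + m) := fun m a ha b hb => by
    obtain ⟨r, rfl⟩ := Submodule.mem_span_singleton.1 ha
    have := H_der (d := LinearMap.mulLeft k (X k) - LinearMap.mulRight k (X k)) (r := 2)
      (fun m n => by
        simp only [LinearMap.sub_apply, LinearMap.mulLeft_apply, LinearMap.mulRight_apply]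
        noncomm_ring)
      (fun i => by
        have := H_of (k := k) (g := ak k) (wt := fun i => 2 * i + 3) (i + 1)
        rw [ak_succ, show 2 * (i + 1) + 3 = 2 + (2 * i + 3) by ring] at this
        exact this) hb
    have e : ⁅r • X k, b⁆ = r • (X k * b - b * X k) := by simp [Ring.lie_def, smul_sub]
    rw [e]
    exact Submodule.smul_mem _ r this
  have := H_le (k := k) (g := FreeAlgebra.ι k) (wt := ![2, 3])
    (fun n => if n = 2 then Submodule.span k {X k} else H k (ak k) (fun i => 2 * i + 3) n)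
    (fun i => by
      fin_cases i
      · exact Submodule.mem_span_singleton_self _
      · exact H_of (g := ak k) (wt := fun i => 2 * i + 3) 0)
    (fun m n a b _ _ ha hb => by
      by_cases hm : m = 2 <;> by_cases hn : n = 2
      · rw [if_pos hm] at ha
        rw [if_pos hn] at hb
        obtain ⟨r, rfl⟩ := Submodule.mem_span_singleton.1 ha
        obtain ⟨s, rfl⟩ := Submodule.mem_span_singleton.1 hb
        simp [Ring.lie_def, smul_smul, mul_comm]
      · rw [if_pos hm] at ha
        rw [if_neg hn] at hb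
        split_ifs with h
        · simp [h0 n (by omega) b hb, Ring.lie_def]
        · subst hm
          exact h1 n a ha b hb
      · rw [if_neg hm] at ha
        rw [if_pos hn] at hb
        split_ifs with h
        · simp [h0 m (by omega) a ha, Ring.lie_def]
        · have := neg_mem (h1 m b hb a ha)
          subst hn
          rwa [Ring.lie_def, neg_sub, add_comm] at this
      · rw [if_neg hm] at ha
        rw [if_neg hn] at hb
        split_ifs with h
        · simp [h0 m (by omega) a ha, Ring.lie_def]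
        · exact H_br ha hb) n
  rwa [if_neg hn] at this

end Vale.Agent.P029
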