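import Vale.Agent.P029.Fil

/-! Universal nilpotent algebras and exponentials of twisted derivations. -/

noncomputable section

namespace Vale.Agent.P029

variable {K : Type} [Field K] [CharZero K] {ι : Type}

/-- the relations `r` together with all words of length `N + 1` -/
def relN (r : FreeAlgebra K ι → Prop) (N : ℕ) (p q : FreeAlgebra K ι) : Prop :=
  q = 0 ∧ (r p ∨ ∃ l : List ι, l.length = N + 1 ∧ p = (l.map (FreeAlgebra.ι K)).prod)

/-- the universal nilpotent algebra with relations `r` -/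
abbrev UN (r : FreeAlgebra K ι → Prop) (N : ℕ) : Type := RingQuot (relN r N)

def gen (r : FreeAlgebra K ι → Prop) (N : ℕ) (i : ι) : UN r N :=
  RingQuot.mkAlgHom K (relN r N) (FreeAlgebra.ι K i)

variable {r : FreeAlgebra K ι → Prop} {N : ℕ}

theorem UN_rel {p : FreeAlgebra K ι} (h : r p) : FreeAlgebra.lift K (gen r N) p = 0 := by
  have e : FreeAlgebra.lift K (gen r N) = RingQuot.mkAlgHom K (relN r N) :=
    FreeAlgebra.hom_ext (funext fun i => by simp [gen])
  rw [e, RingQuot.mkAlgHom_rel K (show relN r N p 0 from ⟨rfl, Or.inl h⟩), map_zero]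

theorem UN_nil : Nil K N (Set.range (gen r N)) := by
  refine nil_iff_list.2 fun l hl hlen => ?_
  obtain ⟨l', rfl⟩ : ∃ l' : List ι, l = l'.map (gen r N) := by
    clear hlen
    induction l with
    | nil => exact ⟨[], rfl⟩
    | cons a l ih =>
      obtain ⟨l', rfl⟩ := ih fun b hb => hl b (List.mem_cons_of_mem _ hb)
      obtain ⟨i, rfl⟩ := hl a List.mem_cons_self
      exact ⟨i :: l', rfl⟩
  have := RingQuot.mkAlgHom_rel K (show relN r N (l'.map (FreeAlgebra.ι K)).prod 0 from
    ⟨rfl, Or.inr ⟨l', by simpa using hlen, rfl⟩⟩)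
  rw [map_zero, map_list_prod, List.map_map] at this
  exact this

theorem UN_gen :
    Algebra.adjoin K (Submodule.span K (Set.range (gen r N)) : Set (UN r N)) = ⊤ := by
  have e : Set.range (gen r N) =
      RingQuot.mkAlgHom K (relN r N) '' Set.range (FreeAlgebra.ι K) := by
    rw [← Set.range_comp]; rfl
  rw [Algebra.adjoin_span, e, Algebra.adjoin_image, FreeAlgebra.adjoin_range_ι, Algebra.map_top,
    AlgHom.range_eq_top]
  exact RingQuot.mkAlgHom_surjective K _

theorem UN_lift {B : Type} [Ring B] [Algebra K B] (f : ι → B)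
    (h : ∀ p, r p → FreeAlgebra.lift K f p = 0) (hN : Nil K N (Set.range f)) :
    ∃ Φ : UN r N →ₐ[K] B, ∀ i, Φ (gen r N i) = f i := by
  refine ⟨RingQuot.liftAlgHom K ⟨FreeAlgebra.lift K f, ?_⟩, fun i => by
    rw [gen, RingQuot.liftAlgHom_mkAlgHom_apply, FreeAlgebra.lift_ι_apply]⟩
  rintro p q ⟨rfl, hp | ⟨l, hl, rfl⟩⟩
  · rw [h p hp, map_zero]
  · rw [map_zero, map_list_prod, List.map_map]
    refine nil_iff_list.1 hN _ (fun a ha => ?_) (by simpa using hl)
    obtain ⟨i, -, rfl⟩ := List.mem_map.1 ha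
    exact ⟨i, by simp⟩

theorem UN_der (τ : ι → UN r N) (hτ : ∀ i, τ i ∈ Fl (Submodule.span K (Set.range (gen r N))) 2)
    (h : ∀ p, r p → FreeAlgebra.lift K (fun i => du (gen r N i) (τ i)) p = 0) :
    ∃ d : Module.End K (UN r N), Der d ∧ (∀ i, d (gen r N i) = τ i) ∧
      ∀ m, ∀ a ∈ Fl (Submodule.span K (Set.range (gen r N))) m,
        d a ∈ Fl (Submodule.span K (Set.range (gen r N))) (m + 1) := by
  have hV := UN_gen (r := r) (N := N)
  have hbot := Fl_eq_bot (UN_nil (r := r) (N := N))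
  set V := Submodule.span K (Set.range (gen r N)) with hVd
  have hg : ∀ i, gen r N i ∈ Fl V 1 := fun i =>
    pow_le_Fl V 1 (by rw [pow_one]; exact Submodule.subset_span ⟨i, rfl⟩)
  have key : ∀ l : List (DualNumber (UN r N)),
      (∀ a ∈ l, a ∈ Set.range fun i => du (gen r N i) (τ i)) →
        l.prod.fst ∈ Fl V l.length ∧ l.prod.snd ∈ Fl V (l.length + 1) := by
    intro l hl
    induction l with
    | nil => exact ⟨by rw [List.length_nil, Fl_zero]; trivial, by simp⟩
    | cons a l ih =>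
      obtain ⟨h1, h2⟩ := ih fun b hb => hl b (List.mem_cons_of_mem _ hb)
      obtain ⟨i, rfl⟩ := hl a List.mem_cons_self
      have e : l.prod = du l.prod.fst l.prod.snd := by ext <;> simp
      rw [List.prod_cons, e, du_mul, fst_du, snd_du, List.length_cons]
      refine ⟨?_, add_mem ?_ ?_⟩
      · have := Fl_mul hV (hg i) h1
        rwa [add_comm] at this
      · have := Fl_mul hV (hτ i) h1
        rwa [add_comm] at this
      · have := Fl_mul hV (hg i) h2
        rwa [add_comm] at this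
  obtain ⟨Φ, hΦ⟩ := UN_lift (N := N) (fun i => du (gen r N i) (τ i)) h
    (nil_iff_list.2 fun l hl hlen => by
      obtain ⟨h1, h2⟩ := key l hl
      rw [hlen] at h1 h2
      have h3 := Fl_anti V (Nat.le_succ _) h2
      rw [hbot, Submodule.mem_bot] at h1 h3
      ext
      · exact h1
      · exact h3)
  have hf : ∀ a, (Φ a).fst = a := by
    have : (TrivSqZeroExt.fstHom K _ _).comp Φ = AlgHom.id K _ := by
      rw [Algebra.adjoin_span] at hV
      refine AlgHom.ext_of_adjoin_eq_top hV ?_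
      rintro _ ⟨i, rfl⟩
      simp [hΦ]
    exact fun a => DFunLike.congr_fun this a
  let d : Module.End K (UN r N) :=
    (TrivSqZeroExt.sndHom (UN r N) (UN r N)).restrictScalars K ∘ₗ Φ.toLinearMap
  have hd : ∀ a, d a = (Φ a).snd := fun a => rfl
  have hD : Der d := fun a b => by
    rw [hd, hd, hd, map_mul, DualNumber.snd_mul, hf, hf, add_comm]
  have hi : ∀ i, d (gen r N i) = τ i := fun i => by rw [hd, hΦ, snd_du]
  refine ⟨d, hD, hi, fun m a ha => Fl_der hV hD (r := 1) (fun v hv => ?_) ha⟩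
  have : V ≤ (Fl V 2).comap d := by
    rw [hVd, Submodule.span_le]
    rintro _ ⟨i, rfl⟩
    show d _ ∈ Fl V 2
    rw [hi]; exact hτ i
  exact this hv

section tw
variable {A : Type} [Ring A] [Algebra K A]

/-- the twisted derivation `m ↦ d m - m u + u' m` -/
def tw (d : Module.End K A) (u u' : A) : Module.End K A :=
  d - LinearMap.mulRight K u + LinearMap.mulLeft K u'

theorem tw_apply (d : Module.End K A) (u u' m : A) : tw d u u' m = d m - m * u + u' * m := by
  rfl

/-- the truncated exponential series -/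
def ex (N : ℕ) (E : Module.End K A) (m : A) : A :=
  ∑ i ∈ Finset.range (N + 1), ((i.factorial : K)⁻¹) • (E ^ i) m

theorem ex_mul {d : Module.End K A} (hd : Der d) {u0 u1 u2 : A} (h01 : tw d u0 u1 ^ (N + 1) = 0)
    (h12 : tw d u1 u2 ^ (N + 1) = 0) (h02 : tw d u0 u2 ^ (N + 1) = 0) (m m' : A) :
    ex N (tw d u0 u2) (m * m') = ex N (tw d u1 u2) m * ex N (tw d u0 u1) m' := by
  have h1 : ∀ a b, tw d u0 u2 (a * b) = tw d u1 u2 a * b + a * tw d u0 u1 b := fun a b => by
    simp only [tw_apply, hd a b]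
    noncomm_ring
  have h2 : ∀ n, (tw d u0 u2 ^ n) (m * m') = ∑ i ∈ Finset.range (n + 1),
      n.choose i • ((tw d u1 u2 ^ i) m * (tw d u0 u1 ^ (n - i)) m') := by
    intro n
    induction n with
    | zero => simp
    | succ n ih =>
      rw [Finset.sum_choose_succ_nsmul
        (fun i j => (tw d u1 u2 ^ i) m * (tw d u0 u1 ^ j) m'), pow_succ', Module.End.mul_apply, ih,
        map_sum, ← Finset.sum_add_distrib]
      refine Finset.sum_congr rfl fun i hi => ?_
      rw [map_nsmul, h1, smul_add, add_comm, pow_succ', Nat.succ_sub (Nat.lt_succ_iff.1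
        (Finset.mem_range.1 hi)), pow_succ']
      rfl
  have h3 : ∀ {E : Module.End K A}, E ^ (N + 1) = 0 → ∀ x, ∀ i ≥ N + 1,
      ((i.factorial : K)⁻¹) • (E ^ i) x = 0 := fun hE x i hi => by
    rw [pow_eq_zero_of_le hi hE]; simp
  unfold ex
  rw [← Finset.eventually_constant_sum (h3 h02 _) (show N + 1 ≤ 2 * N + 1 by omega),
    ← Finset.eventually_constant_sum (h3 h12 _) (show N + 1 ≤ 2 * N + 1 by omega), Finset.sum_mul]
  have h4 : ∀ n : ℕ, ((n.factorial : K)⁻¹) • (tw d u0 u2 ^ n) (m * m') =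
      ∑ i ∈ Finset.range (n + 1), (((i.factorial : K)⁻¹) • (tw d u1 u2 ^ i) m) *
        ((((n - i).factorial : K)⁻¹) • (tw d u0 u1 ^ (n - i)) m') := fun n => by
    rw [h2, Finset.smul_sum]
    refine Finset.sum_congr rfl fun i hi => ?_
    rw [smul_mul_smul_comm, ← Nat.cast_smul_eq_nsmul K, smul_smul,
      Nat.cast_choose K (Nat.lt_succ_iff.1 (Finset.mem_range.1 hi))]
    congr 1
    have := Nat.cast_ne_zero (R := K).2 n.factorial_ne_zero
    field_simp
  simp only [h4]
  rw [Finset.sum_range_diag_flip (2 * N + 1) (fun i j => (((i.factorial : K)⁻¹) •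
    (tw d u1 u2 ^ i) m) * (((j.factorial : K)⁻¹) • (tw d u0 u1 ^ j) m'))]
  refine Finset.sum_congr rfl fun i _ => ?_
  rw [← Finset.mul_sum]
  by_cases hi : N + 1 ≤ i
  · rw [h3 h12 _ i hi, zero_mul, zero_mul]
  · rw [Finset.eventually_constant_sum (h3 h01 _) (show N + 1 ≤ 2 * N + 1 - i by omega)]

theorem ex_one {d : Module.End K A} (hd : Der d) (u : A) : ex N (tw d u u) 1 = 1 := by
  have h : tw d u u 1 = 0 := by simp [tw_apply, hd.one]
  unfold ex
  rw [Finset.sum_range_succ']
  simp [pow_succ, h]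

theorem ev_ex {d : Module.End K A} (hd : Der d) {a b u u' : A} {ψ : T K} (ha : d a = ⁅a, u⁆)
    (hb : d b = ⁅b, u'⁆) (h : u' - u = ev a b ψ) (m : T K) :
    ev a b (ex N (act ψ) m) = ex N (tw d u u') (ev a b m) := by
  have h1 : ∀ m, ev a b (act ψ m) = tw d u u' (ev a b m) := fun m => by
    rw [tw_apply, hd.ev, ha, hb, dv_edge h, act_apply, map_add, map_mul, ← h, Ring.lie_def]
    noncomm_ring
  have h2 : ∀ i : ℕ, ev a b ((act ψ ^ i) m) = (tw d u u' ^ i) (ev a b m) := fun i => by
    induction i with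
    | zero => rfl
    | succ i ih => rw [pow_succ', pow_succ', Module.End.mul_apply, Module.End.mul_apply, h1, ih]
  simp only [ex, map_sum, map_smul, h2]

theorem tw_pow_eq_zero {V : Submodule K A} (hV : Algebra.adjoin K (V : Set A) = ⊤)
    (hN : Fl V (N + 1) = ⊥) {d : Module.End K A} (hd : ∀ m, ∀ a ∈ Fl V m, d a ∈ Fl V (m + 1))
    {u u' : A} (hu : u ∈ Fl V 1) (hu' : u' ∈ Fl V 1) : tw d u u' ^ (N + 1) = 0 := by
  refine pow_eq_zero_of_raise hN fun m a ha => ?_
  rw [tw_apply]
  refine add_mem (sub_mem (hd m a ha) (Fl_mul hV ha hu)) ?_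
  have := Fl_mul hV hu' ha
  rwa [add_comm] at this

end tw

end Vale.Agent.P029
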